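import Vale.Agent.P329.Mem

/-! Groups with an abelian normal subgroup whose quotient is elementary abelian. -/

namespace Vale.Agent.P329

/-! ### Runs of a letter -/

lemma Psi_snoc' {A M : Type} [AddCommMonoid M] [DecidableEq A] (a : A) (f : List A → M)
    (w : List A) (b : A) : Psi a f (w ++ [b]) = Psi a f w + if b = a then f w else 0 := by
  rw [Psi_snoc]
  by_cases h : b = a <;> simp [h]

section runs

variable {A : Type} {p : ℕ} [Fact p.Prime]

lemma lastB_not (c : A → ZMod p) (B : A → Bool) (m : Bool) (w : List A) :
    lastB c (fun b => !B b) (!m) w = !lastB c B m w := by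
  induction w using List.reverseRecOn with
  | nil => rfl
  | append_singleton w b ih =>
    rw [lastB_snoc, lastB_snoc, ih]
    split_ifs <;> rfl

lemma cf_lastB (c : A → ZMod p) (B : A → Bool) :
    CF (fun (b : A) (x : Bool) => if c b = 0 then x else B b) Set.univ := by
  intro w _ q k hk hq
  rcases last_moving c w with h0 | ⟨u, b, v, huv, hb, hv⟩
  · have := lastB_append_neutral c B q [] w h0
    rw [List.nil_append] at this
    exact this
  · have h1 : ∀ y : Bool, run (fun (b : A) (x : Bool) => if c b = 0 then x else B b) w y = B b := by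
      intro y
      have h2 : u ++ b :: v = (u ++ [b]) ++ v := by simp
      have h3 := lastB_append_neutral c B y (u ++ [b]) v hv
      rw [lastB_snoc, if_neg hb, ← h2, ← huv] at h3
      exact h3
    obtain ⟨j, rfl⟩ : ∃ j, k = j + 1 := ⟨k - 1, by omega⟩
    rw [Function.iterate_succ_apply', h1] at hq
    rw [h1, hq]

lemma good_lastB [Finite A] (c : A → ZMod p) (B : A → Bool) (m : Bool) :
    Good (fun w : List A => lastB c B m w) := fun x =>
  gsh_mono (Nat.zero_le 1) (schutz _ (cf_lastB c B) m x)

lemma good_csum [Finite A] (c : A → ZMod p) : Good (fun w : List A => csum c w) := by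
  have := (good_run (cntr 1 (ck c) fun b i => c b ≠ 0 ∧ i + c b = 0) (0, 0)
    (pcf_cntr 1 (ck c) _ 0 (fun b i h => h.2)
      (fun w q k _ _ h => H_ck c (fun b i => c b ≠ 0 ∧ i + c b = 0) (fun b i h1 h2 => ⟨h1, h2⟩)
        w q h)) (0, 0)).map (fun x => x.1)
  convert this using 1
  funext w
  have h : ∀ w : List A, (run (cntr 1 (ck c) fun b i => c b ≠ 0 ∧ i + c b = 0) w (0, 0)).1 =
      run (ck c) w 0 := by
    intro w
    induction w using List.reverseRecOn with
    | nil => rfl
    | append_singleton w a ih =>
      rw [run_append, run_append, run_singleton, run_singleton, ← ih]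
      rfl
  rw [h, run_ck, zero_add]

variable [Fintype A]

/-- the contributions of the runs of the letter `x` -/
lemma run_identity [DecidableEq A] (c : A → ZMod p) (x : A) (hx : c x ≠ 0) (g : ZMod p → ℤ)
    (w : List A) :
    Psi x (fun v => g (csum c v)) w - Psi x (fun v => g (csum c v + c x)) w =
      Psi x (fun v => if lastB c (fun b => decide (b = x)) false v = true then 0
        else g (csum c v)) w -
      (∑ b, if c b ≠ 0 ∧ b ≠ x then
        Psi b (fun v => if lastB c (fun b => decide (b = x)) false v = true
          then g (csum c v) else 0) w else 0) -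
      (if lastB c (fun b => decide (b = x)) false w = true then g (csum c w) else 0) := by
  induction w using List.reverseRecOn with
  | nil =>
    simp only [Psi_nil, sub_self, ite_self, Finset.sum_const_zero]
    simp [lastB, run_nil]
  | append_singleton w b ih =>
    have hs : ∀ F : A → ℤ, (∑ b', if c b' ≠ 0 ∧ b' ≠ x then (F b' + if b = b' then
        (if lastB c (fun b => decide (b = x)) false w = true then g (csum c w) else 0) else 0)
        else 0) = (∑ b', if c b' ≠ 0 ∧ b' ≠ x then F b' else 0) + if c b ≠ 0 ∧ b ≠ x then
        (if lastB c (fun b => decide (b = x)) false w = true then g (csum c w) else 0) else 0 := by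
      intro F
      have : ∀ b', (if c b' ≠ 0 ∧ b' ≠ x then (F b' + if b = b' then
        (if lastB c (fun b => decide (b = x)) false w = true then g (csum c w) else 0) else 0)
        else 0) = (if c b' ≠ 0 ∧ b' ≠ x then F b' else 0) + (if b = b' then (if c b' ≠ 0 ∧ b' ≠ x
        then (if lastB c (fun b => decide (b = x)) false w = true then g (csum c w) else 0)
        else 0) else 0) := by
        intro b'
        by_cases h1 : c b' ≠ 0 ∧ b' ≠ x
        · simp only [if_pos h1]
        · simp only [if_neg h1, ite_self, add_zero]
      simp only [this, Finset.sum_add_distrib]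
      congr 1
      rw [Finset.sum_ite_eq, if_pos (Finset.mem_univ b)]
    simp only [Psi_snoc', csum_snoc, lastB_snoc]
    rw [hs]
    by_cases hb : c b = 0
    · have hbx : b ≠ x := by rintro rfl; exact hx hb
      simp only [hb, hbx, ne_eq, not_true_eq_false, false_and, if_false, if_true, add_zero]
      linarith [ih]
    · by_cases hbx : b = x
      · subst hbx
        simp only [hb, ne_eq, not_true_eq_false, and_false, if_false, if_true, add_zero,
          decide_true]
        by_cases hl : lastB c (fun b' => decide (b' = b)) false w = true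
        · simp only [hl, if_true] at ih ⊢
          linarith
        · simp only [hl, if_false] at ih ⊢
          simp only [Bool.false_eq_true, if_false] at ih ⊢
          linarith
      · simp only [hb, hbx, ne_eq, not_false_eq_true, true_and, and_self, if_false, if_true,
          add_zero, decide_false, Bool.false_eq_true]
        linarith [ih]

omit [Fintype A] in
lemma Psi_const_mul (a : A) (k : ℤ) (f : List A → ℤ) (w : List A) :
    Psi a (fun v => k * f v) w = k * Psi a f w := by
  have := Psi_hom (AddMonoidHom.mulLeft k) a f w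
  simp only [AddMonoidHom.coe_mulLeft] at this
  exact this.symm

omit [Fact p.Prime] [Fintype A] in
lemma ite_expand [NeZero p] (P : Prop) [Decidable P] (g : ZMod p → ℤ) (t : ZMod p) :
    (if P then g t else 0) = ∑ r, g r * (if P ∧ t = r then (1 : ℤ) else 0) := by
  by_cases h : P
  · simp [h]
  · simp [h]

lemma gz_runs [DecidableEq A] (c : A → ZMod p) (x : A) (hx : c x ≠ 0) (g : ZMod p → ℤ) :
    GZ (fun w : List A => Psi x (fun v => g (csum c v)) w -
      Psi x (fun v => g (csum c v + c x)) w) := by
  have hp : NeZero p := ⟨(Fact.out : p.Prime).ne_zero⟩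
  have g1 : GZ (fun w : List A => Psi x (fun v =>
      if lastB c (fun b => decide (b = x)) false v = true then 0 else g (csum c v)) w) := by
    have h1 : ∀ v : List A, (if lastB c (fun b => decide (b = x)) false v = true then 0
        else g (csum c v)) = ∑ r, g r * (if lastB c (fun b => !decide (b = x)) true v = true ∧
          csum c v = r then (1 : ℤ) else 0) := by
      intro v
      rw [← ite_expand]
      have h2 := lastB_not c (fun b => decide (b = x)) false v
      rw [Bool.not_false] at h2
      rw [h2]
      cases lastB c (fun b => decide (b = x)) false v <;> simp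
    simp only [h1, Psi_sum, Psi_const_mul]
    apply gz_sum
    intro r _
    exact (gz_mem c x hx _ (by simp) true r).smul _
  have g2 : GZ (fun w : List A => ∑ b, if c b ≠ 0 ∧ b ≠ x then
        Psi b (fun v => if lastB c (fun b => decide (b = x)) false v = true
          then g (csum c v) else 0) w else 0) := by
    apply gz_sum
    intro b _
    by_cases hb : c b ≠ 0 ∧ b ≠ x
    · simp only [if_pos hb]
      simp only [ite_expand (lastB c (fun b => decide (b = x)) false _ = true) g, Psi_sum,
        Psi_const_mul]
      apply gz_sum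
      intro r _
      exact (gz_mem c b hb.1 _ (by simp [hb.2]) false r).smul _
    · simp only [if_neg hb]
      exact gz_zero
  have g3 : GZ (fun w : List A =>
      if lastB c (fun b => decide (b = x)) false w = true then g (csum c w) else 0) := by
    intro n hn
    have := (good_lastB c (fun b => decide (b = x)) false).map₂ (good_csum c)
      (fun y t => (((if y = true then g t else 0 : ℤ)) : ZMod n))
    exact this
  have := (g1.sub g2).sub g3
  intro n hn
  convert this n hn using 1
  funext w
  beta_reduce
  rw [run_identity c x hx g w]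

omit [Fact p.Prime] in
lemma gz_count (x : A) : GZ (fun w : List A => Psi x (fun _ => (1 : ℤ)) w) := by
  classical
  intro n hn
  have := gn_cnt (A := A) {x} n hn
  convert this using 1
  funext w
  have h : ∀ w : List A, Psi x (fun _ => (1 : ℤ)) w = (cnt {x} w : ℤ) := by
    intro w
    induction w using List.reverseRecOn with
    | nil => simp [Psi_nil, cnt_nil]
    | append_singleton w b ih =>
      rw [Psi_snoc, cnt_snoc, ih]
      by_cases hb : b = x <;> simp [hb]
  beta_reduce
  rw [h]
  simp

/-- all functions of a clock are good at every letter -/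
lemma gz_clock (c : A → ZMod p) (x : A) (g : ZMod p → ℤ) :
    GZ (fun w : List A => Psi x (fun v => g (csum c v)) w) := by
  classical
  have hp : NeZero p := ⟨(Fact.out : p.Prime).ne_zero⟩
  by_cases hx : c x = 0
  · have h1 : ∀ v : List A, g (csum c v) = ∑ r, g r * (if csum c v = r then (1 : ℤ) else 0) := by
      intro v; simp
    have h2 : (fun w : List A => Psi x (fun v => g (csum c v)) w) = fun w =>
        ∑ r, g r * Psi x (fun v => if csum c v = r then (1 : ℤ) else 0) w := by
      funext w
      rw [← Finset.sum_congr rfl fun r _ => Psi_const_mul x (g r) _ w, ← Psi_sum]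
      congr 1
      funext v
      exact h1 v
    rw [h2]
    apply gz_sum
    intro r _
    exact (gz_neutral c x hx r).smul _
  · apply GZ.div p (Fact.out : p.Prime).ne_zero
    -- differences
    have hd : ∀ j : ℕ, GZ (fun w : List A => Psi x (fun v => g (csum c v)) w -
        Psi x (fun v => g (csum c v + j * c x)) w) := by
      intro j
      induction j with
      | zero =>
        simp only [Nat.cast_zero, zero_mul, add_zero, sub_self]
        exact gz_zero
      | succ j ih =>
        have h1 := gz_runs c x hx (fun t => g (t + j * c x))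
        have h2 := ih.add h1
        intro n hn
        convert h2 n hn using 1
        funext w
        congr 1
        have h3 : ∀ v : List A, csum c v + c x + j * c x = csum c v + ((j + 1 : ℕ) : ZMod p) * c x := by
          intro v; push_cast; ring
        simp only [h3]
        ring
    have hsum := gz_sum (Finset.range p) _ fun j _ => hd j
    have hc := (gz_count x).smul (∑ r : ZMod p, g r) (A := A)
    have := hsum.add hc
    intro n hn
    convert this n hn using 1
    funext w
    congr 1
    beta_reduce
    rw [Finset.sum_sub_distrib, Finset.sum_const, Finset.card_range, nsmul_eq_mul, ← Psi_sum,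
      ← Psi_const_mul x (∑ r : ZMod p, g r)]
    have h4 : ∀ v : List A, ∑ j ∈ Finset.range p, g (csum c v + j * c x) = ∑ r : ZMod p, g r := by
      intro v
      apply Finset.sum_bij (fun (j : ℕ) _ => csum c v + (j : ZMod p) * c x)
      · intros; exact Finset.mem_univ _
      · intro j hj k hk h
        rw [Finset.mem_range] at hj hk
        have h5 : (j : ZMod p) = k := mul_right_cancel₀ hx (add_left_cancel h)
        have h6 := congrArg ZMod.val h5
        rwa [ZMod.val_natCast_of_lt hj, ZMod.val_natCast_of_lt hk] at h6
      · intro r _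
        refine ⟨((r - csum c v) / c x).val, Finset.mem_range.mpr (ZMod.val_lt _), ?_⟩
        rw [ZMod.natCast_val, ZMod.cast_id', id_eq, div_mul_cancel₀ _ hx]
        ring
      · intros; rfl
    simp only [h4, mul_one]
    ring

/-! ### Several clocks -/

/-- indicator of the values of several clocks -/
def ind (l : List ((A → ZMod p) × ZMod p)) (v : List A) : ℤ :=
  (l.map fun x => if csum x.1 v = x.2 then (1 : ℤ) else 0).prod

omit [Fintype A] in
lemma two_dim (X Y r₁ r₂ : ZMod p) :
    (p : ℤ) * ((if X = r₁ then 1 else 0) * (if Y = r₂ then 1 else 0)) =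
      (∑ d : ZMod p, if X + d * Y = r₁ + d * r₂ then (1 : ℤ) else 0) +
        (if Y = r₂ then 1 else 0) - 1 := by
  by_cases hY : Y = r₂
  · subst hY
    simp only [add_left_inj, if_true, mul_one]
    by_cases hX : X = r₁
    · simp [hX, ZMod.card]
    · simp [hX]
  · have h1 : Y - r₂ ≠ 0 := sub_ne_zero.mpr hY
    rw [Finset.sum_eq_single ((r₁ - X) / (Y - r₂))]
    · have h2 : X + (r₁ - X) / (Y - r₂) * Y = r₁ + (r₁ - X) / (Y - r₂) * r₂ := by
        have h3 : (r₁ - X) / (Y - r₂) * (Y - r₂) = r₁ - X := div_mul_cancel₀ _ h1
        linear_combination h3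
      simp [h2, hY]
    · intro d _ hd
      rw [if_neg]
      intro h2
      apply hd
      rw [eq_div_iff h1]
      linear_combination h2
    · intro h; exact absurd (Finset.mem_univ _) h

lemma gz_ind (x : A) : ∀ (n : ℕ) (l : List ((A → ZMod p) × ZMod p)), l.length = n →
    GZ (fun w : List A => Psi x (ind l) w) := by
  intro n
  induction n using Nat.strong_induction_on with
  | _ n ih =>
    intro l hl
    match l, hl with
    | [], _ =>
      have : (fun w : List A => Psi x (ind ([] : List ((A → ZMod p) × ZMod p))) w) =
          fun w => Psi x (fun _ => (1 : ℤ)) w := by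
        funext w; congr 1
      rw [this]
      exact gz_count x
    | [(c, r)], _ =>
      have : (fun w : List A => Psi x (ind [(c, r)]) w) =
          fun w => Psi x (fun v => (fun t => if t = r then (1 : ℤ) else 0) (csum c v)) w := by
        funext w
        congr 1
        funext v
        simp [ind]
      rw [this]
      exact gz_clock c x (fun t => if t = r then (1 : ℤ) else 0)
    | (c₁, r₁) :: (c₂, r₂) :: l', hl =>
      apply GZ.div p (Fact.out : p.Prime).ne_zero
      have hlen : l'.length + 1 + 1 = n := by simpa using hl
      have g1 := gz_sum (Finset.univ : Finset (ZMod p))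
        (fun d w => Psi x (ind ((fun a => c₁ a + d * c₂ a, r₁ + d * r₂) :: l')) w)
        (fun d _ => ih (l'.length + 1) (by omega) _ (by simp))
      have g2 := ih (l'.length + 1) (by omega) ((c₂, r₂) :: l') (by simp)
      have g3 := ih l'.length (by omega) l' rfl
      have := (g1.add g2).sub g3
      intro n' hn'
      convert this n' hn' using 1
      funext w
      congr 1
      beta_reduce
      rw [← Psi_sum, ← Psi_add, ← Psi_const_mul, sub_eq_add_neg]
      have hneg : - Psi x (ind l') w = Psi x (fun v => (-1) * ind l' v) w := by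
        rw [Psi_const_mul]; ring
      rw [hneg, ← Psi_add]
      congr 1
      funext v
      have hcs : ∀ d : ZMod p, csum (fun a => c₁ a + d * c₂ a) v =
          csum c₁ v + d * csum c₂ v := by
        intro d
        induction v using List.reverseRecOn with
        | nil => simp [csum_nil]
        | append_singleton v a ihv =>
          rw [csum_snoc, csum_snoc, csum_snoc, ihv]
          ring
      simp only [ind, List.map_cons, List.prod_cons, hcs]
      rw [← Finset.sum_mul]
      have h2 := two_dim (csum c₁ v) (csum c₂ v) r₁ r₂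
      linear_combination ((l'.map fun x => if csum x.1 v = x.2 then (1 : ℤ) else 0).prod) * h2

end runs

/-! ### Groups -/

section grp

lemma GZ.zsmul {A M : Type} [AddCommGroup M] [Finite M] {F : List A → ℤ} (hF : GZ F) (m : M) :
    Good (fun w => F w • m) := by
  have : NeZero (Nat.card M) := ⟨Nat.card_pos.ne'⟩
  have := (hF (Nat.card M) inferInstance).map (fun x : ZMod (Nat.card M) => x.val • m)
  convert this using 1
  funext w
  have h1 : (((F w : ZMod (Nat.card M)).val : ℕ) : ℤ) = F w % (Nat.card M) := ZMod.val_intCast _
  rw [← natCast_zsmul, h1]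
  conv_lhs => rw [← Int.emod_add_mul_ediv (F w) (Nat.card M)]
  rw [add_smul, mul_smul, natCast_zsmul, card_nsmul_eq_zero', add_zero]

/-- an extension of the abelian group `M` -/
structure Dat2 (H M V : Type) [Group H] [AddCommGroup M] [AddCommGroup V] where
  ι : M → H
  act : H → M →+ M
  θ : H → V
  inj : Function.Injective ι
  ι_add : ∀ m m', ι (m + m') = ι m * ι m'
  conj : ∀ g m, g⁻¹ * ι m * g = ι (act g m)
  θ_mul : ∀ g h, θ (g * h) = θ g + θ h
  θ_ι : ∀ m, θ (ι m) = 0
  ker : ∀ g, θ g = 0 → ∃ m, ι m = g

namespace Dat2

variable {H M V : Type} [Group H] [AddCommGroup M] [AddCommGroup V] (D : Dat2 H M V)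

lemma ι_zero : D.ι 0 = 1 := by
  have := D.ι_add 0 0
  rw [add_zero] at this
  exact (mul_eq_left.mp this.symm)

lemma θ_one : D.θ 1 = 0 := by
  have := D.θ_mul 1 1
  rw [mul_one] at this
  exact left_eq_add.mp this

lemma θ_inv (g : H) : D.θ g⁻¹ = - D.θ g := by
  have := D.θ_mul g⁻¹ g
  rw [inv_mul_cancel, D.θ_one] at this
  exact eq_neg_of_add_eq_zero_left this.symm

lemma act_mul (g h : H) (m : M) : D.act (g * h) m = D.act h (D.act g m) := by
  apply D.inj
  rw [← D.conj, ← D.conj, ← D.conj]
  group

lemma act_one (m : M) : D.act 1 m = m := by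
  apply D.inj
  rw [← D.conj]
  group

lemma act_ι (m m' : M) : D.act (D.ι m) m' = m' := by
  apply D.inj
  rw [← D.conj]
  have : D.ι m' * D.ι m = D.ι m * D.ι m' := by rw [← D.ι_add, ← D.ι_add, add_comm]
  rw [mul_assoc, this]
  group

lemma act_congr (g h : H) (hgh : D.θ g = D.θ h) (m : M) : D.act g m = D.act h m := by
  obtain ⟨m', hm'⟩ := D.ker (g⁻¹ * h) (by rw [D.θ_mul, D.θ_inv, hgh]; simp)
  have : h = g * D.ι m' := by rw [hm']; group
  rw [this, D.act_mul, D.act_ι]

open Classical in
/-- a section -/
noncomputable def s (v : V) : H :=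
  if v = 0 then 1 else if h : ∃ g, D.θ g = v then h.choose else 1

lemma s_zero : D.s 0 = 1 := by simp [s]

lemma θ_s (g : H) : D.θ (D.s (D.θ g)) = D.θ g := by
  unfold s
  by_cases h0 : D.θ g = 0
  · rw [if_pos h0, D.θ_one, h0]
  · have h : ∃ g', D.θ g' = D.θ g := ⟨g, rfl⟩
    rw [if_neg h0, dif_pos h]
    exact h.choose_spec

variable {A : Type} (φ : A → H)

open Classical in
/-- the cocycle of the section -/
noncomputable def mu (x : V) (a : A) : M :=
  if h : (∃ g, D.θ g = x) ∧ ∃ m, D.ι m = (D.s (x + D.θ (φ a)))⁻¹ * D.s x * φ a
  then h.2.choose else 0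

lemma mu_spec (g : H) (a : A) : D.ι (D.mu φ (D.θ g) a) =
    (D.s (D.θ g + D.θ (φ a)))⁻¹ * D.s (D.θ g) * φ a := by
  have h2 : ∃ m, D.ι m = (D.s (D.θ g + D.θ (φ a)))⁻¹ * D.s (D.θ g) * φ a := by
    apply D.ker
    rw [D.θ_mul, D.θ_mul, D.θ_inv, ← D.θ_mul g (φ a), D.θ_s, D.θ_s, D.θ_mul]
    abel
  have h : (∃ g', D.θ g' = D.θ g) ∧
      ∃ m, D.ι m = (D.s (D.θ g + D.θ (φ a)))⁻¹ * D.s (D.θ g) * φ a := ⟨⟨g, rfl⟩, h2⟩
  unfold mu
  rw [dif_pos h]
  exact h.2.choose_spec

lemma mu_zero (x : V) (a : A) (h : ¬ ∃ g, D.θ g = x) : D.mu φ x a = 0 := by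
  unfold mu
  rw [dif_neg]
  exact fun h' => h h'.1

/-- the value of a word in the quotient -/
def xb (w : List A) : V := D.θ ((w.map φ).prod)

lemma xb_snoc (w : List A) (b : A) : D.xb φ (w ++ [b]) = D.xb φ w + D.θ (φ b) := by
  simp [xb, D.θ_mul]

variable [Fintype A] [Fintype V] [DecidableEq V]

/-- the `M`-part, with the final value `X` -/
noncomputable def KK (X : V) (w : List A) : M :=
  ∑ a, ∑ x, Psi a (fun v => if D.xb φ v = x then (1 : ℤ) else 0) w •
    D.act (D.s (X - x - D.θ (φ a))) (D.mu φ x a)

lemma main (w : List A) : (w.map φ).prod = D.s (D.xb φ w) * D.ι (D.KK φ (D.xb φ w) w) := by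
  classical
  induction w using List.reverseRecOn with
  | nil =>
    have h1 : D.xb φ [] = 0 := by simp [xb, D.θ_one]
    have h2 : D.KK φ 0 [] = 0 := by simp [KK, Psi_nil]
    rw [h1, h2, D.s_zero, D.ι_zero]
    simp
  | append_singleton w b ih =>
    have hx : ∀ w : List A, D.xb φ w = D.θ ((w.map φ).prod) := fun _ => rfl
    rw [List.map_append, List.prod_append]
    simp only [List.map_cons, List.map_nil, List.prod_cons, List.prod_nil, mul_one]
    have hmu := D.mu_spec φ ((w.map φ).prod) b
    rw [← hx] at hmu
    have e1 : (w.map φ).prod * φ b = D.s (D.xb φ w + D.θ (φ b)) * (D.ι (D.mu φ (D.xb φ w) b) *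
        D.ι (D.act (φ b) (D.KK φ (D.xb φ w) w))) := by
      rw [hmu, ← D.conj]
      conv_lhs => rw [ih]
      group
    rw [e1, ← D.ι_add, ← D.xb_snoc]
    congr 2
    -- the recursion
    have e2 : D.KK φ (D.xb φ (w ++ [b])) (w ++ [b]) = ∑ a, ∑ x,
        ((Psi a (fun v => if D.xb φ v = x then (1 : ℤ) else 0) w •
          D.act (D.s (D.xb φ (w ++ [b]) - x - D.θ (φ a))) (D.mu φ x a)) +
        ((if b = a then (if D.xb φ w = x then (1 : ℤ) else 0) else 0) •
          D.act (D.s (D.xb φ (w ++ [b]) - x - D.θ (φ a))) (D.mu φ x a))) := by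
      unfold KK
      apply Finset.sum_congr rfl
      intro a _
      apply Finset.sum_congr rfl
      intro x _
      rw [Psi_snoc, add_smul]
    rw [e2]
    simp only [Finset.sum_add_distrib]
    rw [add_comm (D.mu φ (D.xb φ w) b)]
    congr 1
    · unfold KK
      rw [map_sum]
      apply Finset.sum_congr rfl
      intro a _
      rw [map_sum]
      apply Finset.sum_congr rfl
      intro x _
      rw [map_zsmul]
      by_cases hxr : ∃ g, D.θ g = x
      · obtain ⟨g, rfl⟩ := hxr
        congr 1
        rw [← D.act_mul]
        apply D.act_congr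
        rw [D.θ_mul, D.xb_snoc]
        have h3 : ∀ g' : H, ∃ k, D.θ k = D.xb φ w - D.θ g' - D.θ (φ a) := by
          intro g'
          refine ⟨(w.map φ).prod * g'⁻¹ * (φ a)⁻¹, ?_⟩
          rw [D.θ_mul, D.θ_mul, D.θ_inv, D.θ_inv, hx]
          abel
        obtain ⟨k, hk⟩ := h3 g
        have h4 : D.xb φ w + D.θ (φ b) - D.θ g - D.θ (φ a) = D.θ (k * φ b) := by
          rw [D.θ_mul, hk]; abel
        rw [← hk, h4, D.θ_s, D.θ_s, D.θ_mul]
      · rw [D.mu_zero φ x a hxr, map_zero, map_zero, map_zero]
    · rw [Finset.sum_eq_single b, Finset.sum_eq_single (D.xb φ w)]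
      · simp only [if_true, one_smul]
        rw [D.xb_snoc]
        have : D.xb φ w + D.θ (φ b) - D.xb φ w - D.θ (φ b) = 0 := by abel
        rw [this, D.s_zero, D.act_one]
      · intro x _ hx'
        rw [if_pos rfl, if_neg (fun h => hx' h.symm), zero_smul]
      · intro h; exact absurd (Finset.mem_univ _) h
      · intro a _ ha
        apply Finset.sum_eq_zero
        intro x _
        rw [if_neg (fun h => ha h.symm), zero_smul]
      · intro h; exact absurd (Finset.mem_univ _) h

theorem good_prod [Finite M] [Finite H]
    (hC : ∀ (a : A) (x : V), GZ (fun w : List A =>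
      Psi a (fun v => if D.xb φ v = x then (1 : ℤ) else 0) w))
    (hxb : Good (D.xb φ)) : Good (fun w : List A => (w.map φ).prod) := by
  have h1 : ∀ X : V, Good (D.KK φ X) := by
    intro X
    apply good_sum
    intro a
    apply good_sum
    intro x
    exact (hC a x).zsmul _
  have h2 : Good (fun w : List A => fun X => D.KK φ X w) :=
    Good.pi (F := fun (X : V) (w : List A) => D.KK φ X w) h1
  have h3 := hxb.map₂ h2 (fun X f => D.s X * D.ι (f X))
  convert h3 using 1
  funext w
  exact D.main φ w

end Dat2

open scoped IsMulCommutative in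
/-- the extension data of a homomorphism to an elementary abelian group with abelian kernel -/
noncomputable def dat2Of {H : Type} [Group H] {p k : ℕ}
    (θ : H →* Multiplicative (Fin k → ZMod p)) [inst : IsMulCommutative θ.ker] :
    Dat2 H (Additive θ.ker) (Fin k → ZMod p) where
  ι m := (Additive.toMul m : θ.ker)
  act g := (MonoidHom.toAdditive (MulAut.conjNormal g⁻¹).toMonoidHom :
    Additive θ.ker →+ Additive θ.ker)
  θ g := Multiplicative.toAdd (θ g)
  inj := by
    intro x y hxy
    apply Additive.toMul.injective
    exact Subtype.ext hxy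
  ι_add m m' := by simp
  conj g m := by simp
  θ_mul g h := by rw [map_mul, toAdd_mul]
  θ_ι m := by
    have := (Additive.toMul m : θ.ker).2
    rw [MonoidHom.mem_ker] at this
    rw [this, toAdd_one]
  ker g hg := by
    have h : g ∈ θ.ker := by
      rw [MonoidHom.mem_ker]
      exact Multiplicative.toAdd.injective hg
    exact ⟨Additive.ofMul ⟨g, h⟩, rfl⟩

open scoped IsMulCommutative in
/-- products of words in a finite group with a homomorphism to an elementary abelian group whose
kernel is abelian -/
theorem good_abe {A : Type} [Finite A] {H : Type} [Group H] [Finite H] {p : ℕ} (hp : p.Prime)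
    {k : ℕ} (θ : H →* Multiplicative (Fin k → ZMod p))
    (hθ : ∀ x ∈ θ.ker, ∀ y ∈ θ.ker, x * y = y * x) (φ : A → H) :
    Good (fun w : List A => (w.map φ).prod) := by
  classical
  have : Fact p.Prime := ⟨hp⟩
  have hp0 : NeZero p := ⟨hp.ne_zero⟩
  have := Fintype.ofFinite A
  have inst : IsMulCommutative θ.ker := by
    constructor
    constructor
    intro x y
    exact Subtype.ext (hθ x x.2 y y.2)
  have : Finite (Additive θ.ker) := inferInstanceAs (Finite θ.ker)
  set D := dat2Of θ with hD
  set c : Fin k → A → ZMod p := fun j a => Multiplicative.toAdd (θ (φ a)) j with hc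
  have hx : ∀ w : List A, D.xb φ w = fun j => csum (c j) w := by
    intro w
    induction w using List.reverseRecOn with
    | nil =>
      funext j
      simp [Dat2.xb, D.θ_one, csum_nil]
    | append_singleton w b ih =>
      rw [D.xb_snoc, ih]
      funext j
      rw [csum_snoc]
      rfl
  apply D.good_prod φ
  · intro a x
    have h1 := gz_ind a _ ((List.finRange k).map fun j => (c j, x j)) rfl
    intro n hn
    convert h1 n hn using 1
    funext w
    beta_reduce
    congr 2
    funext v
    rw [hx]
    have h2 : ∀ l : List (Fin k), ind (l.map fun j => (c j, x j)) v =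
        if ∀ j ∈ l, csum (c j) v = x j then (1 : ℤ) else 0 := by
      intro l
      induction l with
      | nil => simp [ind]
      | cons i l ih =>
        have h3 : ind ((i :: l).map fun j => (c j, x j)) v =
            (if csum (c i) v = x i then (1 : ℤ) else 0) * ind (l.map fun j => (c j, x j)) v := by
          simp [ind]
        rw [h3, ih]
        by_cases h4 : csum (c i) v = x i <;> simp [h4]
    rw [h2]
    congr 1
    simp only [List.mem_finRange, forall_const, funext_iff]
  · have h1 : Good (fun w : List A => fun j : Fin k => csum (c j) w) :=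
      Good.pi (F := fun (j : Fin k) (w : List A) => csum (c j) w) fun j => good_csum (c j)
    convert h1 using 1
    funext w
    exact hx w

end grp

end Vale.Agent.P329
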