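import Mathlib

namespace Vale.Agent.P329

/-- Generalized regular expressions over the alphabet `A`. -/
inductive GExp (A : Type) : Type
  | empty : GExp A
  | eps : GExp A
  | letter : A → GExp A
  | union : GExp A → GExp A → GExp A
  | concat : GExp A → GExp A → GExp A
  | compl : GExp A → GExp A
  | star : GExp A → GExp A

variable {A : Type}

/-- Concatenation of two languages. -/
def cat (L K : Set (List A)) : Set (List A) :=
  {w | ∃ u ∈ L, ∃ v ∈ K, w = u ++ v}

/-- Kleene star of a language. -/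
def kst (L : Set (List A)) : Set (List A) :=
  {w | ∃ us : List (List A), (∀ u ∈ us, u ∈ L) ∧ w = us.flatten}

/-- The language denoted by a generalized regular expression. -/
def GExp.lang : GExp A → Set (List A)
  | .empty => ∅
  | .eps => {[]}
  | .letter a => {[a]}
  | .union P Q => P.lang ∪ Q.lang
  | .concat P Q => cat P.lang Q.lang
  | .compl P => (P.lang)ᶜ
  | .star P => kst P.lang

/-- The star height of a generalized regular expression. -/
def GExp.height : GExp A → ℕ
  | .empty => 0
  | .eps => 0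
  | .letter _ => 0
  | .union P Q => max P.height Q.height
  | .concat P Q => max P.height Q.height
  | .compl P => P.height
  | .star P => P.height + 1

/-- `L` has generalized star height at most `n`. -/
def GSH (n : ℕ) (L : Set (List A)) : Prop :=
  ∃ E : GExp A, E.height ≤ n ∧ E.lang = L

lemma gsh_mono {m n : ℕ} (h : m ≤ n) {L : Set (List A)} (hL : GSH m L) : GSH n L := by
  obtain ⟨E, h1, h2⟩ := hL
  exact ⟨E, h1.trans h, h2⟩

lemma gsh_empty (n : ℕ) : GSH n (∅ : Set (List A)) := ⟨.empty, by simp [GExp.height], rfl⟩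

lemma gsh_eps (n : ℕ) : GSH n ({[]} : Set (List A)) := ⟨.eps, by simp [GExp.height], rfl⟩

lemma gsh_letter (n : ℕ) (a : A) : GSH n ({[a]} : Set (List A)) :=
  ⟨.letter a, by simp [GExp.height], rfl⟩

lemma gsh_union {n : ℕ} {L K : Set (List A)} (hL : GSH n L) (hK : GSH n K) : GSH n (L ∪ K) := by
  obtain ⟨E, h1, h2⟩ := hL
  obtain ⟨F, h3, h4⟩ := hK
  exact ⟨.union E F, by simp [GExp.height, h1, h3], by simp [GExp.lang, h2, h4]⟩

lemma gsh_compl {n : ℕ} {L : Set (List A)} (hL : GSH n L) : GSH n Lᶜ := by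
  obtain ⟨E, h1, h2⟩ := hL
  exact ⟨.compl E, by simp [GExp.height, h1], by simp [GExp.lang, h2]⟩

lemma gsh_univ (n : ℕ) : GSH n (Set.univ : Set (List A)) := by
  have := gsh_compl (gsh_empty (A := A) n)
  simpa using this

lemma gsh_inter {n : ℕ} {L K : Set (List A)} (hL : GSH n L) (hK : GSH n K) : GSH n (L ∩ K) := by
  have := gsh_compl (gsh_union (gsh_compl hL) (gsh_compl hK))
  simpa [Set.compl_union] using this

lemma gsh_diff {n : ℕ} {L K : Set (List A)} (hL : GSH n L) (hK : GSH n K) : GSH n (L \ K) := by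
  rw [Set.sdiff_eq]
  exact gsh_inter hL (gsh_compl hK)

lemma gsh_cat {n : ℕ} {L K : Set (List A)} (hL : GSH n L) (hK : GSH n K) : GSH n (cat L K) := by
  obtain ⟨E, h1, h2⟩ := hL
  obtain ⟨F, h3, h4⟩ := hK
  exact ⟨.concat E F, by simp [GExp.height, h1, h3], by simp [GExp.lang, h2, h4]⟩

lemma gsh_kst {n : ℕ} {L : Set (List A)} (hL : GSH n L) : GSH (n + 1) (kst L) := by
  obtain ⟨E, h1, h2⟩ := hL
  exact ⟨.star E, by simp [GExp.height, h1], by simp [GExp.lang, h2]⟩

lemma gsh_finset_union {n : ℕ} {ι : Type*} (s : Finset ι) (L : ι → Set (List A))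
    (h : ∀ i ∈ s, GSH n (L i)) : GSH n (⋃ i ∈ s, L i) := by
  classical
  induction s using Finset.induction_on with
  | empty => simpa using gsh_empty n
  | insert a s ha ih =>
    rw [Finset.set_biUnion_insert]
    exact gsh_union (h a (Finset.mem_insert_self a s))
      (ih fun i hi => h i (Finset.mem_insert_of_mem hi))

lemma gsh_iUnion {n : ℕ} {ι : Type*} [Finite ι] (L : ι → Set (List A))
    (h : ∀ i, GSH n (L i)) : GSH n (⋃ i, L i) := by
  classical
  have := Fintype.ofFinite ι
  have := gsh_finset_union Finset.univ L fun i _ => h i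
  simpa using this

lemma gsh_iInter {n : ℕ} {ι : Type*} [Finite ι] (L : ι → Set (List A))
    (h : ∀ i, GSH n (L i)) : GSH n (⋂ i, L i) := by
  have := gsh_compl (gsh_iUnion (fun i => (L i)ᶜ) fun i => gsh_compl (h i))
  simpa [Set.compl_iUnion] using this

lemma gsh_prop_union {n : ℕ} {p : Prop} {L : Set (List A)} (h : GSH n L) :
    GSH n {w | p ∧ w ∈ L} := by
  by_cases hp : p
  · simpa [hp] using h
  · simpa [hp] using gsh_empty n

/-- Words all of whose letters lie in `S`. -/
def wordsIn (S : Set A) : Set (List A) := {w | ∀ a ∈ w, a ∈ S}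

lemma gsh_wordsIn [Finite A] (n : ℕ) (S : Set A) : GSH n (wordsIn S) := by
  have key : (wordsIn S)ᶜ = ⋃ a : {a : A // a ∉ S}, cat (cat Set.univ {[a.1]}) Set.univ := by
    ext w
    simp only [wordsIn, Set.mem_compl_iff, Set.mem_ofPred_eq, not_forall, Set.mem_iUnion, cat,
      Set.mem_univ, true_and, Set.mem_singleton_iff, exists_eq_left]
    constructor
    · rintro ⟨a, ha, haS⟩
      obtain ⟨u, v, rfl⟩ := List.append_of_mem ha
      exact ⟨⟨a, haS⟩, u ++ [a], ⟨u, rfl⟩, v, by simp⟩
    · rintro ⟨⟨a, haS⟩, u, ⟨u', rfl⟩, v, rfl⟩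
      exact ⟨a, by simp, haS⟩
  have h : GSH n (wordsIn S)ᶜ := by
    rw [key]
    exact gsh_iUnion _ fun a => gsh_cat (gsh_cat (gsh_univ n) (gsh_letter n _)) (gsh_univ n)
  simpa using gsh_compl h

end Vale.Agent.P329
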