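import Vale.Agent.P329.PCF

/-! Certificates of point-counter-freeness for affine permutations of the plane over the field
with two elements. -/

namespace Vale.Agent.P329

/-- the plane over the field with two elements -/
abbrev V := ZMod 2 × ZMod 2

/-- composition of coded transformations, first `c`, then `g` -/
def comp (g c : List ℕ) : List ℕ := c.map fun i => g.getD i 0

/-- action of a coded transformation -/
def look (c : List ℕ) (i : ℕ) : ℕ := c.getD i 0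

/-- coded transformation of an affine letter; `4` is the sink -/
def letterCode (p q v : ℕ) : List ℕ :=
  [v, p ^^^ v, q ^^^ v, p ^^^ q ^^^ v].map (fun x => if x = 0 then 4 else x) ++ [4]

/-- code of a point of the plane -/
def ev (z : V) : ℕ := z.1.val + 2 * z.2.val

/-- code of a state -/
def eo : Option V → ℕ
  | none => 4
  | some z => ev z

/-- certificate set 1 -/
def U1 : List (ℕ × ℕ × ℕ) :=
  [(1, 3, 1), (1, 3, 3), (2, 1, 2), (2, 1, 3), (2, 3, 2), (2, 3, 3), (3, 1, 3), (3, 2, 2), (3, 2, 3)]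

/-- transition monoid of the certificate set 1 -/
def C1 : List (List ℕ) :=
  [[0, 1, 2, 3, 4], [1, 4, 2, 3, 4], [3, 2, 4, 1, 4], [2, 4, 3, 1, 4], [3, 1, 2, 4, 4],
   [2, 4, 1, 3, 4], [3, 1, 4, 2, 4], [3, 4, 2, 1, 4], [2, 1, 4, 3, 4], [3, 4, 1, 2, 4],
   [4, 1, 2, 3, 4], [4, 4, 2, 3, 4], [2, 4, 4, 1, 4], [4, 4, 3, 1, 4], [1, 4, 2, 4, 4],
   [4, 4, 1, 3, 4], [1, 4, 4, 2, 4], [4, 4, 2, 1, 4], [1, 4, 4, 3, 4], [4, 4, 1, 2, 4],
   [3, 2, 4, 4, 4], [1, 3, 4, 4, 4], [4, 2, 4, 1, 4], [3, 1, 4, 4, 4], [1, 2, 4, 4, 4],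
   [3, 4, 4, 1, 4], [2, 1, 4, 4, 4], [2, 4, 3, 4, 4], [3, 4, 1, 4, 4], [1, 4, 3, 4, 4],
   [2, 4, 1, 4, 4], [3, 4, 2, 4, 4], [4, 1, 2, 4, 4], [2, 4, 4, 3, 4], [3, 4, 4, 2, 4],
   [4, 1, 4, 2, 4], [4, 1, 4, 3, 4], [4, 4, 4, 1, 4], [4, 4, 2, 4, 4], [4, 4, 4, 2, 4],
   [4, 4, 4, 3, 4], [2, 4, 4, 4, 4], [3, 4, 4, 4, 4], [1, 4, 4, 4, 4], [4, 4, 3, 4, 4],
   [4, 4, 1, 4, 4], [4, 2, 4, 4, 4], [4, 3, 4, 4, 4], [4, 1, 4, 4, 4], [4, 4, 4, 4, 4]]

/-- certificate set 2 -/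
def U2 : List (ℕ × ℕ × ℕ) :=
  [(1, 3, 1), (1, 3, 3), (2, 1, 1), (2, 1, 3), (2, 3, 3), (3, 1, 1), (3, 1, 3), (3, 2, 2), (3, 2, 3)]

/-- transition monoid of the certificate set 2 -/
def C2 : List (List ℕ) :=
  [[0, 1, 2, 3, 4], [1, 4, 2, 3, 4], [3, 2, 4, 1, 4], [1, 3, 4, 2, 4], [3, 1, 2, 4, 4],
   [3, 1, 4, 2, 4], [1, 2, 4, 3, 4], [3, 4, 2, 1, 4], [2, 1, 4, 3, 4], [3, 4, 1, 2, 4],
   [4, 1, 2, 3, 4], [4, 4, 2, 3, 4], [2, 4, 4, 1, 4], [3, 4, 4, 2, 4], [1, 4, 2, 4, 4],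
   [1, 4, 4, 2, 4], [2, 4, 4, 3, 4], [4, 4, 2, 1, 4], [1, 4, 4, 3, 4], [4, 4, 1, 2, 4],
   [3, 2, 4, 4, 4], [4, 2, 4, 1, 4], [1, 2, 4, 4, 4], [3, 4, 4, 1, 4], [2, 1, 4, 4, 4],
   [4, 3, 4, 2, 4], [2, 3, 4, 4, 4], [4, 1, 4, 2, 4], [1, 3, 4, 4, 4], [3, 4, 2, 4, 4],
   [4, 1, 2, 4, 4], [3, 1, 4, 4, 4], [2, 4, 1, 4, 4], [4, 2, 4, 3, 4], [4, 1, 4, 3, 4],
   [2, 4, 3, 4, 4], [3, 4, 1, 4, 4], [4, 4, 4, 1, 4], [4, 4, 4, 2, 4], [4, 4, 2, 4, 4],
   [4, 4, 4, 3, 4], [2, 4, 4, 4, 4], [1, 4, 4, 4, 4], [3, 4, 4, 4, 4], [4, 4, 1, 4, 4],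
   [4, 4, 3, 4, 4], [4, 2, 4, 4, 4], [4, 1, 4, 4, 4], [4, 3, 4, 4, 4], [4, 4, 4, 4, 4]]

/-- certificate set 3 -/
def U3 : List (ℕ × ℕ × ℕ) :=
  [(1, 3, 1), (1, 3, 2), (2, 1, 3), (2, 3, 1), (2, 3, 2), (3, 1, 1), (3, 1, 2), (3, 2, 1), (3, 2, 2)]

/-- transition monoid of the certificate set 3 -/
def C3 : List (List ℕ) :=
  [[0, 1, 2, 3, 4], [1, 4, 2, 3, 4], [2, 3, 1, 4, 4], [3, 1, 2, 4, 4], [1, 3, 2, 4, 4],
   [2, 4, 1, 3, 4], [1, 2, 4, 3, 4], [2, 1, 3, 4, 4], [1, 2, 3, 4, 4], [2, 1, 4, 3, 4],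
   [4, 1, 2, 3, 4], [4, 4, 2, 3, 4], [3, 4, 1, 4, 4], [1, 4, 2, 4, 4], [3, 4, 2, 4, 4],
   [4, 4, 1, 3, 4], [2, 4, 4, 3, 4], [1, 4, 3, 4, 4], [2, 4, 3, 4, 4], [1, 4, 4, 3, 4],
   [2, 3, 4, 4, 4], [2, 4, 1, 4, 4], [1, 3, 4, 4, 4], [4, 3, 2, 4, 4], [4, 3, 1, 4, 4],
   [4, 1, 2, 4, 4], [3, 2, 4, 4, 4], [4, 1, 3, 4, 4], [4, 2, 3, 4, 4], [3, 1, 4, 4, 4],
   [4, 2, 4, 3, 4], [1, 2, 4, 4, 4], [4, 1, 4, 3, 4], [2, 1, 4, 4, 4], [4, 4, 1, 4, 4],
   [4, 4, 2, 4, 4], [4, 4, 4, 3, 4], [4, 4, 3, 4, 4], [3, 4, 4, 4, 4], [2, 4, 4, 4, 4],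
   [1, 4, 4, 4, 4], [4, 3, 4, 4, 4], [4, 2, 4, 4, 4], [4, 1, 4, 4, 4], [4, 4, 4, 4, 4]]

lemma ev_lt (z : V) : ev z < 4 := by
  revert z; decide

lemma eo_lt (x : Option V) : eo x < 5 := by
  cases x with
  | none => simp [eo]
  | some z => have := ev_lt z; simp only [eo]; omega

lemma ev_inj : ∀ z z' : V, ev z = ev z' → z = z' := by decide

lemma eo_inj : Function.Injective eo := by
  intro x y h
  cases x with
  | none =>
    cases y with
    | none => rfl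
    | some z => have := ev_lt z; simp only [eo] at h; omega
  | some z =>
    cases y with
    | none => have := ev_lt z; simp only [eo] at h; omega
    | some z' => simp only [eo] at h; rw [ev_inj z z' h]

lemma look_comp (g c : List ℕ) (i : ℕ) (hi : i < c.length) : look (comp g c) i = look g (look c i) := by
  unfold look comp
  rw [List.getD_eq_getElem _ _ (by simpa using hi), List.getD_eq_getElem c _ hi]
  simp

/-- certificate for the code list `C` with generators `gens` -/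
def Cert (gens C : List (List ℕ)) : Prop :=
  [0, 1, 2, 3, 4] ∈ C ∧ (∀ g ∈ gens, ∀ c ∈ C, comp g c ∈ C) ∧ (∀ c ∈ C, c.length = 5) ∧
    (∀ c ∈ C, ∀ i < 5, look c (look c (look c (look c (look c i)))) =
      look c (look c (look c (look c i))))

instance (gens C : List (List ℕ)) : Decidable (Cert gens C) := by
  unfold Cert; infer_instance

/-- counter-freeness from a certificate -/
theorem cf_of_cert {A : Type} (δ : A → Option V → Option V) (gens C : List (List ℕ))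
    (hC : Cert gens C) (h : ∀ a, ∃ g ∈ gens, ∀ x, eo (δ a x) = look g (eo x)) :
    CF δ Set.univ := by
  obtain ⟨hid, hcl, hlen, hap⟩ := hC
  have hw : ∀ w : List A, ∃ c ∈ C, ∀ x, eo (run δ w x) = look c (eo x) := by
    intro w
    induction w using List.reverseRecOn with
    | nil =>
      refine ⟨_, hid, ?_⟩
      intro x
      rw [run_nil]
      have := eo_lt x
      interval_cases eo x <;> rfl
    | append_singleton w a ih =>
      obtain ⟨c, hc, h1⟩ := ih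
      obtain ⟨g, hg, h2⟩ := h a
      refine ⟨comp g c, hcl g hg c hc, ?_⟩
      intro x
      rw [run_append, run_singleton, h2, h1, look_comp]
      rw [hlen c hc]
      exact eo_lt x
  intro w _ x k hk hx
  obtain ⟨c, hc, h1⟩ := hw w
  set D := run δ w with hD
  have h5 : ∀ y, D (D (D (D (D y)))) = D (D (D (D y))) := by
    intro y
    apply eo_inj
    simp only [h1]
    exact hap c hc _ (eo_lt y)
  have hm : ∀ m, 4 ≤ m → ∀ y, D^[m + 1] y = D^[m] y := by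
    intro m hm
    induction m, hm using Nat.le_induction with
    | base => intro y; exact h5 y
    | succ m _ ih => intro y; rw [Function.iterate_succ_apply, ih, ← Function.iterate_succ_apply]
  have hper : ∀ j, D^[j * k] x = x := by
    intro j
    induction j with
    | zero => simp
    | succ j ih => rw [Nat.succ_mul, Function.iterate_add_apply, hx, ih]
  have h6 := hm (4 * k) (by omega) x
  rw [Function.iterate_succ_apply', hper 4] at h6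
  exact h6

/-- generators from a certificate set, with the neutral letter -/
def gensOf (U : List (ℕ × ℕ × ℕ)) : List (List ℕ) :=
  ((1, 2, 0) :: U).map fun x => letterCode x.1 x.2.1 x.2.2

lemma cert1 : Cert (gensOf U1) C1 := by decide +kernel
lemma cert2 : Cert (gensOf U2) C2 := by decide +kernel
lemma cert3 : Cert (gensOf U3) C3 := by decide +kernel

end Vale.Agent.P329
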