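import Vale.Agent.P329.Mono

/-! Languages recognised by groups of nilpotency class at most three. -/

namespace Vale.Agent.P329

/-! ### Abstract collecting process -/

/-- an abelian normal subgroup `M` (written additively) containing all commutators, on which the
commutation operators have vanishing products -/
structure Dat (N M : Type) [Group N] [AddCommGroup M] where
  ι : M → N
  δ : N → M →+ M
  co : N → N → M
  inj : Function.Injective ι
  ι_add : ∀ m m', ι (m + m') = ι m * ι m'
  conj : ∀ g m, g⁻¹ * ι m * g = ι (m + δ g m)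
  δδ : ∀ g h m, δ g (δ h m) = 0
  co_eq : ∀ p g, ι (co p g) = p⁻¹ * g⁻¹ * p * g

namespace Dat

variable {N M : Type} [Group N] [AddCommGroup M] (D : Dat N M)

lemma ι_zero : D.ι 0 = 1 := by
  have := D.ι_add 0 0
  rw [add_zero] at this
  exact (mul_eq_left.mp this.symm)

lemma δ_mul (g h : N) (m : M) : D.δ (g * h) m = D.δ g m + D.δ h m := by
  have h1 : D.ι (m + D.δ (g * h) m) = D.ι (m + (D.δ g m + D.δ h m)) := by
    rw [← D.conj, mul_inv_rev]
    have : h⁻¹ * g⁻¹ * D.ι m * (g * h) = h⁻¹ * (g⁻¹ * D.ι m * g) * h := by group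
    rw [this, D.conj, D.conj, map_add, D.δδ]
    congr 1
    abel
  exact add_left_cancel (D.inj h1)

lemma δ_one (m : M) : D.δ 1 m = 0 := by
  have := D.δ_mul 1 1 m
  rw [mul_one] at this
  exact left_eq_add.mp this

lemma δ_pow (g : N) (x : ℕ) (m : M) : D.δ (g ^ x) m = x • D.δ g m := by
  induction x with
  | zero => simp [D.δ_one]
  | succ x ih => rw [pow_succ, D.δ_mul, ih, succ_nsmul]

lemma co_mul (p q g : N) :
    D.co (p * q) g = D.co p g + D.δ q (D.co p g) + D.co q g := by
  apply D.inj
  rw [D.ι_add, ← D.conj, D.co_eq, D.co_eq, D.co_eq]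
  group

lemma co_one (g : N) : D.co 1 g = 0 := by
  apply D.inj
  rw [D.co_eq, D.ι_zero]
  group

lemma co_pow (p g : N) (x : ℕ) :
    D.co (p ^ x) g = x • D.co p g + x.choose 2 • D.δ p (D.co p g) := by
  induction x with
  | zero => simp [D.co_one]
  | succ x ih =>
    rw [pow_succ, D.co_mul, ih, map_add, map_nsmul, map_nsmul, D.δδ, smul_zero,
      Nat.choose_succ_succ' x 1, Nat.choose_one_right, succ_nsmul, add_smul]
    abel

variable {A : Type} (φ : A → N)

/-- ordered product of the powers of the letters of `l` -/
noncomputable def rho (l : List A) (w : List A) : N := (l.map fun c => φ c ^ cnt {c} w).prod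

lemma rho_nil (w : List A) : rho φ [] w = 1 := rfl

lemma rho_cons (c : A) (l : List A) (w : List A) :
    rho φ (c :: l) w = φ c ^ cnt {c} w * rho φ l w := by
  simp [rho]

lemma rho_append (l l' : List A) (w : List A) :
    rho φ (l ++ l') w = rho φ l w * rho φ l' w := by
  simp [rho, List.map_append, List.prod_append]

lemma rho_snoc_not_mem (l : List A) (w : List A) (a : A) (h : a ∉ l) :
    rho φ l (w ++ [a]) = rho φ l w := by
  classical
  induction l with
  | nil => rfl
  | cons c l ih =>
    rw [List.mem_cons, not_or] at h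
    rw [rho_cons, rho_cons, ih h.2, cnt_snoc, if_neg, add_zero]
    exact fun h' => h.1 (Set.mem_singleton_iff.mp h')

/-- moving the last letter to its place -/
lemma rho_snoc (l l' : List A) (w : List A) (a : A) (h : a ∉ l) (h' : a ∉ l') :
    rho φ (l ++ a :: l') w * φ a =
      rho φ (l ++ a :: l') (w ++ [a]) * D.ι (D.co (rho φ l' w) (φ a)) := by
  classical
  rw [rho_append, rho_append, rho_cons, rho_cons, rho_snoc_not_mem φ l w a h,
    rho_snoc_not_mem φ l' w a h', D.co_eq, cnt_snoc, if_pos (Set.mem_singleton a), pow_succ]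
  group

lemma δ_rho (l : List A) (w : List A) (m : M) :
    D.δ (rho φ l w) m = (l.map fun d => cnt {d} w • D.δ (φ d) m).sum := by
  induction l with
  | nil => simp [rho_nil, D.δ_one]
  | cons c l ih => rw [rho_cons, D.δ_mul, D.δ_pow, ih, List.map_cons, List.sum_cons]

/-! ### Quadratic functions -/

/-- quadratic functions of the numbers of letters different from `a` -/
inductive Q2 (a : A) : (List A → M) → Prop
  | zero : Q2 a fun _ => 0
  | add (f g : List A → M) : Q2 a f → Q2 a g → Q2 a fun w => f w + g w
  | lin (c : A) (hc : c ≠ a) (m : M) : Q2 a fun w => cnt {c} w • m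
  | ch (c : A) (hc : c ≠ a) (m : M) (hm : ∀ g, D.δ g m = 0) :
      Q2 a fun w => (cnt {c} w).choose 2 • m
  | mul (c d : A) (hc : c ≠ a) (hd : d ≠ a) (m : M) (hm : ∀ g, D.δ g m = 0) :
      Q2 a fun w => (cnt {c} w * cnt {d} w) • m

lemma q2_sum (a c : A) (hc : c ≠ a) (l : List A) (hl : a ∉ l) (m : M) :
    D.Q2 a fun w => (l.map fun d => (cnt {c} w * cnt {d} w) • D.δ (φ d) m).sum := by
  induction l with
  | nil => exact Q2.zero
  | cons d l ih =>
    rw [List.mem_cons, not_or] at hl
    simp only [List.map_cons, List.sum_cons]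
    exact Q2.add _ _ (Q2.mul c d hc (fun h => hl.1 h.symm) _ fun g => D.δδ _ _ _) (ih hl.2)

lemma q2_co (a : A) (l : List A) (hl : a ∉ l) : D.Q2 a fun w => D.co (rho φ l w) (φ a) := by
  induction l with
  | nil =>
    simp only [rho_nil, D.co_one]
    exact Q2.zero
  | cons c l ih =>
    rw [List.mem_cons, not_or] at hl
    have hc : c ≠ a := fun h => hl.1 h.symm
    have key : (fun w => D.co (rho φ (c :: l) w) (φ a)) = fun w =>
        ((cnt {c} w • D.co (φ c) (φ a) +
          (cnt {c} w).choose 2 • D.δ (φ c) (D.co (φ c) (φ a))) +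
        (l.map fun d => (cnt {c} w * cnt {d} w) • D.δ (φ d) (D.co (φ c) (φ a))).sum) +
        D.co (rho φ l w) (φ a) := by
      funext w
      rw [rho_cons, D.co_mul, D.co_pow]
      congr 2
      rw [map_add, map_nsmul, map_nsmul, D.δδ, smul_zero, add_zero, D.δ_rho]
      have h2 : ∀ l : List A, cnt {c} w • (l.map fun d => cnt {d} w •
          D.δ (φ d) (D.co (φ c) (φ a))).sum =
          (l.map fun d => (cnt {c} w * cnt {d} w) • D.δ (φ d) (D.co (φ c) (φ a))).sum := by
        intro l
        induction l with
        | nil => simp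
        | cons d l ih => rw [List.map_cons, List.sum_cons, smul_add, ih, List.map_cons,
            List.sum_cons, mul_smul]
      exact h2 l
    rw [key]
    exact Q2.add _ _ (Q2.add _ _ (Q2.add _ _ (Q2.lin c hc _)
      (Q2.ch c hc _ fun g => D.δδ _ _ _)) (D.q2_sum φ a c hc l hl.2 _)) (ih hl.2)

lemma Psi_smul (a : A) (f : List A → ℕ) (m : M) (w : List A) :
    Psi a (fun v => f v • m) w = Psi a f w • m := by
  have := Psi_hom (M' := M)
    ({ toFun := fun k : ℕ => k • m, map_zero' := zero_smul _ _,
       map_add' := fun x y => add_smul x y m } : ℕ →+ M) a f w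
  exact this.symm

variable [Finite A] [Finite M]

lemma q2_good (a : A) (f : List A → M) (hf : D.Q2 a f) : Good (Psi a f) := by
  induction hf with
  | zero =>
    have h : Psi a (fun _ : List A => (0 : M)) = fun _ => 0 := by
      funext w; exact Psi_zero a w
    rw [h]; exact good_const 0
  | add f g _ _ ihf ihg =>
    have h : Psi a (fun w => f w + g w) = fun w => Psi a f w + Psi a g w := by
      funext w; exact Psi_add a f g w
    rw [h]; exact ihf.map₂ ihg (fun x y => x + y)
  | lin c hc m =>
    have h : Psi a (fun w => cnt {c} w • m) = fun w => Psi a (cnt {c}) w • m := by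
      funext w; exact Psi_smul a _ m w
    rw [h]; exact (gn_sub2 c a hc).smul m
  | ch c hc m hm =>
    have h : Psi a (fun w => (cnt {c} w).choose 2 • m) =
        fun w => Psi a (fun v => (cnt {c} v).choose 2) w • m := by
      funext w; exact Psi_smul a _ m w
    rw [h]
    exact (gn_psi_choose {c} a fun h' => hc (Set.mem_singleton_iff.mp h').symm).smul m
  | mul c d hc hd m hm =>
    have h : Psi a (fun w => (cnt {c} w * cnt {d} w) • m) =
        fun w => Psi a (fun v => cnt {c} v * cnt {d} v) w • m := by
      funext w; exact Psi_smul a _ m w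
    rw [h]; exact (gn_psi_mul c d a hc hd).smul m

lemma q2_good' (a : A) (f : List A → M) (hf : D.Q2 a f) (b : A) (g : N) :
    Good (Psi b (fun v => D.δ g (Psi a f v))) := by
  induction hf with
  | zero =>
    have h : Psi b (fun v => D.δ g (Psi a (fun _ : List A => (0 : M)) v)) = fun _ => 0 := by
      funext w
      simp only [Psi_zero, map_zero]
    rw [h]; exact good_const 0
  | add f f' _ _ ihf ihg =>
    have h : Psi b (fun v => D.δ g (Psi a (fun w => f w + f' w) v)) =
        fun w => Psi b (fun v => D.δ g (Psi a f v)) w + Psi b (fun v => D.δ g (Psi a f' v)) w := by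
      funext w
      rw [← Psi_add]
      simp only [Psi_add, map_add]
    rw [h]; exact ihf.map₂ ihg (fun x y => x + y)
  | lin c hc m =>
    have h : Psi b (fun v => D.δ g (Psi a (fun w => cnt {c} w • m) v)) =
        fun w => Psi b (Psi a (cnt {c})) w • D.δ g m := by
      funext w
      rw [← Psi_smul]
      simp only [Psi_smul, map_nsmul]
    rw [h]; exact (gn_sub3 c a b hc).smul _
  | ch c hc m hm =>
    have h : Psi b (fun v => D.δ g (Psi a (fun w => (cnt {c} w).choose 2 • m) v)) =
        fun _ => 0 := by
      funext w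
      simp only [Psi_smul, map_nsmul, hm, smul_zero, Psi_zero]
    rw [h]; exact good_const 0
  | mul c d hc hd m hm =>
    have h : Psi b (fun v => D.δ g (Psi a (fun w => (cnt {c} w * cnt {d} w) • m) v)) =
        fun _ => 0 := by
      funext w
      simp only [Psi_smul, map_nsmul, hm, smul_zero, Psi_zero]
    rw [h]; exact good_const 0

lemma good_rho [Finite N] (l : List A) : Good (rho φ l) := by
  induction l with
  | nil =>
    have h : rho φ ([] : List A) = fun _ => 1 := by funext w; rfl
    rw [h]; exact good_const 1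
  | cons c l ih =>
    have h1 : Good (fun w : List A => φ c ^ cnt {c} w) := by
      have : NeZero (Nat.card N) := ⟨Nat.card_pos.ne'⟩
      have := (gn_cnt (A := A) {c} (Nat.card N) inferInstance).map
        (fun x : ZMod (Nat.card N) => φ c ^ x.val)
      convert this using 1
      funext w
      rw [ZMod.val_natCast]
      exact (pow_mod_natCard (φ c) _).symm
    have h2 : rho φ (c :: l) = fun w => φ c ^ cnt {c} w * rho φ l w := by
      funext w; exact rho_cons φ c l w
    rw [h2]
    exact h1.map₂ ih (fun x y => x * y)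

include D in
/-- products of words are good -/
theorem good_prod [Finite N] : Good (fun w : List A => (w.map φ).prod) := by
  classical
  have := Fintype.ofFinite A
  -- enumeration of the letters
  set l : List A := (Finset.univ : Finset A).toList with hl
  have hnd : l.Nodup := Finset.nodup_toList _
  have hmem : ∀ a, a ∈ l := fun a => by rw [hl, Finset.mem_toList]; exact Finset.mem_univ a
  have hsplit : ∀ a, ∃ l1 l2, l = l1 ++ a :: l2 ∧ a ∉ l1 ∧ a ∉ l2 := by
    intro a
    obtain ⟨l1, l2, h⟩ := List.append_of_mem (hmem a)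
    refine ⟨l1, l2, h, ?_, ?_⟩
    · intro h1
      rw [h] at hnd
      exact (List.nodup_append.mp hnd).2.2 a h1 a (by simp) rfl
    · intro h2
      rw [h] at hnd
      have := (List.nodup_append.mp hnd).2.1
      rw [List.nodup_cons] at this
      exact this.1 h2
  choose l1 l2 hsp hn1 hn2 using hsplit
  set μ : A → List A → M := fun a w => D.co (rho φ (l2 a) w) (φ a) with hμ
  have hq : ∀ a, D.Q2 a (μ a) := fun a => D.q2_co φ a (l2 a) (hn2 a)
  set S : List A → M := fun w => ∑ a, Psi a (μ a) w with hS
  set E : List A → M := fun w => ∑ b, Psi b (fun v => D.δ (φ b) (S v)) w with hE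
  have hSs : ∀ w x, S (w ++ [x]) = S w + μ x w := by
    intro w x
    simp only [hS, Psi_snoc, Finset.sum_add_distrib]
    congr 1
    simp
  have hEs : ∀ w x, E (w ++ [x]) = E w + D.δ (φ x) (S w) := by
    intro w x
    simp only [hE, Psi_snoc, Finset.sum_add_distrib]
    congr 1
    simp
  have hEz : ∀ w g, D.δ g (E w) = 0 := by
    intro w g
    simp only [hE, map_sum]
    apply Finset.sum_eq_zero
    intro b _
    rw [Psi_hom]
    simp only [D.δδ, Psi_zero]
  have main : ∀ w : List A, (w.map φ).prod = rho φ l w * D.ι (S w + E w) := by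
    intro w
    induction w using List.reverseRecOn with
    | nil =>
      have h1 : rho φ l [] = 1 := by
        have : ∀ l : List A, rho φ l [] = 1 := by
          intro l
          induction l with
          | nil => rfl
          | cons c l ih => rw [rho_cons, cnt_nil, pow_zero, one_mul, ih]
        exact this l
      have h2 : S [] = 0 := by simp [hS, Psi_nil]
      have h3 : E [] = 0 := by simp [hE, Psi_nil]
      rw [h1, h2, h3, add_zero, D.ι_zero]
      simp
    | append_singleton w x ih =>
      rw [List.map_append, List.prod_append, ih]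
      simp only [List.map_cons, List.map_nil, List.prod_cons, List.prod_nil, mul_one]
      have h1 : rho φ l w * D.ι (S w + E w) * φ x =
          (rho φ l w * φ x) * ((φ x)⁻¹ * D.ι (S w + E w) * φ x) := by group
      rw [h1, D.conj]
      conv_lhs => rw [hsp x, D.rho_snoc φ (l1 x) (l2 x) w x (hn1 x) (hn2 x), ← hsp x]
      rw [mul_assoc, ← D.ι_add, hSs, hEs]
      congr 2
      rw [map_add, hEz, add_zero]
      simp only [hμ]
      abel
  have gS : Good S := good_sum _ fun a => D.q2_good a _ (hq a)
  have gE : Good E := by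
    apply good_sum
    intro b
    have h : (Psi b fun v => D.δ (φ b) (S v)) =
        fun w => ∑ a, Psi b (fun v => D.δ (φ b) (Psi a (μ a) v)) w := by
      funext w
      rw [← Psi_sum]
      simp only [hS, map_sum]
    rw [h]
    exact good_sum _ fun a => D.q2_good' a _ (hq a) b (φ b)
  have gρ := good_rho φ l
  have g1 := gρ.map₂ (gS.map₂ gE (fun x y => x + y)) (fun x y => x * D.ι y)
  convert g1 using 1
  funext w
  exact main w

end Dat

/-! ### Groups of class at most three -/

section nil

variable (N : Type) [Group N]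

/-- class at most three, in terms of subgroups -/
lemma comm_comm_bot (h : ⁅⁅commutator N, (⊤ : Subgroup N)⁆, (⊤ : Subgroup N)⁆ = ⊥) :
    ⁅commutator N, commutator N⁆ = ⊥ := by
  have h2 : ⁅⁅(⊤ : Subgroup N), commutator N⁆, (⊤ : Subgroup N)⁆ = ⊥ := by
    rw [Subgroup.commutator_comm (⊤ : Subgroup N) (commutator N)]
    exact h
  exact Subgroup.commutator_commutator_eq_bot_of_rotate h2 h

variable {N}

lemma comm_of_bot (h : ⁅⁅commutator N, (⊤ : Subgroup N)⁆, (⊤ : Subgroup N)⁆ = ⊥) (x y : N)
    (hx : x ∈ commutator N) (hy : y ∈ commutator N) : x * y = y * x := by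
  have h1 := Subgroup.commutator_mem_commutator hx hy
  rw [comm_comm_bot N h, Subgroup.mem_bot] at h1
  exact commutatorElement_eq_one_iff_mul_comm.mp h1

open scoped IsMulCommutative in
/-- the data of the collecting process for a group of class at most three -/
noncomputable def datOf (h : ⁅⁅commutator N, (⊤ : Subgroup N)⁆, (⊤ : Subgroup N)⁆ = ⊥)
    [inst : IsMulCommutative (commutator N)] : Dat N (Additive (commutator N)) where
  ι m := (Additive.toMul m : commutator N)
  δ g := (MonoidHom.toAdditive (MulAut.conjNormal g⁻¹).toMonoidHom :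
    Additive (commutator N) →+ Additive (commutator N)) - AddMonoidHom.id _
  co p g := Additive.ofMul ⟨p⁻¹ * g⁻¹ * p * g, by
    have := Subgroup.commutator_mem_commutator (H₁ := (⊤ : Subgroup N)) (H₂ := ⊤)
      (Subgroup.mem_top p⁻¹) (Subgroup.mem_top g⁻¹)
    rw [commutatorElement_def, inv_inv, inv_inv] at this
    exact this⟩
  inj := by
    intro x y hxy
    apply Additive.toMul.injective
    exact Subtype.ext hxy
  ι_add m m' := by simp
  conj g m := by
    simp only [AddMonoidHom.sub_apply, AddMonoidHom.id_apply, add_sub_cancel]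
    simp
  δδ := by
    intro g k m
    -- the inner commutator is central
    have hmem : ∀ (k : N) (x : N), x ∈ commutator N → ∀ t : N,
        t⁻¹ * (k⁻¹ * x * k * x⁻¹) * t = k⁻¹ * x * k * x⁻¹ := by
      intro k x hx t
      have h1 : k⁻¹ * x * k * x⁻¹ ∈ ⁅commutator N, (⊤ : Subgroup N)⁆ := by
        rw [Subgroup.commutator_comm]
        have := Subgroup.commutator_mem_commutator (H₁ := (⊤ : Subgroup N))
          (H₂ := commutator N) (Subgroup.mem_top k⁻¹) hx
        rw [commutatorElement_def, inv_inv] at this
        exact this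
      have h2 := Subgroup.commutator_mem_commutator h1 (Subgroup.mem_top t)
      rw [h, Subgroup.mem_bot] at h2
      have h3 := commutatorElement_eq_one_iff_mul_comm.mp h2
      rw [mul_assoc, h3]
      group
    apply Additive.toMul.injective
    apply Subtype.ext
    have h4 := hmem k ((Additive.toMul m : commutator N) : N) (Additive.toMul m).2 g
    simp only [AddMonoidHom.sub_apply, AddMonoidHom.id_apply, MonoidHom.toAdditive_apply_apply,
      MulEquiv.toMonoidHom_eq_coe, MonoidHom.coe_coe, toMul_sub, toMul_ofMul, toMul_zero,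
      Subgroup.coe_one, div_eq_mul_inv]
    set x : N := ((Additive.toMul m : commutator N) : N) with hx
    change g⁻¹ * (k⁻¹ * x * k⁻¹⁻¹ * x⁻¹) * g⁻¹⁻¹ * (k⁻¹ * x * k⁻¹⁻¹ * x⁻¹)⁻¹ = 1
    rw [inv_inv, inv_inv, h4]
    group
  co_eq p g := rfl

open scoped IsMulCommutative in
/-- products of words in a finite nilpotent group of class at most three are good -/
theorem good_nil3 {A : Type} [Finite A] [Finite N] [Group.IsNilpotent N]
    (hN : Group.nilpotencyClass N ≤ 3) (φ : A → N) : Good (fun w : List A => (w.map φ).prod) := by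
  have h : ⁅⁅commutator N, (⊤ : Subgroup N)⁆, (⊤ : Subgroup N)⁆ = ⊥ :=
    Subgroup.lowerCentralSeries_eq_bot_iff_nilpotencyClass_le.mpr hN
  have inst : IsMulCommutative (commutator N) := by
    constructor
    constructor
    intro x y
    exact Subtype.ext (comm_of_bot h x y x.2 y.2)
  have : Finite (Additive (commutator N)) := inferInstanceAs (Finite (commutator N))
  exact (datOf h).good_prod φ

end nil

end Vale.Agent.P329
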