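import Vale.Agent.P329.AbE
import Vale.Agent.P329.Nil3
import Vale.Agent.Results.P329.SymFour

/-! A class of finite groups whose languages have generalized star height at most one. -/

namespace Vale.Agent.P329

/-- The smallest class of groups closed under binary direct products, subgroups and quotients which
contains the finite nilpotent groups of class at most three, the finite groups having a
homomorphism to some elementary abelian `p`-group `(ℤ/p)^m` with abelian kernel (`p` any prime),
and the symmetric group of degree four. -/
inductive Cls : (G : Type) → [Group G] → Prop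
  | nil3 (N : Type) [Group N] [Finite N] [Group.IsNilpotent N]
      (h : Group.nilpotencyClass N ≤ 3) : Cls N
  | abe (H : Type) [Group H] [Finite H] (p m : ℕ) (hp : p.Prime)
      (θ : H →* Multiplicative (Fin m → ZMod p))
      (h : ∀ x ∈ θ.ker, ∀ y ∈ θ.ker, x * y = y * x) : Cls H
  | s4 : Cls (Equiv.Perm (Fin 4))
  | prod (G H : Type) [Group G] [Group H] : Cls G → Cls H → Cls (G × H)
  | sub (G : Type) [Group G] (K : Subgroup G) : Cls G → Cls K
  | quot (G H : Type) [Group G] [Group H] (f : G →* H) (hf : Function.Surjective f) :
      Cls G → Cls H

theorem Cls.good {G : Type} [inst : Group G] (h : Cls G) :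
    Finite G ∧ ∀ (A : Type) [Finite A] (φ : A → G), Good (fun w : List A => (w.map φ).prod) := by
  induction h with
  | nil3 N h => exact ⟨inferInstance, fun A _ φ => good_nil3 h φ⟩
  | abe H p m hp θ h => exact ⟨inferInstance, fun A _ φ => good_abe hp θ h φ⟩
  | s4 => exact ⟨inferInstance, fun A _ φ => Results.P329.SymFour.good_s4 φ⟩
  | prod G H _ _ ih1 ih2 =>
    obtain ⟨f1, g1⟩ := ih1
    obtain ⟨f2, g2⟩ := ih2
    refine ⟨inferInstance, fun A _ φ => ?_⟩
    have := (g1 A fun a => (φ a).1).prod (g2 A fun a => (φ a).2)
    convert this using 1
    funext w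
    induction w with
    | nil => rfl
    | cons a w ih => simp only [List.map_cons, List.prod_cons, ih]; rfl
  | sub G K _ ih =>
    obtain ⟨f1, g1⟩ := ih
    refine ⟨inferInstance, fun A _ φ => ?_⟩
    classical
    have := (g1 A fun a => (φ a : G)).map fun x => if h : x ∈ K then (⟨x, h⟩ : K) else 1
    convert this using 1
    funext w
    have h1 : ∀ w : List A, (((w.map φ).prod : K) : G) = (w.map fun a => (φ a : G)).prod := by
      intro w
      induction w with
      | nil => rfl
      | cons a w ih => simp only [List.map_cons, List.prod_cons, Subgroup.coe_mul, ih]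
    have h2 : (w.map fun a => (φ a : G)).prod ∈ K := by rw [← h1]; exact ((w.map φ).prod).2
    rw [dif_pos h2]
    exact Subtype.ext (h1 w)
  | quot G H f hf _ ih =>
    obtain ⟨f1, g1⟩ := ih
    refine ⟨Finite.of_surjective f hf, fun A _ φ => ?_⟩
    choose s hs using hf
    have h2 : Finite H := Finite.of_surjective f (fun x => ⟨s x, hs x⟩)
    have := (g1 A fun a => s (φ a)).map f
    convert this using 1
    funext w
    induction w with
    | nil => simp
    | cons a w ih => simp only [List.map_cons, List.prod_cons, map_mul, hs, ih]

end Vale.Agent.P329
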