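import Vale.Agent.P329.Mono

/-! Counters over clocks, with a memory: groups with an abelian normal subgroup whose quotient is
elementary abelian. -/

namespace Vale.Agent.P329

/-! ### Counters -/

section cntr

variable {A Q : Type} (n : ℕ) [NeZero n]

open Classical in
/-- counter of the transitions satisfying `η`, modulo `n` -/
noncomputable def cntr (δ : A → Q → Q) (η : A → Q → Prop) (a : A) (x : Q × ZMod n) : Q × ZMod n :=
  (δ a x.1, if η a x.1 then x.2 + 1 else x.2)

lemma cntr_del (δ : A → Q → Q) (η : A → Q → Prop) (o : Q) (hη : ∀ a q, η a q → δ a q = o)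
    (a : A) (x y : Q × ZMod n) (h : del (cntr n δ η) (o, 0) a (some x) = some y) :
    y.1 = δ a x.1 ∧ x.2.val ≤ y.2.val ∧ (η a x.1 → x.2.val < y.2.val) := by
  classical
  by_cases h1 : cntr n δ η a x = (o, 0)
  · rw [del_some_eq _ _ _ _ h1] at h; simp at h
  · rw [del_some_ne _ _ _ _ h1] at h
    simp only [Option.some.injEq] at h
    subst h
    refine ⟨rfl, ?_⟩
    by_cases h2 : η a x.1
    · have h3 : x.2 + 1 ≠ 0 := by
        intro h3
        apply h1
        simp only [cntr, h2, if_true, h3, hη a x.1 h2]
      have h4 : (x.2 + 1).val = x.2.val + 1 := by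
        rw [val_succ]
        apply Nat.mod_eq_of_lt
        have := ZMod.val_lt x.2
        by_contra h5
        apply h3
        have h6 : x.2.val + 1 = n := by omega
        rw [← ZMod.val_eq_zero, val_succ, h6, Nat.mod_self]
      simp only [cntr, h2, if_true, h4]
      exact ⟨by omega, fun _ => by omega⟩
    · simp only [cntr, h2, if_false]
      exact ⟨le_rfl, fun h => absurd h (by simp)⟩

lemma cntr_run (δ : A → Q → Q) (η : A → Q → Prop) (o : Q) (hη : ∀ a q, η a q → δ a q = o) :
    ∀ (w : List A) (x y : Q × ZMod n), run (del (cntr n δ η) (o, 0)) w (some x) = some y →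
    y.1 = run δ w x.1 ∧ x.2.val ≤ y.2.val ∧
      (∀ u b v, w = u ++ b :: v → η b (run δ u x.1) → x.2.val < y.2.val) := by
  intro w
  induction w with
  | nil =>
    intro x y h
    simp only [run_nil, Option.some.injEq] at h
    subst h
    exact ⟨rfl, le_rfl, fun u b v h => by simp at h⟩
  | cons a w ih =>
    intro x y h
    rw [run_cons] at h
    cases hs : del (cntr n δ η) (o, 0) a (some x) with
    | none => rw [hs, run_none _ (del_none _ _)] at h; simp at h
    | some z =>
      rw [hs] at h
      obtain ⟨h1, h2, h3⟩ := cntr_del n δ η o hη a x z hs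
      obtain ⟨h4, h5, h6⟩ := ih z y h
      refine ⟨by rw [h4, h1, run_cons], h2.trans h5, ?_⟩
      intro u b v huv hη'
      cases u with
      | nil =>
        simp only [List.nil_append, List.cons.injEq] at huv
        obtain ⟨rfl, rfl⟩ := huv
        rw [run_nil] at hη'
        exact lt_of_lt_of_le (h3 hη') h5
      | cons c u =>
        simp only [List.cons_append, List.cons.injEq] at huv
        obtain ⟨rfl, huv⟩ := huv
        rw [run_cons, ← h1] at hη'
        exact lt_of_le_of_lt h2 (h6 u b v huv hη')

/-- a counter is point-counter-free as soon as every non-trivial cycle is counted -/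
lemma pcf_cntr (δ : A → Q → Q) (η : A → Q → Prop) (o : Q) (hη : ∀ a q, η a q → δ a q = o)
    (H : ∀ (w : List A) (q : Q) (k : ℕ), 1 ≤ k → (run δ w)^[k] q = q →
      (∀ (N : ℕ) u b v, w = u ++ b :: v → ¬ η b (run δ u ((run δ w)^[N] q))) → run δ w q = q) :
    PCF (cntr n δ η) (o, 0) := by
  rw [pcf_iff]
  rintro w x k hk hx
  set D := run (del (cntr n δ η) (o, 0)) w with hD
  have hDnone : ∀ j, D^[j] none = none := by
    intro j
    induction j with
    | zero => rfl
    | succ j ih => rw [Function.iterate_succ_apply, hD, run_none _ (del_none _ _), ← hD, ih]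
  have hper : ∀ m, D^[k * m] (some x) = some x := by
    intro m
    induction m with
    | zero => rfl
    | succ m ih => rw [Nat.mul_succ, Function.iterate_add_apply, hx, ih]
  have hall : ∀ N, ∃ y, D^[N] (some x) = some y := by
    intro N
    cases hs : D^[N] (some x) with
    | some y => exact ⟨y, rfl⟩
    | none =>
      exfalso
      have h1 := hper N
      have h2 : k * N = (k * N - N) + N := by
        have : N ≤ k * N := Nat.le_mul_of_pos_left N hk
        omega
      rw [h2, Function.iterate_add_apply, hs, hDnone] at h1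
      simp at h1
  choose y hy using hall
  have hstep : ∀ N, D (some (y N)) = some (y (N + 1)) := by
    intro N
    rw [← hy N, ← hy (N + 1), Function.iterate_succ_apply']
  have hrun := fun N => cntr_run n δ η o hη w (y N) (y (N + 1)) (hstep N)
  have hy0 : y 0 = x := by
    have := hy 0
    simp only [Function.iterate_zero, id_eq, Option.some.injEq] at this
    exact this.symm
  have hyk : y k = x := by
    have := hy k
    rw [hx] at this
    simp only [Option.some.injEq] at this
    exact this.symm
  have hfst : ∀ N, (y N).1 = (run δ w)^[N] x.1 := by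
    intro N
    induction N with
    | zero => rw [hy0]; rfl
    | succ N ih => rw [(hrun N).1, ih, Function.iterate_succ_apply']
  have hmono : ∀ N M, N ≤ M → (y N).2.val ≤ (y M).2.val := by
    intro N M h
    induction h with
    | refl => exact le_rfl
    | step _ ih => exact ih.trans (hrun _).2.1
  have hykm : ∀ m, y (k * m) = x := by
    intro m
    have := hy (k * m)
    rw [hper] at this
    simp only [Option.some.injEq] at this
    exact this.symm
  have hconst : ∀ N, (y N).2.val = x.2.val := by
    intro N
    apply le_antisymm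
    · have h1 := hmono N (k * N) (Nat.le_mul_of_pos_left N hk)
      rw [hykm] at h1
      exact h1
    · have h1 := hmono 0 N (Nat.zero_le _)
      rw [hy0] at h1
      exact h1
  have hq : run δ w x.1 = x.1 := by
    apply H w x.1 k hk
    · rw [← hfst, hyk]
    · intro N u b v huv hη'
      rw [← hfst] at hη'
      have := (hrun N).2.2 u b v huv hη'
      rw [hconst, hconst] at this
      omega
  have h1 := hstep 0
  rw [hy0] at h1
  rw [h1]
  congr 1
  apply Prod.ext
  · rw [hfst]
    exact hq
  · exact ZMod.val_injective n (hconst 1)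

open Classical in
lemma cntr_snd [Fintype A] (δ : A → Q → Q) (η : A → Q → Prop) (w : List A) (q : Q) :
    run (cntr n δ η) w (q, 0) =
      (run δ w q, ∑ b, Psi b (fun v => if η b (run δ v q) then (1 : ZMod n) else 0) w) := by
  induction w using List.reverseRecOn with
  | nil => simp [run_nil, Psi_nil]
  | append_singleton w a ih =>
    rw [run_append, run_append, run_singleton, run_singleton, ih]
    simp only [cntr, Psi_snoc, Finset.sum_add_distrib]
    congr 1
    have : ∑ x, (if a = x then (if η x (run δ w q) then (1 : ZMod n) else 0) else 0) =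
        if η a (run δ w q) then (1 : ZMod n) else 0 := by simp
    rw [this]
    split_ifs <;> simp

end cntr

/-! ### Integer-valued functions which are good modulo every integer -/

section GZ

variable {A : Type}

/-- good modulo every positive integer -/
def GZ (F : List A → ℤ) : Prop := ∀ n : ℕ, ∀ _ : NeZero n, Good (fun w => (F w : ZMod n))

lemma GZ.add {F G : List A → ℤ} (hF : GZ F) (hG : GZ G) : GZ (fun w => F w + G w) := by
  intro n hn
  have := (hF n hn).map₂ (hG n hn) (fun x y => x + y)
  simpa using this

lemma GZ.sub {F G : List A → ℤ} (hF : GZ F) (hG : GZ G) : GZ (fun w => F w - G w) := by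
  intro n hn
  have := (hF n hn).map₂ (hG n hn) (fun x y => x - y)
  simpa using this

lemma GZ.smul {F : List A → ℤ} (c : ℤ) (hF : GZ F) : GZ (fun w => c * F w) := by
  intro n hn
  have := (hF n hn).map (fun x => (c : ZMod n) * x)
  simpa using this

lemma gz_zero : GZ (fun _ : List A => (0 : ℤ)) := fun _ _ => good_const _

lemma gz_sum {ι : Type} (s : Finset ι) (F : ι → List A → ℤ) (h : ∀ i ∈ s, GZ (F i)) :
    GZ (fun w => ∑ i ∈ s, F i w) := by
  classical
  induction s using Finset.induction_on with
  | empty => simpa using gz_zero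
  | insert i s hi ih =>
    simp only [Finset.sum_insert hi]
    exact (h i (Finset.mem_insert_self i s)).add (ih fun j hj => h j (Finset.mem_insert_of_mem hj))

lemma GZ.div {F : List A → ℤ} (D : ℕ) (hD : D ≠ 0) (hF : GZ (fun w => (D : ℤ) * F w)) :
    GZ F := by
  intro n hn
  have hDn : NeZero (D * n) := ⟨Nat.mul_ne_zero hD (NeZero.ne n)⟩
  have := (hF (D * n) hDn).map (fun x : ZMod (D * n) => ((x.val / D : ℕ) : ZMod n))
  convert this using 1
  funext w
  have h1 : (((((D : ℤ) * F w : ℤ) : ZMod (D * n))).val : ℤ) = D * (F w % n) := by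
    rw [ZMod.val_intCast]
    push_cast
    exact Int.mul_emod_mul_of_pos _ _ (by exact_mod_cast Nat.pos_of_ne_zero hD)
  have h2 : 0 ≤ F w % n := Int.emod_nonneg _ (by exact_mod_cast NeZero.ne n)
  obtain ⟨m, hm⟩ := Int.eq_ofNat_of_zero_le h2
  rw [hm] at h1
  have h3 : (((D : ℤ) * F w : ℤ) : ZMod (D * n)).val = D * m := by exact_mod_cast h1
  rw [h3, Nat.mul_div_cancel_left _ (Nat.pos_of_ne_zero hD)]
  have h4 : ((m : ℕ) : ℤ) = F w % n := hm.symm
  have h5 : ((m : ℕ) : ZMod n) = ((F w % n : ℤ) : ZMod n) := by rw [← h4]; simp
  rw [h5, ZMod.intCast_mod]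

lemma gz_of_count [Finite A] [Fintype A] {Q : Type} [Finite Q] (δ : A → Q → Q) (η : A → Q → Prop)
    [∀ a q, Decidable (η a q)] (o : Q) (hη : ∀ a q, η a q → δ a q = o)
    (H : ∀ (w : List A) (q : Q) (k : ℕ), 1 ≤ k → (run δ w)^[k] q = q →
      (∀ (N : ℕ) u b v, w = u ++ b :: v → ¬ η b (run δ u ((run δ w)^[N] q))) → run δ w q = q)
    (q : Q) : GZ (fun w => ∑ b, Psi b (fun v => if η b (run δ v q) then (1 : ℤ) else 0) w) := by
  classical
  intro n hn
  have := (good_run (cntr n δ η) (o, 0) (pcf_cntr n δ η o hη H) (q, 0)).map (fun x => x.2)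
  convert this using 1
  funext w
  rw [cntr_snd]
  push_cast
  apply Finset.sum_congr rfl
  intro b _
  have := Psi_hom (Int.castAddHom (ZMod n)) b
    (fun v => if η b (run δ v q) then (1 : ℤ) else 0) w
  simp only [Int.coe_castAddHom] at this
  rw [this]
  congr 1
  funext v
  split_ifs <;> simp

end GZ

/-! ### Clocks modulo a prime -/

section clock

variable {A : Type} {p : ℕ}

/-- sum of the displacements -/
def csum (c : A → ZMod p) (w : List A) : ZMod p := (w.map c).sum

lemma csum_nil (c : A → ZMod p) : csum c [] = 0 := rfl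

lemma csum_append (c : A → ZMod p) (u v : List A) : csum c (u ++ v) = csum c u + csum c v := by
  simp [csum]

lemma csum_snoc (c : A → ZMod p) (u : List A) (a : A) : csum c (u ++ [a]) = csum c u + c a := by
  simp [csum]

lemma csum_eq_zero (c : A → ZMod p) (w : List A) (h : ∀ b ∈ w, c b = 0) : csum c w = 0 := by
  induction w with
  | nil => rfl
  | cons a w ih =>
    have : csum c (a :: w) = c a + csum c w := by simp [csum]
    rw [this, h a (by simp), ih fun b hb => h b (by simp [hb]), add_zero]

lemma first_moving (c : A → ZMod p) (w : List A) :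
    (∀ b ∈ w, c b = 0) ∨ ∃ u b v, w = u ++ b :: v ∧ c b ≠ 0 ∧ ∀ x ∈ u, c x = 0 := by
  induction w with
  | nil => left; simp
  | cons a w ih =>
    by_cases ha : c a = 0
    · rcases ih with h | ⟨u, b, v, rfl, h1, h2⟩
      · left
        intro b hb
        rcases List.mem_cons.mp hb with rfl | hb
        · exact ha
        · exact h b hb
      · right
        refine ⟨a :: u, b, v, rfl, h1, ?_⟩
        intro x hx
        rcases List.mem_cons.mp hx with rfl | hx
        · exact ha
        · exact h2 x hx
    · right
      exact ⟨[], a, w, rfl, ha, by simp⟩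

lemma last_moving (c : A → ZMod p) (w : List A) :
    (∀ b ∈ w, c b = 0) ∨ ∃ u b v, w = u ++ b :: v ∧ c b ≠ 0 ∧ ∀ x ∈ v, c x = 0 := by
  induction w using List.reverseRecOn with
  | nil => left; simp
  | append_singleton w a ih =>
    by_cases ha : c a = 0
    · rcases ih with h | ⟨u, b, v, rfl, h1, h2⟩
      · left
        intro b hb
        rcases List.mem_append.mp hb with hb | hb
        · exact h b hb
        · rw [List.mem_singleton.mp hb]; exact ha
      · right
        refine ⟨u, b, v ++ [a], by simp, h1, ?_⟩
        intro x hx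
        rcases List.mem_append.mp hx with hx | hx
        · exact h2 x hx
        · rw [List.mem_singleton.mp hx]; exact ha
    · right
      exact ⟨w, a, [], rfl, ha, by simp⟩

lemma exists_round [Fact p.Prime] (s e : ZMod p) (hs : s ≠ 0) :
    ∃ N : ℕ, 1 ≤ N ∧ e + N * s = 0 := by
  have hp : 1 ≤ p := (Fact.out : p.Prime).one_lt.le
  refine ⟨(-e / s).val + p, by omega, ?_⟩
  push_cast
  rw [ZMod.natCast_val, ZMod.cast_id', id_eq, CharP.cast_eq_zero, add_zero, div_mul_cancel₀ _ hs]
  ring

variable [Fact p.Prime]

/-! #### A clock without memory -/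

/-- the clock -/
def ck (c : A → ZMod p) (b : A) (i : ZMod p) : ZMod p := i + c b

lemma run_ck (c : A → ZMod p) (w : List A) (i : ZMod p) : run (ck c) w i = i + csum c w := by
  induction w using List.reverseRecOn with
  | nil => simp [run_nil, csum_nil]
  | append_singleton w a ih =>
    rw [run_append, run_singleton, ih, csum_snoc, ck, add_assoc]

lemma iter_ck (c : A → ZMod p) (w : List A) (N : ℕ) (i : ZMod p) :
    (run (ck c) w)^[N] i = i + N * csum c w := by
  induction N with
  | zero => simp
  | succ N ih =>
    rw [Function.iterate_succ_apply', ih, run_ck]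
    push_cast
    ring

lemma H_ck (c : A → ZMod p) (η : A → ZMod p → Prop)
    (hη : ∀ b i, c b ≠ 0 → i + c b = 0 → η b i) (w : List A) (i : ZMod p)
    (h : ∀ (N : ℕ) u b v, w = u ++ b :: v → ¬ η b (run (ck c) u ((run (ck c) w)^[N] i))) :
    run (ck c) w i = i := by
  rw [run_ck]
  by_contra hne
  have hs : csum c w ≠ 0 := fun h0 => hne (by rw [h0, add_zero])
  rcases first_moving c w with h1 | ⟨u, b, v, huv, hb, hu⟩
  · exact hs (csum_eq_zero c w h1)
  · obtain ⟨N, -, hN⟩ := exists_round (csum c w) (i + c b) hs
    apply h N u b v huv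
    apply hη _ _ hb
    rw [run_ck, iter_ck, csum_eq_zero c u hu, add_zero]
    rw [← hN]; ring

variable [Fintype A]

/-- arrivals of the moving letters -/
lemma gz_arr [DecidableEq A] (c : A → ZMod p) (s : ZMod p) : GZ (fun w : List A =>
    ∑ b, Psi b (fun v => if c b ≠ 0 ∧ s + csum c v + c b = 0 then (1 : ℤ) else 0) w) := by
  have := gz_of_count (ck c) (fun b i => c b ≠ 0 ∧ i + c b = 0) 0 (fun b i h => h.2)
    (fun w q k _ _ h => H_ck c (fun b i => c b ≠ 0 ∧ i + c b = 0) (fun b i h1 h2 => ⟨h1, h2⟩)
      w q h) s
  simpa only [run_ck] using this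

/-- neutral letters -/
lemma gz_neutral [DecidableEq A] (c : A → ZMod p) (y : A) (hy : c y = 0) (r : ZMod p) :
    GZ (fun w : List A => Psi y (fun v => if csum c v = r then (1 : ℤ) else 0) w) := by
  have h1 := gz_of_count (ck c) (fun b i => (c b ≠ 0 ∧ i + c b = 0) ∨ (b = y ∧ i = 0)) 0
    (by
      rintro b i (h | ⟨rfl, rfl⟩)
      · exact h.2
      · rw [ck, hy, add_zero])
    (fun w q k _ _ h => H_ck c (fun b i => (c b ≠ 0 ∧ i + c b = 0) ∨ (b = y ∧ i = 0))
      (fun b i h1 h2 => Or.inl ⟨h1, h2⟩) w q h) (-r)
  have h2 := h1.sub (gz_arr c (-r))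
  intro n hn
  convert h2 n hn using 1
  funext w
  congr 1
  beta_reduce
  rw [← Finset.sum_sub_distrib, Finset.sum_eq_single y]
  · simp only [run_ck, hy, ne_eq, not_true_eq_false, false_and, if_false, true_and, false_or]
    rw [Psi_zero, sub_zero]
    congr 1
    funext v
    have : (-r + csum c v = 0) ↔ csum c v = r := by
      rw [neg_add_eq_zero, eq_comm]
    simp only [this]
  · intro b _ hb
    simp only [run_ck, hb, false_and, or_false]
    ring
  · intro h
    exact absurd (Finset.mem_univ y) h

/-! #### A clock with memory -/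

/-- the clock with memory: the memory is set when the clock is at the preimage of zero under the
letter `a` and the last moving letter belongs to `B` -/
def mk (c : A → ZMod p) (a : A) (B : A → Bool) (b : A) (x : ZMod p × Bool) : ZMod p × Bool :=
  if c b = 0 then x else (x.1 + c b, B b && decide (x.1 + c b + c a = 0))

omit [Fintype A] in
lemma run_mk_fst (c : A → ZMod p) (a : A) (B : A → Bool) (w : List A) (x : ZMod p × Bool) :
    (run (mk c a B) w x).1 = x.1 + csum c w := by
  induction w using List.reverseRecOn with
  | nil => simp [run_nil, csum_nil]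
  | append_singleton w b ih =>
    rw [run_append, run_singleton, csum_snoc, mk]
    by_cases hb : c b = 0
    · rw [if_pos hb, ih, hb, add_zero]
    · rw [if_neg hb, ih, add_assoc]

omit [Fintype A] in
lemma iter_mk_fst (c : A → ZMod p) (a : A) (B : A → Bool) (w : List A) (N : ℕ)
    (x : ZMod p × Bool) : ((run (mk c a B) w)^[N] x).1 = x.1 + N * csum c w := by
  induction N with
  | zero => simp
  | succ N ih =>
    rw [Function.iterate_succ_apply', run_mk_fst, ih]
    push_cast
    ring

omit [Fintype A] in
lemma run_mk_neutral (c : A → ZMod p) (a : A) (B : A → Bool) (w : List A)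
    (h : ∀ b ∈ w, c b = 0) (x : ZMod p × Bool) : run (mk c a B) w x = x := by
  induction w generalizing x with
  | nil => rfl
  | cons b w ih =>
    rw [run_cons, ih (fun b hb => h b (by simp [hb])), mk, if_pos (h b (by simp))]

omit [Fintype A] in
lemma H_mk (c : A → ZMod p) (a : A) (B : A → Bool) (hB : B a = false)
    (η : A → ZMod p × Bool → Prop)
    (hη : ∀ b x, c b ≠ 0 → x.1 + c b = 0 → ¬ (b = a ∧ x.2 = true) → η b x) (w : List A)
    (x : ZMod p × Bool) (k : ℕ) (hk : 1 ≤ k) (hx : (run (mk c a B) w)^[k] x = x)
    (h : ∀ (N : ℕ) u b v, w = u ++ b :: v →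
      ¬ η b (run (mk c a B) u ((run (mk c a B) w)^[N] x))) :
    run (mk c a B) w x = x := by
  rcases last_moving c w with h0 | ⟨u, b, v, huv, hb, hv⟩
  · exact run_mk_neutral c a B w h0 x
  · -- the state after `w` depends only on the clock
    have hst : ∀ y : ZMod p × Bool, run (mk c a B) w y =
        (y.1 + csum c w, B b && decide (y.1 + csum c u + c b + c a = 0)) := by
      intro y
      rw [huv]
      have h1 : u ++ b :: v = u ++ ([b] ++ v) := by simp
      rw [h1, run_append, run_append, run_mk_neutral c a B v hv, run_singleton, mk, if_neg hb,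
        run_mk_fst]
      apply Prod.ext
      · simp only [csum_append, csum_eq_zero c v hv, add_zero]
        have : csum c [b] = c b := by simp [csum]
        rw [this, add_assoc]
      · rfl
    by_cases hs : csum c w = 0
    · obtain ⟨j, rfl⟩ : ∃ j, k = j + 1 := ⟨k - 1, by omega⟩
      rw [Function.iterate_succ_apply', hst, iter_mk_fst, hs, mul_zero, add_zero, add_zero] at hx
      rw [hst, hs, add_zero]
      exact hx
    · exfalso
      -- the last moving letter
      obtain ⟨N, -, hN⟩ := exists_round (csum c w) (x.1 + csum c u + c b) hs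
      have h1 := h N u b v huv
      have h2 : b = a := by
        by_contra hba
        apply h1
        apply hη _ _ hb
        · rw [run_mk_fst, iter_mk_fst, ← hN]; ring
        · rintro ⟨h3, -⟩; exact hba h3
      -- the first moving letter
      rcases first_moving c w with h3 | ⟨u', b', v', huv', hb', hu'⟩
      · exact hs (csum_eq_zero c w h3)
      · obtain ⟨N', hN1, hN'⟩ := exists_round (csum c w) (x.1 + c b') hs
        apply h N' u' b' v' huv'
        rw [run_mk_neutral c a B u' hu']
        apply hη _ _ hb'
        · rw [iter_mk_fst, ← hN']; ring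
        · rintro ⟨-, h4⟩
          obtain ⟨j, rfl⟩ : ∃ j, N' = j + 1 := ⟨N' - 1, by omega⟩
          rw [Function.iterate_succ_apply', hst, h2, hB] at h4
          simp at h4

/-- does the last moving letter satisfy `B`? (value `m` if there is no moving letter) -/
def lastB (c : A → ZMod p) (B : A → Bool) (m : Bool) (w : List A) : Bool :=
  run (fun b x => if c b = 0 then x else B b) w m

omit [Fintype A] in
lemma lastB_snoc (c : A → ZMod p) (B : A → Bool) (m : Bool) (w : List A) (b : A) :
    lastB c B m (w ++ [b]) = if c b = 0 then lastB c B m w else B b := by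
  simp [lastB, run_append, run_singleton]

omit [Fintype A] in
lemma lastB_append_neutral (c : A → ZMod p) (B : A → Bool) (m : Bool) (u v : List A)
    (h : ∀ x ∈ v, c x = 0) : lastB c B m (u ++ v) = lastB c B m u := by
  induction v using List.reverseRecOn with
  | nil => rw [List.append_nil]
  | append_singleton v x ih =>
    have hx : c x = 0 := h x (List.mem_append_right v (List.mem_singleton_self x))
    have hv : ∀ y ∈ v, c y = 0 := fun y hy => h y (List.mem_append_left [x] hy)
    rw [← List.append_assoc, lastB_snoc, if_pos hx]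
    exact ih hv

omit [Fintype A] in
lemma run_mk_snd (c : A → ZMod p) (a : A) (B : A → Bool) (w : List A)
    (s : ZMod p) (m : Bool) (h : s + csum c w + c a = 0) :
    (run (mk c a B) w (s, m)).2 = lastB c B m w := by
  rcases last_moving c w with h0 | ⟨u, b, v, huv, hb, hv⟩
  · rw [run_mk_neutral c a B w h0]
    have := lastB_append_neutral c B m [] w h0
    rw [List.nil_append] at this
    rw [this]
    rfl
  · have h1 : u ++ b :: v = (u ++ [b]) ++ v := by simp
    have hl : lastB c B m w = B b := by
      rw [huv, h1, lastB_append_neutral c B m _ v hv, lastB_snoc, if_neg hb]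
    rw [hl, huv, h1, run_append, run_append, run_mk_neutral c a B v hv, run_singleton, mk,
      if_neg hb]
    simp only [run_mk_fst]
    have h2 : csum c w = csum c u + c b := by
      rw [huv, h1, csum_append, csum_snoc, csum_eq_zero c v hv, add_zero]
    rw [h2] at h
    have h3 : s + csum c u + c b + c a = 0 := by rw [← h]; ring
    simp [h3]

/-- the counts with memory -/
lemma gz_mem [DecidableEq A] (c : A → ZMod p) (a : A) (ha : c a ≠ 0) (B : A → Bool)
    (hB : B a = false) (m : Bool) (r : ZMod p) : GZ (fun w : List A =>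
      Psi a (fun v => if lastB c B m v = true ∧ csum c v = r then (1 : ℤ) else 0) w) := by
  have ho : ∀ b (x : ZMod p × Bool), c b ≠ 0 → x.1 + c b = 0 → mk c a B b x = (0, false) := by
    intro b x h1 h2
    rw [mk, if_neg h1, h2]
    simp [ha]
  set s : ZMod p := - c a - r with hs
  have h1 := gz_of_count (mk c a B) (fun b x => c b ≠ 0 ∧ x.1 + c b = 0) (0, false)
    (fun b x h => ho b x h.1 h.2)
    (fun w q k hk hq h => H_mk c a B hB (fun b x => c b ≠ 0 ∧ x.1 + c b = 0)
      (fun b x h1 h2 _ => ⟨h1, h2⟩) w q k hk hq h) (s, m)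
  have h2 := gz_of_count (mk c a B)
    (fun b x => c b ≠ 0 ∧ x.1 + c b = 0 ∧ ¬ (b = a ∧ x.2 = true)) (0, false)
    (fun b x h => ho b x h.1 h.2.1)
    (fun w q k hk hq h => H_mk c a B hB
      (fun b x => c b ≠ 0 ∧ x.1 + c b = 0 ∧ ¬ (b = a ∧ x.2 = true))
      (fun b x h1 h2 h3 => ⟨h1, h2, h3⟩) w q k hk hq h) (s, m)
  have h3 := h1.sub h2
  intro n hn
  convert h3 n hn using 1
  funext w
  congr 1
  beta_reduce
  rw [← Finset.sum_sub_distrib, Finset.sum_eq_single a]
  · have key : ∀ v : List A, (if c a ≠ 0 ∧ (run (mk c a B) v (s, m)).1 + c a = 0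
        then (1 : ℤ) else 0) = (if lastB c B m v = true ∧ csum c v = r then (1 : ℤ) else 0) +
        (if c a ≠ 0 ∧ (run (mk c a B) v (s, m)).1 + c a = 0 ∧
          ¬ (a = a ∧ (run (mk c a B) v (s, m)).2 = true) then (1 : ℤ) else 0) := by
      intro v
      by_cases h4 : csum c v = r
      · have h5 : s + csum c v + c a = 0 := by rw [hs, h4]; ring
        rw [run_mk_snd c a B v s m h5, run_mk_fst]
        rw [h4] at h5 ⊢
        simp only [ne_eq, ha, not_false_eq_true, h5, true_and, and_true, if_true]
        cases lastB c B m v <;> simp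
      · have h5 : ¬ s + csum c v + c a = 0 := by
          intro h5
          apply h4
          have : csum c v - r = 0 := by rw [← h5, hs]; ring
          exact sub_eq_zero.mp this
        rw [run_mk_fst]
        simp [h4, h5]
    rw [eq_sub_iff_add_eq, ← Psi_add]
    congr 1
    funext v
    exact (key v).symm
  · intro b _ hb
    simp only [hb, false_and, not_false_eq_true, and_true]
    ring
  · intro h
    exact absurd (Finset.mem_univ a) h

end clock

end Vale.Agent.P329
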