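import Vale.Agent.P329.PCF

/-! Monotone automata, and counting functionals of words. -/

namespace Vale.Agent.P329

/-- monotone automata are point-counter-free -/
lemma pcf_mono {A Q : Type} (δ : A → Q → Q) (o : Q) (r : Q → ℕ)
    (h : ∀ a q, δ a q = o ∨ δ a q = q ∨ r q < r (δ a q)) : PCF δ o := by
  classical
  have step : ∀ a q q', del δ o a (some q) = some q' → q' = q ∨ r q < r q' := by
    intro a q q' hq
    by_cases h1 : δ a q = o
    · rw [del_some_eq δ o a q h1] at hq; simp at hq
    · rw [del_some_ne δ o a q h1] at hq
      simp only [Option.some.injEq] at hq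
      subst hq
      rcases h a q with h2 | h2 | h2
      · exact absurd h2 h1
      · left; exact h2
      · right; exact h2
  have hrun : ∀ (w : List A) q q', run (del δ o) w (some q) = some q' → q' = q ∨ r q < r q' := by
    intro w
    induction w with
    | nil =>
      intro q q' hq
      left
      simp only [run_nil, Option.some.injEq] at hq
      exact hq.symm
    | cons a w ih =>
      intro q q' hq
      rw [run_cons] at hq
      cases hs : del δ o a (some q) with
      | none => rw [hs, run_none _ (del_none δ o)] at hq; simp at hq
      | some q1 =>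
        rw [hs] at hq
        rcases step a q q1 hs with h1 | h1 <;> rcases ih q1 q' hq with h2 | h2
        · left; rw [h2, h1]
        · right; rw [h1] at h2; exact h2
        · right; rw [h2]; exact h1
        · right; exact h1.trans h2
  have hiter : ∀ (w : List A) (k : ℕ) q q', (run (del δ o) w)^[k] (some q) = some q' →
      q' = q ∨ r q < r q' := by
    intro w k
    induction k with
    | zero =>
      intro q q' hq
      left
      simp only [Function.iterate_zero, id_eq, Option.some.injEq] at hq
      exact hq.symm
    | succ k ih =>
      intro q q' hq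
      rw [Function.iterate_succ_apply'] at hq
      cases hs : (run (del δ o) w)^[k] (some q) with
      | none => rw [hs, run_none _ (del_none δ o)] at hq; simp at hq
      | some q1 =>
        rw [hs] at hq
        rcases ih q q1 hs with h1 | h1 <;> rcases hrun w q1 q' hq with h2 | h2
        · left; rw [h2, h1]
        · right; rw [h1] at h2; exact h2
        · right; rw [h2]; exact h1
        · right; exact h1.trans h2
  rw [pcf_iff]
  intro w q k hk hq
  obtain ⟨j, rfl⟩ : ∃ j, k = j + 1 := ⟨k - 1, by omega⟩
  rw [Function.iterate_succ_apply] at hq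
  cases hs : run (del δ o) w (some q) with
  | none =>
    exfalso
    rw [hs] at hq
    have : ∀ j, (run (del δ o) w)^[j] none = none := by
      intro j
      induction j with
      | zero => rfl
      | succ j ih => rw [Function.iterate_succ_apply, run_none _ (del_none δ o), ih]
    rw [this] at hq
    simp at hq
  | some q1 =>
    rw [hs] at hq
    rcases hrun w q q1 hs with h1 | h1
    · rw [h1]
    · exfalso
      rcases hiter w j q1 q hq with h2 | h2
      · rw [h2] at h1; omega
      · omega

/-! ### Counting -/

section psi

variable {A : Type} {M : Type} [AddCommMonoid M]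

open Classical in
/-- sum of `f` over the proper prefixes of `w` which are followed by the letter `a` -/
noncomputable def Psi (a : A) (f : List A → M) (w : List A) : M :=
  ∑ i ∈ Finset.range w.length, if w[i]? = some a then f (w.take i) else 0

lemma Psi_nil (a : A) (f : List A → M) : Psi a f [] = 0 := by simp [Psi]

open Classical in
lemma Psi_snoc (a : A) (f : List A → M) (w : List A) (b : A) :
    Psi a f (w ++ [b]) = Psi a f w + if b = a then f w else 0 := by
  unfold Psi
  rw [List.length_append, List.length_singleton, Finset.sum_range_succ]
  congr 1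
  · apply Finset.sum_congr rfl
    intro i hi
    rw [Finset.mem_range] at hi
    rw [List.getElem?_append_left hi, List.take_append_of_le_length hi.le]
  · rw [List.getElem?_append_right le_rfl]
    simp

/-- functions are determined by their increments -/
lemma eq_of_snoc {X : Type} (F G : List A → X) (h0 : F [] = G [])
    (h : ∀ w a, F w = G w → F (w ++ [a]) = G (w ++ [a])) : F = G := by
  funext w
  induction w using List.reverseRecOn with
  | nil => exact h0
  | append_singleton w a ih => exact h w a ih

lemma Psi_add (a : A) (f g : List A → M) (w : List A) :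
    Psi a (fun v => f v + g v) w = Psi a f w + Psi a g w := by
  classical
  induction w using List.reverseRecOn with
  | nil => simp [Psi_nil]
  | append_singleton w b ih =>
    rw [Psi_snoc, Psi_snoc, Psi_snoc, ih]
    by_cases hb : b = a
    · simp only [hb, if_true]; abel
    · simp only [hb, if_false, add_zero]

lemma Psi_zero (a : A) (w : List A) : Psi a (fun _ => (0 : M)) w = 0 := by
  simp [Psi]

lemma Psi_hom {M' : Type} [AddCommMonoid M'] (g : M →+ M') (a : A) (f : List A → M)
    (w : List A) : g (Psi a f w) = Psi a (fun v => g (f v)) w := by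
  classical
  induction w using List.reverseRecOn with
  | nil => simp [Psi_nil]
  | append_singleton w b ih =>
    rw [Psi_snoc, Psi_snoc, map_add, ih]
    by_cases hb : b = a <;> simp [hb]

lemma Psi_sum {ι : Type} (s : Finset ι) (a : A) (f : ι → List A → M) (w : List A) :
    Psi a (fun v => ∑ i ∈ s, f i v) w = ∑ i ∈ s, Psi a (f i) w := by
  classical
  induction s using Finset.induction_on with
  | empty => simp [Psi_zero]
  | insert i s hi ih =>
    rw [Finset.sum_insert hi, ← ih, ← Psi_add]
    congr 1
    funext v
    rw [Finset.sum_insert hi]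

end psi

section cnt

variable {A : Type}

open Classical in
/-- number of letters in `S` -/
noncomputable def cnt (S : Set A) (w : List A) : ℕ := (w.filter fun a => decide (a ∈ S)).length

lemma cnt_nil (S : Set A) : cnt S [] = 0 := by simp [cnt]

open Classical in
lemma cnt_snoc (S : Set A) (w : List A) (a : A) :
    cnt S (w ++ [a]) = cnt S w + if a ∈ S then 1 else 0 := by
  unfold cnt
  rw [List.filter_append, List.length_append]
  congr 1
  by_cases h : a ∈ S <;> simp [h]

end cnt

/-! ### The automaton -/

section auto

variable {A : Type} (N n : ℕ) [NeZero N] [NeZero n]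

lemma val_succ (m : ℕ) [NeZero m] (i : ZMod m) : (i + 1).val = (i.val + 1) % m := by
  rw [ZMod.val_add, ZMod.val_one_eq_one_mod, Nat.add_mod_mod]

open Classical in
/-- the letters of `S` move a clock modulo `N`, whose complete turns are counted modulo `n`; the
letters of `T` increase this second counter when the clock is at zero -/
noncomputable def mon (S T : Set A) (a : A) (x : ZMod N × ZMod n) : ZMod N × ZMod n :=
  if a ∈ S then (x.1 + 1, if x.1 + 1 = 0 then x.2 + 1 else x.2)
  else (x.1, if a ∈ T ∧ x.1 = 0 then x.2 + 1 else x.2)

lemma pcf_mon (S T : Set A) : PCF (mon N n S T) (0, 0) := by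
  classical
  apply pcf_mono _ _ (fun x => N * x.2.val + x.1.val)
  rintro a ⟨i, t⟩
  have hi := ZMod.val_lt i
  have ht := ZMod.val_lt t
  have tsucc : t + 1 = 0 ∨ (t + 1).val = t.val + 1 := by
    rcases Nat.lt_or_ge (t.val + 1) n with h | h
    · right; rw [val_succ, Nat.mod_eq_of_lt h]
    · left
      have : t.val + 1 = n := by omega
      rw [← ZMod.val_eq_zero, val_succ, this, Nat.mod_self]
  by_cases ha : a ∈ S
  · simp only [mon, ha, if_true]
    by_cases h1 : i + 1 = 0
    · rw [if_pos h1, h1]
      rcases tsucc with h2 | h2
      · left; rw [h2]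
      · right; right
        rw [h2]
        simp only [ZMod.val_zero, add_zero]
        rw [Nat.mul_add, Nat.mul_one]
        omega
    · right; right
      rw [if_neg h1]
      have h3 : i.val + 1 < N := by
        by_contra h4
        apply h1
        have : i.val + 1 = N := by omega
        rw [← ZMod.val_eq_zero, val_succ, this, Nat.mod_self]
      rw [val_succ, Nat.mod_eq_of_lt h3]
      omega
  · simp only [mon, ha, if_false]
    by_cases h1 : a ∈ T ∧ i = 0
    · rw [if_pos h1]
      rcases tsucc with h2 | h2
      · left; rw [h2, h1.2]
      · right; right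
        rw [h2, Nat.mul_add, Nat.mul_one]
        have := Nat.pos_of_ne_zero (NeZero.ne N)
        omega
    · right; left
      rw [if_neg h1]

lemma run_mon_fst (S T : Set A) (w : List A) (x : ZMod N × ZMod n) :
    (run (mon N n S T) w x).1 = x.1 + (cnt S w : ZMod N) := by
  classical
  induction w using List.reverseRecOn with
  | nil => simp [run_nil, cnt_nil]
  | append_singleton w a ih =>
    rw [run_append, run_singleton, cnt_snoc]
    by_cases ha : a ∈ S
    · simp only [mon, ha, if_true, ih]
      push_cast
      ring
    · simp only [mon, ha, if_false, ih, add_zero]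

open Classical in
lemma run_mon_snd (S : Set A) (y : A) (hy : y ∉ S) (w : List A) (s : ZMod N) :
    (run (mon N n S {y}) w (s, 0)).2 = (run (mon N n S ∅) w (s, 0)).2 +
      Psi y (fun v => if s + (cnt S v : ZMod N) = 0 then (1 : ZMod n) else 0) w := by
  induction w using List.reverseRecOn with
  | nil => simp [run_nil, Psi_nil]
  | append_singleton w a ih =>
    rw [run_append, run_append, run_singleton, run_singleton, Psi_snoc]
    have h1 := run_mon_fst N n S {y} w (s, 0)
    have h2 := run_mon_fst N n S ∅ w (s, 0)
    simp only at h1 h2
    by_cases ha : a ∈ S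
    · have hay : a ≠ y := by rintro rfl; exact hy ha
      simp only [mon, ha, if_true, h1, h2, ih, hay, if_false, add_zero]
      split_ifs <;> ring
    · simp only [mon, ha, if_false, h1, h2, ih, Set.mem_singleton_iff, Set.mem_empty_iff_false,
        false_and]
      by_cases hay : a = y
      · simp only [hay, true_and, if_true]
        split_ifs <;> ring
      · simp only [hay, false_and, if_false, add_zero]

open Classical in
lemma good_level [Finite A] (S : Set A) (y : A) (hy : y ∉ S) (s : ZMod N) :
    Good (fun w => Psi y (fun v => if s + (cnt S v : ZMod N) = 0 then (1 : ZMod n) else 0) w) := by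
  have g1 := good_run (mon N n S {y}) (0, 0) (pcf_mon N n S {y}) (s, 0)
  have g2 := good_run (mon N n S ∅) (0, 0) (pcf_mon N n S ∅) (s, 0)
  have := g1.map₂ g2 (fun x z => x.2 - z.2)
  convert this using 1
  funext w
  rw [run_mon_snd N n S y hy]
  ring

lemma good_sum {X : Type} [AddCommMonoid X] [Finite X] {ι : Type} [Fintype ι]
    (F : ι → List A → X) (h : ∀ i, Good (F i)) : Good (fun w => ∑ i, F i w) :=
  (Good.pi (F := F) h).map fun x => ∑ i, x i

lemma good_fun [Finite A] (S : Set A) (y : A) (hy : y ∉ S) (g : ZMod N → ZMod n) :
    Good (fun w => Psi y (fun v => g (cnt S v : ZMod N)) w) := by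
  classical
  have h1 : ∀ s : ZMod N, Good (fun w => g (-s) *
      Psi y (fun v => if s + (cnt S v : ZMod N) = 0 then (1 : ZMod n) else 0) w) := fun s =>
    (good_level N n S y hy s).map (fun x => g (-s) * x)
  have h2 := good_sum _ h1
  convert h2 using 1
  funext w
  have h3 : ∀ s : ZMod N, g (-s) *
      Psi y (fun v => if s + (cnt S v : ZMod N) = 0 then (1 : ZMod n) else 0) w =
      Psi y (fun v => g (-s) * if s + (cnt S v : ZMod N) = 0 then (1 : ZMod n) else 0) w := by
    intro s
    exact Psi_hom (AddMonoidHom.mulLeft (g (-s))) y _ w
  simp only [h3]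
  rw [← Psi_sum]
  congr 1
  funext v
  rw [Finset.sum_eq_single (-(cnt S v : ZMod N))]
  · simp
  · intro s _ hs
    rw [if_neg, mul_zero]
    intro h
    exact hs (eq_neg_of_add_eq_zero_left h)
  · simp

end auto

/-! ### Counts which are good modulo every integer -/

section GN

variable {A : Type}

/-- good modulo every positive integer -/
def GN (F : List A → ℕ) : Prop := ∀ n : ℕ, ∀ _ : NeZero n, Good (fun w => (F w : ZMod n))

lemma GN.add {F G : List A → ℕ} (hF : GN F) (hG : GN G) : GN (fun w => F w + G w) := by
  intro n hn
  have := (hF n hn).map₂ (hG n hn) (fun x y => x + y)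
  simpa using this

lemma GN.mul {F G : List A → ℕ} (hF : GN F) (hG : GN G) : GN (fun w => F w * G w) := by
  intro n hn
  have := (hF n hn).map₂ (hG n hn) (fun x y => x * y)
  simpa using this

lemma GN.cancel {F G H : List A → ℕ} (h : ∀ w, F w + G w = H w) (hG : GN G) (hH : GN H) :
    GN F := by
  intro n hn
  have := (hH n hn).map₂ (hG n hn) (fun x y => x - y)
  convert this using 1
  funext w
  rw [← h w]
  push_cast
  ring

lemma choose_add_two (x y : ℕ) : (x + y).choose 2 = x.choose 2 + y.choose 2 + x * y := by
  induction y with
  | zero => simp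
  | succ y ih =>
    rw [← Nat.add_assoc, Nat.choose_succ_succ' (x + y) 1, Nat.choose_succ_succ' y 1, ih,
      Nat.choose_one_right, Nat.choose_one_right]
    ring

lemma choose_mod (n : ℕ) [NeZero n] (k : ℕ) :
    (((k : ZMod (2 * n)).val.choose 2 : ℕ) : ZMod n) = ((k.choose 2 : ℕ) : ZMod n) := by
  rw [ZMod.val_natCast]
  conv_rhs => rw [← Nat.mod_add_div k (2 * n)]
  rw [choose_add_two]
  have h1 : (((2 * n * (k / (2 * n))).choose 2 : ℕ) : ZMod n) = 0 := by
    have h2 : ∀ j, (((2 * n * j).choose 2 : ℕ) : ZMod n) = 0 := by
      intro j
      induction j with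
      | zero => simp
      | succ j ih =>
        rw [Nat.mul_succ, choose_add_two]
        push_cast
        rw [ih]
        have h3 : (((2 * n).choose 2 : ℕ) : ZMod n) = 0 := by
          rw [Nat.choose_two_right]
          have : 2 * n * (2 * n - 1) / 2 = n * (2 * n - 1) := by
            rw [Nat.mul_assoc, Nat.mul_div_cancel_left _ (by norm_num)]
          rw [this]
          push_cast
          simp
        rw [h3]
        simp
    exact h2 _
  push_cast
  rw [h1]
  simp

lemma GN.choose {F : List A → ℕ} (hF : GN F) : GN (fun w => (F w).choose 2) := by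
  intro n hn
  haveI : NeZero (2 * n) := ⟨by have := NeZero.ne n; omega⟩
  have := (hF (2 * n) inferInstance).map (fun x : ZMod (2 * n) => ((x.val.choose 2 : ℕ) : ZMod n))
  convert this using 1
  funext w
  rw [choose_mod]

variable [Finite A]

lemma gn_cnt (S : Set A) : GN (cnt S) := by
  intro n hn
  have := (good_run (mon n n S ∅) (0, 0) (pcf_mon n n S ∅) (0, 0)).map (fun x => x.1)
  convert this using 1
  funext w
  rw [run_mon_fst]
  simp

lemma cast_Psi (n : ℕ) (y : A) (f : List A → ℕ) (w : List A) :
    ((Psi y f w : ℕ) : ZMod n) = Psi y (fun v => ((f v : ℕ) : ZMod n)) w := by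
  exact Psi_hom (Nat.castAddMonoidHom (ZMod n)) y f w

lemma gn_psi_cnt (S : Set A) (y : A) (hy : y ∉ S) : GN (Psi y (cnt S)) := by
  intro n hn
  have := good_fun n n S y hy id
  simp only [cast_Psi]
  exact this

lemma gn_psi_choose (S : Set A) (y : A) (hy : y ∉ S) :
    GN (Psi y (fun v => (cnt S v).choose 2)) := by
  intro n hn
  haveI : NeZero (2 * n) := ⟨by have := NeZero.ne n; omega⟩
  have := good_fun (2 * n) n S y hy (fun x => ((x.val.choose 2 : ℕ) : ZMod n))
  simp only [cast_Psi]
  convert this using 3
  funext v
  rw [choose_mod]

omit [Finite A] in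
lemma cnt_pair (c d : A) (hcd : c ≠ d) (v : List A) : cnt {c, d} v = cnt {c} v + cnt {d} v := by
  classical
  induction v using List.reverseRecOn with
  | nil => simp [cnt_nil]
  | append_singleton v a ih =>
    rw [cnt_snoc, cnt_snoc, cnt_snoc, ih]
    simp only [Set.mem_insert_iff, Set.mem_singleton_iff]
    by_cases h1 : a = c
    · have h2 : a ≠ d := by rw [h1]; exact hcd
      simp [h1, hcd]
      omega
    · by_cases h2 : a = d
      · simp [h2, hcd.symm]; omega
      · simp [h1, h2]

/-- products of two neutral counts -/
lemma gn_psi_mul (c d y : A) (hc : c ≠ y) (hd : d ≠ y) :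
    GN (Psi y (fun v => cnt {c} v * cnt {d} v)) := by
  by_cases hcd : c = d
  · subst hcd
    have h1 : ∀ w : List A, Psi y (fun v => cnt {c} v * cnt {c} v) w =
        (Psi y (fun v => (cnt {c} v).choose 2) w + Psi y (fun v => (cnt {c} v).choose 2) w) +
        Psi y (cnt {c}) w := by
      intro w
      rw [← Psi_add, ← Psi_add]
      congr 1
      funext v
      have : ∀ x : ℕ, x * x = (x.choose 2 + x.choose 2) + x := by
        intro x
        induction x with
        | zero => simp
        | succ x ih =>
          rw [Nat.choose_succ_succ' x 1, Nat.choose_one_right]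
          nlinarith
      exact this _
    have hy : y ∉ ({c} : Set A) := fun h => hc (Set.mem_singleton_iff.mp h).symm
    have h2 := ((gn_psi_choose {c} y hy).add (gn_psi_choose {c} y hy)).add (gn_psi_cnt {c} y hy)
    intro n hn
    simp only [h1]
    exact h2 n hn
  · have hy1 : y ∉ ({c} : Set A) := fun h => hc (Set.mem_singleton_iff.mp h).symm
    have hy2 : y ∉ ({d} : Set A) := fun h => hd (Set.mem_singleton_iff.mp h).symm
    have hy3 : y ∉ ({c, d} : Set A) := by
      intro h
      rcases h with h | h
      · exact hc h.symm
      · exact hd (Set.mem_singleton_iff.mp h).symm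
    apply GN.cancel (G := fun w => Psi y (fun v => (cnt {c} v).choose 2) w +
      Psi y (fun v => (cnt {d} v).choose 2) w)
      (H := Psi y (fun v => (cnt {c, d} v).choose 2))
    · intro w
      rw [← Psi_add, ← Psi_add]
      congr 1
      funext v
      rw [cnt_pair c d hcd, choose_add_two]
      ring
    · exact (gn_psi_choose {c} y hy1).add (gn_psi_choose {d} y hy2)
    · exact gn_psi_choose {c, d} y hy3

/-- subword counts of length two -/
lemma gn_sub2 (c a : A) (h : c ≠ a) : GN (Psi a (cnt {c})) :=
  gn_psi_cnt {c} a fun h' => h (Set.mem_singleton_iff.mp h').symm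

lemma gn_own (c a : A) (h : c ≠ a) : GN (Psi a (fun v => cnt {a} v * cnt {c} v)) := by
  classical
  apply GN.cancel (G := Psi c (fun v => (cnt {a} v).choose 2))
    (H := fun w => (cnt {a} w).choose 2 * cnt {c} w)
  · intro w
    induction w using List.reverseRecOn with
    | nil => simp [Psi_nil, cnt_nil]
    | append_singleton w b ih =>
      rw [Psi_snoc, Psi_snoc, cnt_snoc, cnt_snoc]
      simp only [Set.mem_singleton_iff]
      by_cases h1 : b = a
      · have h2 : b ≠ c := by rw [h1]; exact h.symm
        simp only [h1, h.symm, if_true, if_false, add_zero]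
        rw [Nat.choose_succ_succ' _ 1, Nat.choose_one_right, add_mul, ← ih]
        ring
      · by_cases h2 : b = c
        · simp only [h2, h, if_true, if_false, add_zero]
          rw [mul_add, ← ih]
          ring
        · simp only [h1, h2, if_false, add_zero]
          exact ih
  · exact gn_psi_choose {a} c fun h' => h (Set.mem_singleton_iff.mp h')
  · exact (gn_cnt {a}).choose.mul (gn_cnt {c})

/-- subword counts of length three -/
lemma gn_sub3 (c a b : A) (h : c ≠ a) : GN (Psi b (Psi a (cnt {c}))) := by
  classical
  by_cases hb : b = a
  · subst hb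
    apply GN.cancel (G := fun w => Psi b (fun v => cnt {b} v * cnt {c} v) w + Psi b (cnt {c}) w)
      (H := fun w => Psi b (cnt {c}) w * cnt {b} w)
    · intro w
      induction w using List.reverseRecOn with
      | nil => simp [Psi_nil, cnt_nil]
      | append_singleton w x ih =>
        rw [Psi_snoc, Psi_snoc, Psi_snoc, cnt_snoc]
        simp only [Set.mem_singleton_iff]
        by_cases h1 : x = b
        · simp only [h1, if_true]
          nlinarith [ih]
        · simp only [h1, if_false, add_zero]
          exact ih
    · exact (gn_own c b h).add (gn_sub2 c b h)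
    · exact (gn_sub2 c b h).mul (gn_cnt {b})
  · apply GN.cancel (G := Psi a (fun v => cnt {c} v * cnt {b} v))
      (H := fun w => Psi a (cnt {c}) w * cnt {b} w)
    · intro w
      induction w using List.reverseRecOn with
      | nil => simp [Psi_nil, cnt_nil]
      | append_singleton w x ih =>
        rw [Psi_snoc, Psi_snoc, Psi_snoc, cnt_snoc]
        simp only [Set.mem_singleton_iff]
        by_cases h1 : x = b
        · simp only [h1, hb, if_true, if_false, add_zero]
          nlinarith [ih]
        · by_cases h2 : x = a
          · have h3 : a ≠ b := fun h => hb h.symm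
            simp only [h2, h3, if_true, if_false, add_zero]
            nlinarith [ih]
          · simp only [h1, h2, if_false, add_zero]
            exact ih
    · exact gn_psi_mul c b a h hb
    · exact (gn_sub2 c a h).mul (gn_cnt {b})

/-- multiples of an element of a finite abelian group -/
lemma GN.smul {M : Type} [AddCommGroup M] [Finite M] {F : List A → ℕ} (hF : GN F) (m : M) :
    Good (fun w => F w • m) := by
  haveI : NeZero (Nat.card M) := ⟨Nat.card_pos.ne'⟩
  have := (hF (Nat.card M) inferInstance).map (fun x : ZMod (Nat.card M) => x.val • m)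
  convert this using 1
  funext w
  rw [ZMod.val_natCast]
  conv_lhs => rw [← Nat.mod_add_div (F w) (Nat.card M)]
  rw [add_smul, mul_comm, mul_smul, card_nsmul_eq_zero', smul_zero, add_zero]

end GN

end Vale.Agent.P329
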