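import Vale.Agent.P329.Schutz

/-! Automata which become counter-free after the deletion of one state. -/

namespace Vale.Agent.P329

open Classical in
/-- the automaton with the transitions into `o` sent to a sink -/
noncomputable def del {A Q : Type} (δ : A → Q → Q) (o : Q) : A → Option Q → Option Q :=
  fun a x => x.bind fun q => if δ a q = o then none else some (δ a q)

lemma del_none {A Q : Type} (δ : A → Q → Q) (o : Q) (a : A) : del δ o a none = none := rfl

lemma del_some_eq {A Q : Type} (δ : A → Q → Q) (o : Q) (a : A) (q : Q) (h : δ a q = o) :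
    del δ o a (some q) = none := by
  simp [del, h]

lemma del_some_ne {A Q : Type} (δ : A → Q → Q) (o : Q) (a : A) (q : Q) (h : δ a q ≠ o) :
    del δ o a (some q) = some (δ a q) := by
  simp [del, h]

lemma run_none {A Q : Type} (δ : A → Option Q → Option Q) (h : ∀ a, δ a none = none) :
    ∀ w : List A, run δ w none = none := by
  intro w
  induction w with
  | nil => rfl
  | cons a w ih => rw [run_cons, h, ih]

lemma run_del_some {A Q : Type} (δ : A → Q → Q) (o : Q) :
    ∀ (w : List A) (p q : Q), run (del δ o) w (some p) = some q → run δ w p = q := by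
  intro w
  induction w with
  | nil => intro p q h; simpa [run_nil] using h
  | cons a w ih =>
    intro p q h
    rw [run_cons] at h
    by_cases hp : δ a p = o
    · rw [del_some_eq δ o a p hp, run_none _ (del_none δ o)] at h
      simp at h
    · rw [del_some_ne δ o a p hp] at h
      rw [run_cons]
      exact ih _ _ h

/-- point-counter-free: counter-free after deletion of `o` -/
def PCF {A Q : Type} (δ : A → Q → Q) (o : Q) : Prop := CF (del δ o) Set.univ

lemma pcf_iff {A Q : Type} (δ : A → Q → Q) (o : Q) : PCF δ o ↔
    ∀ (w : List A) (q : Q) (k : ℕ), 1 ≤ k → (run (del δ o) w)^[k] (some q) = some q →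
      run (del δ o) w (some q) = some q := by
  constructor
  · intro h w q k hk hq
    exact h w (by intro a _; trivial) (some q) k hk hq
  · intro h w _ x k hk hx
    cases x with
    | none => exact run_none _ (del_none δ o) w
    | some q => exact h w q k hk hx

lemma mem_kst_nil {A : Type} (L : Set (List A)) : [] ∈ kst L := ⟨[], by simp, rfl⟩

lemma mem_kst_snoc {A : Type} {L : Set (List A)} {u v : List A} (hu : u ∈ kst L) (hv : v ∈ L) :
    u ++ v ∈ kst L := by
  obtain ⟨us, h1, rfl⟩ := hu
  refine ⟨us ++ [v], ?_, by simp⟩
  intro x hx
  rcases List.mem_append.mp hx with h | h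
  · exact h1 x h
  · simp only [List.mem_singleton] at h
    rw [h]; exact hv

/-- languages recognised by point-counter-free automata have generalized star height one -/
theorem gsh_pcf {A Q : Type} [Finite A] [Finite Q] (δ : A → Q → Q) (o : Q) (h : PCF δ o)
    (p q : Q) : GSH 1 {w | run δ w p = q} := by
  have hN : ∀ p q : Q, GSH 0 {w | run (del δ o) w (some p) = some q} := fun p q =>
    schutz (del δ o) h (some p) (some q)
  set N : Q → Q → Set (List A) := fun p q => {w | run (del δ o) w (some p) = some q} with hNdef
  set P : Q → Set (List A) := fun p => ⋃ i : Q × A, {w | δ i.2 i.1 = o ∧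
    w ∈ cat (N p i.1) {[i.2]}} with hPdef
  have hP : ∀ p, GSH 0 (P p) := fun p =>
    gsh_iUnion _ fun i => gsh_prop_union (gsh_cat (hN p i.1) (gsh_letter 0 i.2))
  have hNo : ∀ w p q, w ∈ N p q → run δ w p = q := fun w p q hw => run_del_some δ o w p q hw
  have hPo : ∀ w p, w ∈ P p → run δ w p = o := by
    intro w p hw
    simp only [hPdef, Set.mem_iUnion] at hw
    obtain ⟨⟨r, a⟩, h1, u, hu, v, hv, rfl⟩ := hw
    rw [Set.mem_singleton_iff] at hv
    subst hv
    rw [run_append, hNo _ _ _ hu, run_singleton]
    exact h1
  have hFo : ∀ w ∈ kst (P o), run δ w o = o := by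
    rintro w ⟨us, hus, rfl⟩
    induction us with
    | nil => rfl
    | cons u us ih =>
      rw [List.flatten_cons, run_append, hPo u o (hus u (by simp))]
      exact ih fun v hv => hus v (by simp [hv])
  have key : {w | run δ w p = q} = N p q ∪ cat (cat (P p) (kst (P o))) (N o q) := by
    ext w
    constructor
    · have main : ∀ (w : List A) (q : Q), run δ w p = q →
          w ∈ N p q ∪ cat (cat (P p) (kst (P o))) (N o q) := by
        intro w
        induction w using List.reverseRecOn with
        | nil =>
          intro q hq
          left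
          rw [run_nil] at hq
          simp [hNdef, run_nil, hq]
        | append_singleton v a ih =>
          intro q hq
          rw [run_append, run_singleton] at hq
          by_cases hqo : q = o
          · right
            have hnil : ([] : List A) ∈ N o q := by
              rw [hqo]; simp [hNdef, run_nil]
            rcases ih _ rfl with h | ⟨x, ⟨y, hy, z, hz, rfl⟩, n, hn, hv⟩
            · refine ⟨v ++ [a], ⟨v ++ [a], ?_, [], mem_kst_nil _, by simp⟩, [], hnil, by simp⟩
              simp only [hPdef, Set.mem_iUnion]
              exact ⟨⟨run δ v p, a⟩, by rw [← hqo]; exact hq, v, h, [a], rfl, rfl⟩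
            · refine ⟨y ++ (z ++ (n ++ [a])), ⟨y, hy, z ++ (n ++ [a]), mem_kst_snoc hz ?_, rfl⟩,
                [], hnil, ?_⟩
              · simp only [hPdef, Set.mem_iUnion]
                exact ⟨⟨run δ v p, a⟩, by rw [← hqo]; exact hq, n, hn, [a], rfl, rfl⟩
              · rw [hv]; simp
          · have hdel : del δ o a (some (run δ v p)) = some q := by
              rw [del_some_ne δ o a _ (by rw [hq]; exact hqo), hq]
            rcases ih _ rfl with h | ⟨x, hx, n, hn, hv⟩
            · left
              simp only [hNdef, Set.mem_ofPred_eq] at h ⊢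
              rw [run_append, h, run_singleton, hdel]
            · right
              refine ⟨x, hx, n ++ [a], ?_, by rw [hv]; simp⟩
              simp only [hNdef, Set.mem_ofPred_eq] at hn ⊢
              rw [run_append, hn, run_singleton, hdel]
      exact main w q
    · rintro (hw | ⟨x, ⟨y, hy, z, hz, rfl⟩, n, hn, rfl⟩)
      · exact hNo w p q hw
      · simp only [Set.mem_ofPred_eq]
        rw [run_append, run_append, hPo y p hy, hFo z hz, hNo n o q hn]
  rw [key]
  exact gsh_union (gsh_mono (by omega) (hN p q))
    (gsh_cat (gsh_cat (gsh_mono (by omega) (hP p)) (gsh_kst (hP o))) (gsh_mono (by omega) (hN o q)))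

/-! ### Functions on words whose fibres have generalized star height at most one -/

/-- every fibre of `F` has generalized star height at most one -/
def Good {A X : Type} (F : List A → X) : Prop := ∀ x, GSH 1 {w | F w = x}

lemma Good.map {A X Y : Type} [Finite X] {F : List A → X} (hF : Good F) (g : X → Y) :
    Good (fun w => g (F w)) := by
  intro y
  have : {w | g (F w) = y} = ⋃ x : X, {w | g x = y ∧ w ∈ {w | F w = x}} := by
    ext w
    simp
  rw [this]
  exact gsh_iUnion _ fun x => gsh_prop_union (hF x)

lemma Good.prod {A X Y : Type} {F : List A → X} {G : List A → Y} (hF : Good F) (hG : Good G) :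
    Good (fun w => (F w, G w)) := by
  rintro ⟨x, y⟩
  have : {w | (F w, G w) = (x, y)} = {w | F w = x} ∩ {w | G w = y} := by
    ext w
    simp
  rw [this]
  exact gsh_inter (hF x) (hG y)

lemma Good.pi {A ι : Type} [Finite ι] {X : ι → Type} {F : ∀ i, List A → X i}
    (hF : ∀ i, Good (F i)) : Good (fun w => fun i => F i w) := by
  intro x
  have : {w | (fun i => F i w) = x} = ⋂ i, {w | F i w = x i} := by
    ext w
    simp [funext_iff]
  rw [this]
  exact gsh_iInter _ fun i => hF i (x i)

lemma good_const {A X : Type} (x : X) : Good (fun _ : List A => x) := by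
  intro y
  by_cases h : x = y
  · simpa [h] using gsh_univ (A := A) 1
  · simpa [h] using gsh_empty (A := A) 1

lemma Good.map₂ {A X Y Z : Type} [Finite X] [Finite Y] {F : List A → X} {G : List A → Y}
    (hF : Good F) (hG : Good G) (g : X → Y → Z) : Good (fun w => g (F w) (G w)) :=
  (hF.prod hG).map fun p => g p.1 p.2

lemma good_run {A Q : Type} [Finite A] [Finite Q] (δ : A → Q → Q) (o : Q) (h : PCF δ o)
    (p : Q) : Good (fun w => run δ w p) := fun q => gsh_pcf δ o h p q

lemma good_run_all {A Q : Type} [Finite A] [Finite Q] (δ : A → Q → Q) (o : Q) (h : PCF δ o) :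
    Good (fun w => run δ w) :=
  Good.pi (F := fun p w => run δ w p) fun p => good_run δ o h p

/-! ### The landing lemma -/

open Classical in
/-- landing extension: a second coordinate modulo two changes at each arrival in `o` by a letter
of `T` -/
noncomputable def land {A Q : Type} (δ : A → Q → Q) (o : Q) (T : Set A) :
    A → Q × Bool → Q × Bool :=
  fun a x => (δ a x.1, if a ∈ T ∧ δ a x.1 = o then !x.2 else x.2)

open Classical in
/-- the automaton in which the arrivals in `o` by letters of `T` are deleted -/
noncomputable def delT {A Q : Type} (δ : A → Q → Q) (o : Q) (T : Set A) :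
    A → Option Q → Option Q :=
  fun a x => x.bind fun q => if a ∈ T ∧ δ a q = o then none else some (δ a q)

lemma delT_none {A Q : Type} (δ : A → Q → Q) (o : Q) (T : Set A) (a : A) :
    delT δ o T a none = none := rfl

lemma delT_eq_del {A Q : Type} (δ : A → Q → Q) (o : Q) (T : Set A)
    (hT : ∀ a, a ∉ T → ∀ q, δ a q = q) (a : A) (q : Q) (hq : q ≠ o) :
    delT δ o T a (some q) = del δ o a (some q) := by
  by_cases ha : a ∈ T
  · by_cases h : δ a q = o
    · simp [delT, del, ha, h]
    · simp [delT, del, h]
  · have := hT a ha q
    simp [delT, del, ha, this, hq]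

lemma delT_run_del {A Q : Type} (δ : A → Q → Q) (o : Q) (T : Set A)
    (hT : ∀ a, a ∉ T → ∀ q, δ a q = q) :
    ∀ (w : List A) (q : Q), q ≠ o →
      run (delT δ o T) w (some q) = run (del δ o) w (some q) ∧
      run (del δ o) w (some q) ≠ some o := by
  intro w
  induction w with
  | nil => intro q hq; exact ⟨rfl, by simpa [run_nil] using hq⟩
  | cons a w ih =>
    intro q hq
    rw [run_cons, run_cons, delT_eq_del δ o T hT a q hq]
    by_cases h : δ a q = o
    · rw [del_some_eq δ o a q h, run_none _ (del_none δ o), run_none _ (delT_none δ o T)]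
      exact ⟨rfl, by simp⟩
    · rw [del_some_ne δ o a q h]
      exact ih _ h

/-- counter-freeness of the reduced automaton -/
lemma cf_delT {A Q : Type} (δ : A → Q → Q) (o : Q) (T : Set A)
    (hT : ∀ a, a ∉ T → ∀ q, δ a q = q) (h : PCF δ o) (w : List A) (q : Q) (k : ℕ) (hk : 1 ≤ k)
    (hq : (run (delT δ o T) w)^[k] (some q) = some q) :
    run (delT δ o T) w (some q) = some q := by
  by_cases hqo : q = o
  · subst hqo
    obtain ⟨j, rfl⟩ : ∃ j, k = j + 1 := ⟨k - 1, by omega⟩
    rw [Function.iterate_succ_apply] at hq
    have hnone : ∀ j, (run (delT δ q T) w)^[j] none = none := by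
      intro j
      induction j with
      | zero => rfl
      | succ j ih => rw [Function.iterate_succ_apply, run_none _ (delT_none δ q T), ih]
    have hne : ∀ j (r : Q), r ≠ q → (run (delT δ q T) w)^[j] (some r) ≠ some q := by
      intro j
      induction j with
      | zero => intro r hr; simpa using hr
      | succ j ih =>
        intro r hr
        rw [Function.iterate_succ_apply, (delT_run_del δ q T hT w r hr).1]
        have h2 := (delT_run_del δ q T hT w r hr).2
        cases hs : run (del δ q) w (some r) with
        | none => rw [hnone]; simp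
        | some s =>
          rw [hs] at h2
          exact ih s fun hsq => h2 (by rw [hsq])
    cases hs : run (delT δ q T) w (some q) with
    | none => rw [hs, hnone] at hq; simp at hq
    | some s =>
      rw [hs] at hq
      by_cases hsq : s = q
      · rw [hsq]
      · exact absurd hq (hne j s hsq)
  · have hiter : ∀ j, (run (delT δ o T) w)^[j] (some q) = (run (del δ o) w)^[j] (some q) ∧
        (run (del δ o) w)^[j] (some q) ≠ some o := by
      intro j
      induction j with
      | zero => exact ⟨rfl, by simpa using hqo⟩
      | succ j ih =>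
        rw [Function.iterate_succ_apply', Function.iterate_succ_apply', ih.1]
        cases hs : (run (del δ o) w)^[j] (some q) with
        | none =>
          rw [run_none _ (del_none δ o), run_none _ (delT_none δ o T)]
          exact ⟨rfl, by simp⟩
        | some s =>
          have hso : s ≠ o := fun h => ih.2 (by rw [hs, h])
          exact delT_run_del δ o T hT w s hso
    rw [(delT_run_del δ o T hT w q hqo).1]
    apply h w (by intro a _; trivial) (some q) k hk
    rw [← (hiter k).1, hq]

lemma land_step {A Q : Type} (δ : A → Q → Q) (o : Q) (T : Set A) (a : A) (q : Q) (t : Bool) :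
    (del (land δ o T) (o, false) a (some (q, t)) = none) ∨
    (∃ q' t', del (land δ o T) (o, false) a (some (q, t)) = some (q', t') ∧ (t = true → t' = true) ∧
      (t' = t → delT δ o T a (some q) = some q')) := by
  classical
  by_cases h : land δ o T a (q, t) = (o, false)
  · left; exact del_some_eq _ _ _ _ h
  · right
    refine ⟨_, _, del_some_ne _ _ _ _ h, ?_, ?_⟩
    · intro ht
      subst ht
      by_cases h2 : a ∈ T ∧ δ a q = o
      · exfalso
        apply h
        simp [land, h2]
      · simp [h2]
    · intro ht
      by_cases h2 : a ∈ T ∧ δ a q = o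
      · exfalso
        simp [h2] at ht
      · simp [delT, h2]

lemma land_run {A Q : Type} (δ : A → Q → Q) (o : Q) (T : Set A) :
    ∀ (w : List A) (q : Q) (t : Bool) (q' : Q) (t' : Bool),
      run (del (land δ o T) (o, false)) w (some (q, t)) = some (q', t') →
      (t = true → t' = true) ∧ (t' = t → run (delT δ o T) w (some q) = some q') := by
  intro w
  induction w with
  | nil =>
    intro q t q' t' h
    simp only [run_nil, Option.some.injEq, Prod.mk.injEq] at h
    obtain ⟨rfl, rfl⟩ := h
    exact ⟨id, fun _ => rfl⟩
  | cons a w ih =>
    intro q t q' t' h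
    rw [run_cons] at h
    rcases land_step δ o T a q t with h1 | ⟨q1, t1, h1, h2, h3⟩
    · rw [h1, run_none _ (del_none _ _)] at h
      simp at h
    · rw [h1] at h
      obtain ⟨h4, h5⟩ := ih q1 t1 q' t' h
      refine ⟨fun ht => h4 (h2 ht), ?_⟩
      intro ht
      have ht1 : t1 = t := by
        cases t with
        | true => exact h2 rfl
        | false =>
          cases t1 with
          | false => rfl
          | true => exact absurd (h4 rfl) (by rw [ht]; simp)
      rw [run_cons, h3 ht1]
      exact h5 (by rw [ht, ht1])

/-- the landing lemma: the landing extension of a point-counter-free automaton is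
point-counter-free -/
theorem pcf_land {A Q : Type} (δ : A → Q → Q) (o : Q) (T : Set A)
    (hT : ∀ a, a ∉ T → ∀ q, δ a q = q) (h : PCF δ o) : PCF (land δ o T) (o, false) := by
  classical
  rw [pcf_iff]
  rintro w ⟨q, t⟩ k hk hx
  -- all iterates are states with the same second coordinate
  set D := run (del (land δ o T) (o, false)) w with hD
  have hDnone : ∀ j, D^[j] none = none := by
    intro j
    induction j with
    | zero => rfl
    | succ j ih => rw [Function.iterate_succ_apply, hD, run_none _ (del_none _ _), ← hD, ih]
  have hmono : ∀ j q0 t0 q1 t1, D^[j] (some (q0, t0)) = some (q1, t1) →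
      (t0 = true → t1 = true) ∧ (t1 = t0 → (run (delT δ o T) w)^[j] (some q0) = some q1) := by
    intro j
    induction j with
    | zero =>
      intro q0 t0 q1 t1 h
      simp only [Function.iterate_zero, id_eq, Option.some.injEq, Prod.mk.injEq] at h
      obtain ⟨rfl, rfl⟩ := h
      exact ⟨id, fun _ => rfl⟩
    | succ j ih =>
      intro q0 t0 q2 t2 h
      rw [Function.iterate_succ_apply] at h
      cases hs : D (some (q0, t0)) with
      | none => rw [hs, hDnone] at h; simp at h
      | some y =>
        obtain ⟨q1, t1⟩ := y
        rw [hs] at h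
        obtain ⟨h1, h2⟩ := land_run δ o T w q0 t0 q1 t1 hs
        obtain ⟨h3, h4⟩ := ih q1 t1 q2 t2 h
        refine ⟨fun ht => h3 (h1 ht), ?_⟩
        intro ht
        have ht1 : t1 = t0 := by
          cases t0 with
          | true => exact h1 rfl
          | false =>
            cases t1 with
            | false => rfl
            | true => exact absurd (h3 rfl) (by rw [ht]; simp)
        rw [Function.iterate_succ_apply, h2 ht1]
        exact h4 (by rw [ht, ht1])
  have hq : run (delT δ o T) w (some q) = some q :=
    cf_delT δ o T hT h w q k hk ((hmono k q t q t hx).2 rfl)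
  -- first step
  obtain ⟨j, rfl⟩ : ∃ j, k = j + 1 := ⟨k - 1, by omega⟩
  cases hs : D (some (q, t)) with
  | none =>
    rw [Function.iterate_succ_apply, hs, hDnone] at hx
    simp at hx
  | some y =>
    obtain ⟨q1, t1⟩ := y
    rw [Function.iterate_succ_apply, hs] at hx
    obtain ⟨h1, h2⟩ := land_run δ o T w q t q1 t1 hs
    obtain ⟨h3, -⟩ := hmono j q1 t1 q t hx
    have ht1 : t1 = t := by
      cases t with
      | true => exact h1 rfl
      | false =>
        cases t1 with
        | false => rfl
        | true => exact absurd (h3 rfl) (by simp)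
    have := h2 ht1
    rw [hq] at this
    simp only [Option.some.injEq] at this
    rw [this, ht1]

end Vale.Agent.P329
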