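import Vale.Agent.P329.Cert4

/-! Languages recognised by the symmetric group of degree four. -/

namespace Vale.Agent.P329

/-! ### Characteristic two -/

lemma vadd_self : ∀ x : V, x + x = 0 := by decide

lemma vadd_eq_zero {x y : V} : x + y = 0 ↔ x = y := by
  revert x y; decide

/-! ### Tables -/

/-- the three certificate sets -/
def UU : Fin 3 → List (ℕ × ℕ × ℕ) := ![U1, U2, U3]

/-- the types of the letters which are not neutral -/
def OkT (P Q : V) : Prop := P ≠ 0 ∧ Q ≠ 0 ∧ P ≠ Q ∧ ¬ (P = (1, 0) ∧ Q = (0, 1))

instance (P Q : V) : Decidable (OkT P Q) := by unfold OkT; infer_instance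

/-- available difference -/
def Avail (P Q d : V) : Prop := ∃ i : Fin 3, ∃ v v' : V,
  (ev P, ev Q, ev v) ∈ UU i ∧ (ev P, ev Q, ev v') ∈ UU i ∧ v + v' = d

instance (P Q d : V) : Decidable (Avail P Q d) := by unfold Avail; infer_instance

lemma tableA : ∀ (i : Fin 3) (P Q : V), OkT P Q → ∃ v : V, (ev P, ev Q, ev v) ∈ UU i := by
  decide +kernel

lemma tableB : ∀ (P Q : V), OkT P Q → ∀ d : V,
    ∃ d1 d2 : V, d1 + d2 = d ∧ Avail P Q d1 ∧ Avail P Q d2 := by decide +kernel

lemma tableD : ∀ (i : Fin 3) (v : V), (ev (1, 0), ev (0, 1), ev v) ∉ UU i := by decide +kernel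

lemma tableC : ∀ (p q v z : V),
    eo (if (if z.1 = 1 then p else 0) + (if z.2 = 1 then q else 0) + v = 0 then none
      else some ((if z.1 = 1 then p else 0) + (if z.2 = 1 then q else 0) + v)) =
      look (letterCode (ev p) (ev q) (ev v)) (ev z) := by decide +kernel

lemma addhom_apply (h : V →+ V) (z : V) :
    h z = (if z.1 = 1 then h (1, 0) else 0) + (if z.2 = 1 then h (0, 1) else 0) := by
  have e : z = (if z.1 = 1 then (1, 0) else 0) + (if z.2 = 1 then (0, 1) else 0) := by
    revert z; decide
  conv_lhs => rw [e]
  rw [map_add]
  congr 1
  · split_ifs <;> simp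
  · split_ifs <;> simp

lemma addhom_ext (h : V →+ V) (h1 : h (1, 0) = (1, 0)) (h2 : h (0, 1) = (0, 1)) (z : V) :
    h z = z := by
  rw [addhom_apply, h1, h2]
  revert z; decide

section

variable {A : Type}

/-- affine action -/
def aff (h : A → V →+ V) (F : A → V) : A → V → V := fun a z => h a z + F a

/-- neutral letter -/
def Neu (h : A → V →+ V) (a : A) : Prop := ∀ z, h a z = z

/-- admissible assignment of translation parts -/
def Adm (i : Fin 3) (h : A → V →+ V) (F : A → V) : Prop :=
  ∀ a, (Neu h a ∧ F a = 0) ∨ (ev (h a (1, 0)), ev (h a (0, 1)), ev (F a)) ∈ UU i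

lemma pcf_of_adm (i : Fin 3) (h : A → V →+ V) (F : A → V) (hF : Adm i h F) :
    PCF (aff h F) 0 := by
  have main : ∀ (U : List (ℕ × ℕ × ℕ)) (C : List (List ℕ)), Cert (gensOf U) C →
      (∀ a, (Neu h a ∧ F a = 0) ∨ (ev (h a (1, 0)), ev (h a (0, 1)), ev (F a)) ∈ U) →
      PCF (aff h F) 0 := by
    intro U C hC hU
    have hact : ∀ a x, eo (del (aff h F) 0 a x) =
        look (letterCode (ev (h a (1, 0))) (ev (h a (0, 1))) (ev (F a))) (eo x) := by
      intro a x
      cases x with
      | none => simp [del_none, eo, look, letterCode]
      | some z =>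
        have := tableC (h a (1, 0)) (h a (0, 1)) (F a) z
        rw [← addhom_apply (h a) z] at this
        have h3 : eo (some z) = ev z := rfl
        rw [h3, ← this]
        by_cases hz : aff h F a z = 0
        · rw [del_some_eq _ _ _ _ hz]
          simp only [aff] at hz
          rw [if_pos hz]
        · rw [del_some_ne _ _ _ _ hz]
          have hz' := hz
          simp only [aff] at hz'
          rw [if_neg hz']
          rfl
    refine cf_of_cert _ _ C hC fun a => ⟨_, ?_, hact a⟩
    rw [gensOf, List.mem_map]
    rcases hU a with ⟨h1, h2⟩ | h1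
    · refine ⟨(1, 2, 0), by simp, ?_⟩
      rw [h1, h1, h2]
      rfl
    · exact ⟨_, List.mem_cons_of_mem _ h1, rfl⟩
  fin_cases i
  · exact main U1 C1 cert1 hF
  · exact main U2 C2 cert2 hF
  · exact main U3 C3 cert3 hF

/-! ### The translation part and its second-order version -/

/-- linear part of a word -/
def HH (h : A → V →+ V) (w : List A) : V →+ V := w.foldl (fun g a => (h a).comp g) (AddMonoidHom.id V)

lemma HH_nil (h : A → V →+ V) (z : V) : HH h [] z = z := rfl

lemma HH_snoc (h : A → V →+ V) (w : List A) (a : A) (z : V) :
    HH h (w ++ [a]) z = h a (HH h w z) := by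
  simp [HH, List.foldl_append]

/-- translation part of a word -/
def TT (h : A → V →+ V) (F : A → V) (w : List A) : V := run (aff h F) w 0

lemma TT_nil (h : A → V →+ V) (F : A → V) : TT h F [] = 0 := rfl

lemma TT_snoc (h : A → V →+ V) (F : A → V) (w : List A) (a : A) :
    TT h F (w ++ [a]) = h a (TT h F w) + F a := by
  simp [TT, run_append, run_singleton, aff]

lemma run_aff (h : A → V →+ V) (F : A → V) (w : List A) (z : V) :
    run (aff h F) w z = HH h w z + TT h F w := by
  induction w using List.reverseRecOn with
  | nil => simp [run_nil, HH_nil, TT_nil]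
  | append_singleton w a ih =>
    rw [run_append, run_singleton, HH_snoc, TT_snoc, ih, aff, map_add, add_assoc]

open Classical in
/-- second-order translation part with respect to the letter `y` -/
noncomputable def YY (h : A → V →+ V) (F : A → V) (y : A) (w : List A) : V :=
  (run (fun a (x : V × V) => (h a x.1 + F a, h a x.2 + if a = y then x.1 else 0)) w (0, 0)).2

lemma YY_nil (h : A → V →+ V) (F : A → V) (y : A) : YY h F y [] = 0 := rfl

open Classical in
lemma YY_snoc (h : A → V →+ V) (F : A → V) (y : A) (w : List A) (a : A) :
    YY h F y (w ++ [a]) = h a (YY h F y w) + if a = y then TT h F w else 0 := by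
  have h1 : ∀ w : List A, (run (fun a (x : V × V) =>
      (h a x.1 + F a, h a x.2 + if a = y then x.1 else 0)) w (0, 0)).1 = TT h F w := by
    intro w
    induction w using List.reverseRecOn with
    | nil => rfl
    | append_singleton w a ih => rw [run_append, run_singleton, TT_snoc, ih]
  unfold YY
  rw [run_append, run_singleton]
  simp only [h1]

lemma TT_add (h : A → V →+ V) (F F' : A → V) (w : List A) :
    TT h (fun a => F a + F' a) w = TT h F w + TT h F' w := by
  induction w using List.reverseRecOn with
  | nil => simp [TT_nil]
  | append_singleton w a ih =>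
    rw [TT_snoc, TT_snoc, TT_snoc, ih, map_add]
    abel

lemma YY_add (h : A → V →+ V) (F F' : A → V) (y : A) (w : List A) :
    YY h (fun a => F a + F' a) y w = YY h F y w + YY h F' y w := by
  induction w using List.reverseRecOn with
  | nil => simp [YY_nil]
  | append_singleton w a ih =>
    rw [YY_snoc, YY_snoc, YY_snoc, ih, map_add]
    by_cases hy : a = y
    · simp only [hy, if_true, TT_add]
      abel
    · simp only [hy, if_false]
      abel

lemma HH_bij (h : A → V →+ V) (hb : ∀ a, Function.Bijective (h a)) (w : List A) :
    Function.Bijective (HH h w) := by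
  induction w using List.reverseRecOn with
  | nil => exact Function.bijective_id
  | append_singleton w a ih =>
    have : (HH h (w ++ [a]) : V → V) = (h a) ∘ (HH h w) := by
      funext z; exact HH_snoc h w a z
    rw [this]
    exact (hb a).comp ih

/-! ### Good functions -/

lemma good_TT [Finite A] (h : A → V →+ V) (F : A → V) (hF : PCF (aff h F) 0) : Good (TT h F) :=
  good_run _ _ hF 0

lemma good_HH [Finite A] (h : A → V →+ V) (F : A → V) (hF : PCF (aff h F) 0) :
    Good (fun w => fun z => HH h w z) := by
  have h1 := (good_run_all _ _ hF).map (fun g : V → V => fun z => g z + g 0)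
  have e : (fun w : List A => (fun z => HH h w z)) =
      fun w => (fun g : V → V => fun z => g z + g 0) (run (aff h F) w) := by
    funext w z
    simp only [run_aff, map_zero, zero_add]
    rw [add_assoc, vadd_self, add_zero]
  rw [e]
  exact h1

/-- generation by admissible assignments -/
lemma gen_adm [Finite A] (h : A → V →+ V) (hb : ∀ a, Function.Bijective (h a))
    (G : (A → V) → Prop) (hadd : ∀ F F', G F → G F' → G (fun a => F a + F' a))
    (hadm : ∀ i F, Adm i h F → G F) (F : A → V) (hF : ∀ a, Neu h a → F a = 0) : G F := by
  classical
  have htype : ∀ a, ¬ Neu h a → OkT (h a (1, 0)) (h a (0, 1)) := by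
    intro a ha
    have hinj := (hb a).1
    refine ⟨?_, ?_, ?_, ?_⟩
    · intro h0
      have := hinj (h0.trans (map_zero (h a)).symm)
      exact absurd this (by decide)
    · intro h0
      have := hinj (h0.trans (map_zero (h a)).symm)
      exact absurd this (by decide)
    · intro h0
      exact absurd (hinj h0) (by decide)
    · rintro ⟨h1, h2⟩
      exact ha (addhom_ext (h a) h1 h2)
  have hctx : ∀ i : Fin 3, ∃ c : A → V, ∀ a, ¬ Neu h a →
      (ev (h a (1, 0)), ev (h a (0, 1)), ev (c a)) ∈ UU i := by
    intro i
    have : ∀ a, ∃ v, ¬ Neu h a → (ev (h a (1, 0)), ev (h a (0, 1)), ev v) ∈ UU i := by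
      intro a
      by_cases ha : Neu h a
      · exact ⟨0, fun h => absurd ha h⟩
      · obtain ⟨v, hv⟩ := tableA i _ _ (htype a ha)
        exact ⟨v, fun _ => hv⟩
    choose c hc using this
    exact ⟨c, hc⟩
  -- differences at one moving letter
  have hdiff : ∀ z, ¬ Neu h z → ∀ d, Avail (h z (1, 0)) (h z (0, 1)) d →
      G (fun a => if a = z then d else 0) := by
    rintro z hz d ⟨i, v, v', h1, h2, rfl⟩
    obtain ⟨c, hc⟩ := hctx i
    have hA : ∀ u, (ev (h z (1, 0)), ev (h z (0, 1)), ev u) ∈ UU i →
        Adm i h (fun a => if Neu h a then 0 else if a = z then u else c a) := by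
      intro u hu a
      by_cases ha : Neu h a
      · left; exact ⟨ha, by simp [ha]⟩
      · right
        by_cases haz : a = z
        · subst haz
          simpa [ha] using hu
        · simpa [ha, haz] using hc a ha
    have := hadd _ _ (hadm i _ (hA v h1)) (hadm i _ (hA v' h2))
    convert this using 1
    funext a
    by_cases haz : a = z
    · subst haz
      simp [hz]
    · by_cases ha : Neu h a
      · simp [ha, haz]
      · simp [ha, haz, vadd_self]
  have hsingle : ∀ z, ¬ Neu h z → ∀ d, G (fun a => if a = z then d else 0) := by
    intro z hz d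
    obtain ⟨d1, d2, rfl, h1, h2⟩ := tableB _ _ (htype z hz) d
    have := hadd _ _ (hdiff z hz d1 h1) (hdiff z hz d2 h2)
    convert this using 1
    funext a
    by_cases haz : a = z
    · simp [haz]
    · simp [haz]
  have hzero : G (fun _ => 0) := by
    obtain ⟨c, hc⟩ := hctx 0
    have hA : Adm 0 h (fun a => if Neu h a then 0 else c a) := by
      intro a
      by_cases ha : Neu h a
      · left; exact ⟨ha, by simp [ha]⟩
      · right
        simpa [ha] using hc a ha
    have := hadd _ _ (hadm 0 _ hA) (hadm 0 _ hA)
    convert this using 1
    funext a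
    rw [vadd_self]
  have := Fintype.ofFinite A
  have hsum : ∀ s : Finset A, G (fun a => ∑ z ∈ s, if a = z then F z else 0) := by
    intro s
    induction s using Finset.induction_on with
    | empty => simpa using hzero
    | insert z s hz ih =>
      have h1 : G (fun a => if a = z then F z else 0) := by
        by_cases hn : Neu h z
        · rw [hF z hn]
          simpa using hzero
        · exact hsingle z hn _
      have := hadd _ _ h1 ih
      convert this using 1
      funext a
      rw [Finset.sum_insert hz]
  have := hsum Finset.univ
  simpa using this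

/-- the translation part is good for every assignment vanishing at the neutral letters -/
lemma good_TT_moving [Finite A] (h : A → V →+ V) (hb : ∀ a, Function.Bijective (h a))
    (F : A → V) (hF : ∀ a, Neu h a → F a = 0) : Good (TT h F) := by
  refine gen_adm h hb (fun F => Good (TT h F)) ?_ ?_ F hF
  · intro F F' h1 h2
    have := h1.map₂ h2 (fun x y => x + y)
    convert this using 1
    funext w
    exact TT_add h F F' w
  · intro i F hF
    exact good_TT h F (pcf_of_adm i h F hF)

lemma land_snd_pos {Q : Type} (δ : A → Q → Q) (o : Q) (T : Set A) (a : A) (x : Q × Bool)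
    (h1 : a ∈ T) (h2 : δ a x.1 = o) : (land δ o T a x).2 = !x.2 := by
  simp [land, h1, h2]

lemma land_snd_neg {Q : Type} (δ : A → Q → Q) (o : Q) (T : Set A) (a : A) (x : Q × Bool)
    (h1 : ¬ (a ∈ T ∧ δ a x.1 = o)) : (land δ o T a x).2 = x.2 := by
  simp [land, h1]

lemma land_fst {Q : Type} (δ : A → Q → Q) (o : Q) (T : Set A) (w : List A) (x : Q × Bool) :
    (run (land δ o T) w x).1 = run δ w x.1 := by
  induction w using List.reverseRecOn with
  | nil => rfl
  | append_singleton w a ih =>
    rw [run_append, run_append, run_singleton, run_singleton, ← ih]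
    rfl

/-- counting the landings -/
lemma YY_eq [Finite A] (h : A → V →+ V) (hb : ∀ a, Function.Bijective (h a)) (F : A → V) (y : A)
    (hy : Neu h y) (hFy : F y = 0) (T : Set A) (hyT : y ∉ T) (w : List A) :
    YY h F y w = ∑ q : V,
      if (run (land (aff h F) 0 (insert y T)) w (q, false)).2 ≠
        (run (land (aff h F) 0 T) w (q, false)).2 then HH h w q else 0 := by
  classical
  induction w using List.reverseRecOn with
  | nil => simp [YY_nil, run_nil]
  | append_singleton w a ih =>
    rw [YY_snoc, ih, map_sum]
    by_cases hay : a = y
    · subst hay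
      have hterm : ∀ q : V, (if (run (land (aff h F) 0 (insert a T)) (w ++ [a]) (q, false)).2 ≠
          (run (land (aff h F) 0 T) (w ++ [a]) (q, false)).2 then HH h (w ++ [a]) q else 0) =
          h a (if (run (land (aff h F) 0 (insert a T)) w (q, false)).2 ≠
            (run (land (aff h F) 0 T) w (q, false)).2 then HH h w q else 0) +
          (if HH h w q = TT h F w then TT h F w else 0) := by
        intro q
        have h1 : ∀ T : Set A, aff h F a (run (land (aff h F) 0 T) w (q, false)).1 = 0 ↔
            HH h w q = TT h F w := by
          intro T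
          rw [land_fst]
          have h4 := run_aff h F w q
          have h5 : aff h F a (run (aff h F) w q) = run (aff h F) w q := by
            simp only [aff, hy _, hFy, add_zero]
          rw [h5, h4, vadd_eq_zero]
        have h5 : (run (land (aff h F) 0 T) (w ++ [a]) (q, false)).2 =
            (run (land (aff h F) 0 T) w (q, false)).2 := by
          rw [run_append, run_singleton, land_snd_neg _ _ _ _ _ (fun h => hyT h.1)]
        rw [h5, HH_snoc, hy]
        by_cases h3 : HH h w q = TT h F w
        · have h6 : (run (land (aff h F) 0 (insert a T)) (w ++ [a]) (q, false)).2 =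
              !(run (land (aff h F) 0 (insert a T)) w (q, false)).2 := by
            rw [run_append, run_singleton, land_snd_pos _ _ _ _ _ (Set.mem_insert _ _)
              ((h1 _).mpr h3)]
          rw [h6, if_pos h3, h3]
          cases (run (land (aff h F) 0 (insert a T)) w (q, false)).2 <;>
          cases (run (land (aff h F) 0 T) w (q, false)).2 <;> simp [vadd_self, hy _]
        · have h6 : (run (land (aff h F) 0 (insert a T)) (w ++ [a]) (q, false)).2 =
              (run (land (aff h F) 0 (insert a T)) w (q, false)).2 := by
            rw [run_append, run_singleton, land_snd_neg _ _ _ _ _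
              (fun h => h3 ((h1 _).mp h.2))]
          rw [h6, if_neg h3, add_zero, hy]
      rw [Finset.sum_congr rfl fun q _ => hterm q, Finset.sum_add_distrib]
      congr 1
      obtain ⟨q0, hq0⟩ := (HH_bij h hb w).2 (TT h F w)
      rw [Finset.sum_eq_single q0]
      · simp [hq0]
      · intro b _ hb0
        rw [if_neg]
        intro hb1
        exact hb0 ((HH_bij h hb w).1 (hb1.trans hq0.symm))
      · intro h0
        exact absurd (Finset.mem_univ _) h0
    · rw [if_neg hay, add_zero]
      apply Finset.sum_congr rfl
      intro q _
      rw [HH_snoc]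
      by_cases h3 : a ∈ T ∧ aff h F a (run (aff h F) w q) = 0
      · have h5 : ∀ T' : Set A, a ∈ T' → (run (land (aff h F) 0 T') (w ++ [a]) (q, false)).2 =
            !(run (land (aff h F) 0 T') w (q, false)).2 := by
          intro T' h'
          rw [run_append, run_singleton, land_snd_pos _ _ _ _ _ h' (by rw [land_fst]; exact h3.2)]
        rw [h5 T h3.1, h5 _ (Set.mem_insert_of_mem _ h3.1)]
        cases (run (land (aff h F) 0 (insert y T)) w (q, false)).2 <;>
          cases (run (land (aff h F) 0 T) w (q, false)).2 <;> simp
      · have h5 : (run (land (aff h F) 0 T) (w ++ [a]) (q, false)).2 =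
            (run (land (aff h F) 0 T) w (q, false)).2 := by
          rw [run_append, run_singleton, land_snd_neg]
          rw [land_fst]; exact h3
        have h6 : (run (land (aff h F) 0 (insert y T)) (w ++ [a]) (q, false)).2 =
            (run (land (aff h F) 0 (insert y T)) w (q, false)).2 := by
          rw [run_append, run_singleton, land_snd_neg]
          rw [land_fst]
          rintro ⟨h7, h8⟩
          exact h3 ⟨(Set.mem_insert_iff.mp h7).resolve_left hay, h8⟩
        rw [h5, h6]
        split_ifs <;> simp

lemma good_YY [Finite A] (h : A → V →+ V) (hb : ∀ a, Function.Bijective (h a)) (y : A)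
    (hy : Neu h y) (i : Fin 3) (F : A → V) (hF : Adm i h F) (hnz : ∀ a, Neu h a → F a = 0) :
    Good (YY h F y) := by
  classical
  set T : Set A := {a | ¬ (Neu h a ∧ F a = 0)} with hT
  have hpcf := pcf_of_adm i h F hF
  have hyT : y ∉ T := by
    rw [hT]
    simp only [Set.mem_ofPred_eq, not_not]
    exact ⟨hy, hnz y hy⟩
  have htriv : ∀ a, a ∉ T → ∀ q, aff h F a q = q := by
    intro a ha q
    rw [hT] at ha
    simp only [Set.mem_ofPred_eq, not_not] at ha
    simp [aff, ha.1 q, ha.2]
  have p1 : PCF (land (aff h F) 0 T) (0, false) := pcf_land _ _ _ htriv hpcf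
  have p2 : PCF (land (aff h F) 0 (insert y T)) (0, false) := by
    apply pcf_land _ _ _ _ hpcf
    intro a ha
    exact htriv a fun h => ha (Set.mem_insert_of_mem _ h)
  have g1 : Good (fun w => fun q : V => (run (land (aff h F) 0 T) w (q, false)).2) :=
    Good.pi (F := fun (q : V) w => (run (land (aff h F) 0 T) w (q, false)).2) fun q =>
      (good_run _ _ p1 (q, false)).map Prod.snd
  have g2 : Good (fun w => fun q : V => (run (land (aff h F) 0 (insert y T)) w (q, false)).2) :=
    Good.pi (F := fun (q : V) w => (run (land (aff h F) 0 (insert y T)) w (q, false)).2) fun q =>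
      (good_run _ _ p2 (q, false)).map Prod.snd
  have g3 := good_HH h F hpcf
  have g4 := ((g2.prod g1).prod g3).map (fun x : ((V → Bool) × (V → Bool)) × (V → V) =>
    ∑ q : V, if x.1.1 q ≠ x.1.2 q then x.2 q else 0)
  convert g4 using 1
  funext w
  exact YY_eq h hb F y hy (hnz y hy) T hyT w

/-- the second-order part is good for every assignment vanishing at the neutral letters -/
lemma good_YY_moving [Finite A] (h : A → V →+ V) (hb : ∀ a, Function.Bijective (h a)) (y : A)
    (hy : Neu h y) (F : A → V) (hF : ∀ a, Neu h a → F a = 0) : Good (YY h F y) := by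
  refine gen_adm h hb (fun F => Good (YY h F y)) ?_ ?_ F hF
  · intro F F' h1 h2
    have := h1.map₂ h2 (fun x y => x + y)
    convert this using 1
    funext w
    exact YY_add h F F' y w
  · intro i F hF
    refine good_YY h hb y hy i F hF ?_
    intro a ha
    rcases hF a with h1 | h1
    · exact h1.2
    · rw [ha, ha] at h1
      exact absurd h1 (tableD i _)

/-- parity of the number of occurrences of a letter -/
lemma good_parity [Finite A] (y : A) :
    Good (fun w => (run (land (fun (_ : A) (_ : Unit) => ()) () {y}) w ((), false)).2) := by
  have hp : PCF (fun (_ : A) (_ : Unit) => ()) () := by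
    rw [pcf_iff]
    rintro w ⟨⟩ k hk h
    cases w with
    | nil => rfl
    | cons a w =>
      have h1 : run (del (fun (_ : A) (_ : Unit) => ()) ()) (a :: w) (some ()) = none := by
        rw [run_cons, del_some_eq _ _ _ _ rfl, run_none _ (del_none _ _)]
      obtain ⟨j, rfl⟩ : ∃ j, k = j + 1 := ⟨k - 1, by omega⟩
      rw [Function.iterate_succ_apply, h1] at h
      have h2 : ∀ j, (run (del (fun (_ : A) (_ : Unit) => ()) ()) (a :: w))^[j] none = none := by
        intro j
        induction j with
        | zero => rfl
        | succ j ih => rw [Function.iterate_succ_apply, run_none _ (del_none _ _), ih]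
      rw [h2] at h
      simp at h
  have h2 : PCF (land (fun (_ : A) (_ : Unit) => ()) () {y}) ((), false) :=
    pcf_land _ _ _ (fun _ _ _ => rfl) hp
  exact (good_run _ _ h2 ((), false)).map Prod.snd

/-- the coboundary assignment -/
lemma TT_cob (h : A → V →+ V) (e : V) (w : List A) :
    TT h (fun a => e + h a e) w = e + HH h w e := by
  induction w using List.reverseRecOn with
  | nil => rw [TT_nil, HH_nil, vadd_self]
  | append_singleton w a ih =>
    rw [TT_snoc, ih, HH_snoc, map_add]
    have : h a e + h a (HH h w e) + (e + h a e) =
        (h a e + h a e) + (e + h a (HH h w e)) := by abel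
    rw [this, vadd_self, zero_add]

/-- a translation part concentrated at one neutral letter is good -/
lemma good_TT_neutral [Finite A] (h : A → V →+ V) (hb : ∀ a, Function.Bijective (h a)) (y : A)
    (hy : Neu h y) (e : V) [DecidableEq A] : Good (TT h (fun a => if a = y then e else 0)) := by
  have hF : ∀ a, Neu h a → (fun a => e + h a e) a = 0 := by
    intro a ha
    simp only [ha e, vadd_self]
  have g1 := good_YY_moving h hb y hy _ hF
  have g2 := good_parity y
  have g3 : Good (fun w => fun z => HH h w z) := by
    -- goodness of the linear part from the coboundary assignments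
    have := good_TT_moving h hb (fun a => (1, 0) + h a (1, 0))
      (fun a ha => by simp only [ha _, vadd_self])
    have h10 : Good (fun w => HH h w (1, 0)) := by
      have h2 := this.map (fun x : V => (1, 0) + x)
      convert h2 using 1
      funext w
      rw [TT_cob, ← add_assoc, vadd_self, zero_add]
    have := good_TT_moving h hb (fun a => (0, 1) + h a (0, 1))
      (fun a ha => by simp only [ha _, vadd_self])
    have h01 : Good (fun w => HH h w (0, 1)) := by
      have h2 := this.map (fun x : V => (0, 1) + x)
      convert h2 using 1
      funext w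
      rw [TT_cob, ← add_assoc, vadd_self, zero_add]
    have h3 := h10.map₂ h01 (fun (x x' : V) => fun z : V =>
      (if z.1 = 1 then x else 0) + (if z.2 = 1 then x' else 0))
    convert h3 using 1
    funext w z
    exact addhom_apply (HH h w) z
  have g4 := ((g1.prod g2).prod g3).map (fun x : (V × Bool) × (V → V) =>
    x.1.1 + if x.1.2 then x.2 e else 0)
  convert g4 using 1
  have key : ∀ w : List A, TT h (fun a => if a = y then e else 0) w =
      YY h (fun a => e + h a e) y w +
        if (run (land (fun (_ : A) (_ : Unit) => ()) () {y}) w ((), false)).2 then HH h w e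
        else 0 := by
   intro w
   induction w using List.reverseRecOn with
   | nil => simp [TT_nil, YY_nil, run_nil]
   | append_singleton w a ih =>
     rw [TT_snoc, ih, YY_snoc, HH_snoc, map_add, TT_cob]
     by_cases hay : a = y
     · subst hay
       rw [run_append, run_singleton, land_snd_pos (fun (_ : A) (_ : Unit) => ()) () {a} a _
        (Set.mem_singleton a) rfl]
       simp only [if_true, hy _]
       cases (run (land (fun (_ : A) (_ : Unit) => ()) () {a}) w ((), false)).2
       · simp only [Bool.false_eq_true, if_false, add_zero, Bool.not_false, if_true]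
         have : YY h (fun a => e + h a e) a w + (e + HH h w e) + HH h w e =
           (YY h (fun a => e + h a e) a w + e) + (HH h w e + HH h w e) := by abel
         rw [this, vadd_self, add_zero]
       · simp only [if_true, Bool.not_true, Bool.false_eq_true, if_false, add_zero]
         abel
     · rw [run_append, run_singleton, land_snd_neg (fun (_ : A) (_ : Unit) => ()) () {y} a _
        (fun h => hay (Set.mem_singleton_iff.mp h.1))]
       simp only [hay, if_false, add_zero]
       cases (run (land (fun (_ : A) (_ : Unit) => ()) () {y}) w ((), false)).2 <;> simp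
  exact funext key

/-- the translation part is good for every assignment -/
theorem good_TT_all [Finite A] (h : A → V →+ V) (hb : ∀ a, Function.Bijective (h a))
    (F : A → V) : Good (TT h F) := by
  classical
  have := Fintype.ofFinite A
  have hadd : ∀ F F' : A → V, Good (TT h F) → Good (TT h F') →
      Good (TT h (fun a => F a + F' a)) := by
    intro F F' h1 h2
    have := h1.map₂ h2 (fun x y => x + y)
    convert this using 1
    funext w
    exact TT_add h F F' w
  have hzero : Good (TT h (fun _ => 0)) := good_TT_moving h hb _ fun _ _ => rfl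
  have hsum : ∀ s : Finset A, Good (TT h (fun a => ∑ z ∈ s, if a = z then F z else 0)) := by
    intro s
    induction s using Finset.induction_on with
    | empty => simpa using hzero
    | insert z s hz ih =>
      have h1 : Good (TT h (fun a => if a = z then F z else 0)) := by
        by_cases hn : Neu h z
        · exact good_TT_neutral h hb z hn (F z)
        · apply good_TT_moving h hb
          intro a ha
          rw [if_neg]
          rintro rfl
          exact hn ha
      have := hadd _ _ h1 ih
      convert this using 1
      congr 1
      funext a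
      rw [Finset.sum_insert hz]
  have := hsum Finset.univ
  simpa using this

/-- words acting by permutations of the plane -/
theorem good_perm [Finite A] (φ : A → Equiv.Perm V) : Good (fun w => run (fun a z => φ a z) w) := by
  have hadd : ∀ (g : Equiv.Perm V) (x y : V), g (x + y) + g 0 = (g x + g 0) + (g y + g 0) := by
    decide +kernel
  let h : A → V →+ V := fun a =>
    { toFun := fun z => φ a z + φ a 0
      map_zero' := vadd_self _
      map_add' := fun x y => hadd (φ a) x y }
  have hb : ∀ a, Function.Bijective (h a) := by
    intro a
    exact (Equiv.addRight (φ a 0)).bijective.comp (φ a).bijective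
  have g1 := good_TT_all h hb (fun a => φ a 0)
  have g10 := good_TT_all h hb (fun a => (1, 0) + h a (1, 0))
  have g01 := good_TT_all h hb (fun a => (0, 1) + h a (0, 1))
  have g2 := ((g10.prod g01).prod g1).map (fun x : (V × V) × V => fun z : V =>
      (if z.1 = 1 then (1, 0) + x.1.1 else 0) + (if z.2 = 1 then (0, 1) + x.1.2 else 0) + x.2)
  convert g2 using 1
  funext w z
  have e1 : (fun (a : A) (z : V) => φ a z) = aff h (fun a => φ a 0) := by
    funext a z
    show φ a z = (φ a z + φ a 0) + φ a 0
    rw [add_assoc, vadd_self, add_zero]
  rw [e1, run_aff, addhom_apply (HH h w) z]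
  simp only [TT_cob]
  rw [← add_assoc, vadd_self, zero_add, ← add_assoc, vadd_self, zero_add]

end

end Vale.Agent.P329
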