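import Vale.Agent.P329.Basic

/-! Counter-free automata recognise languages of generalized star height zero
(Schutzenberger's theorem, by the induction of Wilke). -/

namespace Vale.Agent.P329

/-- the action of a word -/
def run {A Q : Type} (δ : A → Q → Q) (w : List A) (q : Q) : Q := w.foldl (fun q a => δ a q) q

lemma run_nil {A Q : Type} (δ : A → Q → Q) (q : Q) : run δ [] q = q := rfl

lemma run_cons {A Q : Type} (δ : A → Q → Q) (a : A) (w : List A) (q : Q) :
    run δ (a :: w) q = run δ w (δ a q) := rfl

lemma run_append {A Q : Type} (δ : A → Q → Q) (u v : List A) (q : Q) :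
    run δ (u ++ v) q = run δ v (run δ u q) := by
  simp [run, List.foldl_append]

lemma run_singleton {A Q : Type} (δ : A → Q → Q) (a : A) (q : Q) : run δ [a] q = δ a q := rfl

/-- counter-freeness for words over `S` -/
def CF {A Q : Type} (δ : A → Q → Q) (S : Set A) : Prop :=
  ∀ w ∈ wordsIn S, ∀ (q : Q) (k : ℕ), 1 ≤ k → (run δ w)^[k] q = q → run δ w q = q

/-- words over `S` from `p` to `q` -/
def LL {A Q : Type} (δ : A → Q → Q) (S : Set A) (p q : Q) : Set (List A) :=
  {w | w ∈ wordsIn S ∧ run δ w p = q}

lemma wordsIn_append {A : Type} {S : Set A} {u v : List A} :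
    u ++ v ∈ wordsIn S ↔ u ∈ wordsIn S ∧ v ∈ wordsIn S := by
  simp only [wordsIn, Set.mem_ofPred_eq, List.mem_append]
  constructor
  · intro h; exact ⟨fun a ha => h a (Or.inl ha), fun a ha => h a (Or.inr ha)⟩
  · rintro ⟨h1, h2⟩ a (ha | ha)
    · exact h1 a ha
    · exact h2 a ha

lemma wordsIn_mono {A : Type} {S T : Set A} (h : S ⊆ T) {w : List A} (hw : w ∈ wordsIn S) :
    w ∈ wordsIn T := fun a ha => h (hw a ha)

lemma nil_mem_wordsIn {A : Type} (S : Set A) : ([] : List A) ∈ wordsIn S := by
  intro a ha; simp at ha

section pull

variable {A A' : Type} (c : A) (B : Set A) (f : List A → A')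

/-- pull-back of a language along the decomposition of a word of `(B* c)*` -/
def pull (K : Set (List A')) : Set (List A) :=
  {w | ∃ us : List (List A), (∀ u ∈ us, u ∈ wordsIn B) ∧
    w = (us.map (fun u => u ++ [c])).flatten ∧ us.map f ∈ K}

lemma pull_unique (hc : c ∉ B) : ∀ us vs : List (List A), (∀ u ∈ us, u ∈ wordsIn B) →
    (∀ u ∈ vs, u ∈ wordsIn B) →
    (us.map (fun u => u ++ [c])).flatten = (vs.map (fun u => u ++ [c])).flatten → us = vs := by
  intro us
  induction us with
  | nil =>
    intro vs _ _ h
    cases vs with
    | nil => rfl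
    | cons v vs => simp at h
  | cons u us ih =>
    intro vs hu hv h
    cases vs with
    | nil => simp at h
    | cons v vs =>
      have hu0 : u ∈ wordsIn B := hu u (by simp)
      have hv0 : v ∈ wordsIn B := hv v (by simp)
      simp only [List.map_cons, List.flatten_cons, List.append_assoc, List.singleton_append] at h
      have key : ∀ (u v x y : List A), u ∈ wordsIn B → v ∈ wordsIn B →
          u ++ c :: x = v ++ c :: y → u = v ∧ x = y := by
        intro u
        induction u with
        | nil =>
          intro v x y _ hv h
          cases v with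
          | nil => simpa using h
          | cons a v =>
            simp only [List.nil_append, List.cons_append, List.cons.injEq] at h
            exact absurd (h.1 ▸ hv a (by simp)) hc
        | cons a u ih =>
          intro v x y hu hv h
          cases v with
          | nil =>
            simp only [List.nil_append, List.cons_append, List.cons.injEq] at h
            exact absurd (h.1 ▸ hu a (by simp)) hc
          | cons b v =>
            simp only [List.cons_append, List.cons.injEq] at h
            obtain ⟨h1, h2⟩ := ih v x y (fun a ha => hu a (by simp [ha]))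
              (fun a ha => hv a (by simp [ha])) h.2
            exact ⟨by rw [h.1, h1], h2⟩
      obtain ⟨h1, h2⟩ := key u v _ _ hu0 hv0 h
      rw [h1, ih vs (fun a ha => hu a (by simp [ha])) (fun a ha => hv a (by simp [ha])) h2]

lemma pull_univ (S : Set A) (hcS : c ∈ S) (hB : B = S \ {c}) :
    pull c B f Set.univ = {[]} ∪ (wordsIn S ∩ cat Set.univ {[c]}) := by
  classical
  have hBS : B ⊆ S := by rw [hB]; exact Set.sdiff_subset
  ext w
  constructor
  · rintro ⟨us, hus, rfl, -⟩
    rcases List.eq_nil_or_concat us with rfl | ⟨vs, v, rfl⟩
    · left; rfl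
    · right
      constructor
      · intro a ha
        simp only [List.mem_flatten, List.mem_map] at ha
        obtain ⟨l, ⟨u, hu, rfl⟩, hal⟩ := ha
        rcases List.mem_append.mp hal with h | h
        · exact hBS (hus u hu a h)
        · simp only [List.mem_singleton] at h
          rw [h]; exact hcS
      · refine ⟨(vs.map (fun u => u ++ [c])).flatten ++ v, trivial, [c], rfl, ?_⟩
        simp
  · intro h
    have main : ∀ (n : ℕ) (w : List A), w.length ≤ n → w ∈ wordsIn S →
        (w = [] ∨ ∃ u, w = u ++ [c]) → ∃ us : List (List A), (∀ u ∈ us, u ∈ wordsIn B) ∧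
          w = (us.map (fun u => u ++ [c])).flatten := by
      intro n
      induction n with
      | zero =>
        intro w hw _ _
        have : w = [] := List.length_eq_zero_iff.mp (by omega)
        exact ⟨[], by simp, by simp [this]⟩
      | succ n ih =>
        intro w hn hw hor
        rcases hor with rfl | ⟨u, rfl⟩
        · exact ⟨[], by simp, by simp⟩
        · have hu : u ∈ wordsIn S := (wordsIn_append.mp hw).1
          by_cases hcu : c ∈ u
          · -- split at the last occurrence of c in u
            obtain ⟨x, y, hxy, hy⟩ : ∃ x y, u = x ++ c :: y ∧ c ∉ y := by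
              have hr : c ∈ u.reverse := by simpa using hcu
              obtain ⟨s, t, h1, h2⟩ := List.eq_append_cons_of_mem hr
              refine ⟨t.reverse, s.reverse, ?_, by simpa using h2⟩
              have := congrArg List.reverse h1
              simpa using this
            have hx : x ++ [c] ∈ wordsIn S := by
              rw [hxy] at hu
              rw [wordsIn_append] at hu ⊢
              exact ⟨hu.1, fun a ha => by simp only [List.mem_singleton] at ha; rw [ha]; exact hcS⟩
            obtain ⟨us, h1, h2⟩ := ih (x ++ [c]) (by
              rw [hxy] at hn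
              simp only [List.length_append, List.length_cons, List.length_nil] at hn ⊢
              omega) hx (Or.inr ⟨x, rfl⟩)
            refine ⟨us ++ [y], ?_, ?_⟩
            · intro z hz
              rcases List.mem_append.mp hz with h | h
              · exact h1 z h
              · simp only [List.mem_singleton] at h
                subst h
                intro a ha
                rw [hB]
                refine ⟨?_, ?_⟩
                · apply hu; rw [hxy]; simp [ha]
                · intro hac
                  simp only [Set.mem_singleton_iff] at hac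
                  exact hy (hac ▸ ha)
            · rw [List.map_append, List.flatten_append, ← h2, hxy]
              simp
          · refine ⟨[u], ?_, by simp⟩
            intro z hz
            simp only [List.mem_singleton] at hz
            subst hz
            intro a ha
            rw [hB]
            refine ⟨hu a ha, ?_⟩
            intro hac
            simp only [Set.mem_singleton_iff] at hac
            exact hcu (hac ▸ ha)
    have : ∃ us : List (List A), (∀ u ∈ us, u ∈ wordsIn B) ∧
          w = (us.map (fun u => u ++ [c])).flatten := by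
      rcases h with h | ⟨h1, u, -, v, hv, rfl⟩
      · rw [Set.mem_singleton_iff] at h
        exact main 0 w (by simp [h]) (by rw [h]; exact nil_mem_wordsIn S) (Or.inl h)
      · rw [Set.mem_singleton_iff] at hv
        subst hv
        exact main _ _ le_rfl h1 (Or.inr ⟨u, rfl⟩)
    obtain ⟨us, h1, h2⟩ := this
    exact ⟨us, h1, h2, trivial⟩

lemma gsh_pull [Finite A] (S : Set A) (hcS : c ∈ S) (hB : B = S \ {c})
    (hletter : ∀ t : A', GSH 0 {u | u ∈ wordsIn B ∧ f u = t}) :
    ∀ E : GExp A', E.height ≤ 0 → GSH 0 (pull c B f E.lang) := by
  have hcB : c ∉ B := by rw [hB]; simp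
  intro E
  induction E with
  | empty =>
    intro _
    have : pull c B f (GExp.empty : GExp A').lang = ∅ := by
      ext w
      simp [pull, GExp.lang]
    rw [this]; exact gsh_empty 0
  | eps =>
    intro _
    have : pull c B f (GExp.eps : GExp A').lang = {[]} := by
      ext w
      simp only [pull, GExp.lang, Set.mem_ofPred_eq, Set.mem_singleton_iff, List.map_eq_nil_iff]
      constructor
      · rintro ⟨us, -, rfl, rfl⟩; rfl
      · rintro rfl; exact ⟨[], by simp, rfl, rfl⟩
    rw [this]; exact gsh_eps 0
  | letter t =>
    intro _
    have : pull c B f (GExp.letter t : GExp A').lang =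
        cat {u | u ∈ wordsIn B ∧ f u = t} {[c]} := by
      ext w
      simp only [pull, GExp.lang, cat, Set.mem_ofPred_eq, Set.mem_singleton_iff, exists_eq_left]
      constructor
      · rintro ⟨us, h1, rfl, h3⟩
        obtain ⟨u, rfl, hu⟩ : ∃ u, us = [u] ∧ f u = t := by
          rcases us with _ | ⟨u, _ | ⟨v, us⟩⟩
          · simp at h3
          · exact ⟨u, rfl, by simpa using h3⟩
          · simp at h3
        exact ⟨u, ⟨h1 u (by simp), hu⟩, by simp⟩
      · rintro ⟨u, ⟨h1, h2⟩, rfl⟩
        exact ⟨[u], by simpa using h1, by simp, by simp [h2]⟩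
    rw [this]; exact gsh_cat (hletter t) (gsh_letter 0 c)
  | union P R ihP ihR =>
    intro hh
    simp only [GExp.height, nonpos_iff_eq_zero, Nat.max_eq_zero_iff] at hh
    have : pull c B f (GExp.union P R).lang = pull c B f P.lang ∪ pull c B f R.lang := by
      ext w
      simp only [pull, GExp.lang, Set.mem_ofPred_eq, Set.mem_union]
      constructor
      · rintro ⟨us, h1, h2, h3 | h3⟩
        · exact Or.inl ⟨us, h1, h2, h3⟩
        · exact Or.inr ⟨us, h1, h2, h3⟩
      · rintro (⟨us, h1, h2, h3⟩ | ⟨us, h1, h2, h3⟩)
        · exact ⟨us, h1, h2, Or.inl h3⟩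
        · exact ⟨us, h1, h2, Or.inr h3⟩
    rw [this]; exact gsh_union (ihP hh.1.le) (ihR hh.2.le)
  | concat P R ihP ihR =>
    intro hh
    simp only [GExp.height, nonpos_iff_eq_zero, Nat.max_eq_zero_iff] at hh
    have : pull c B f (GExp.concat P R).lang = cat (pull c B f P.lang) (pull c B f R.lang) := by
      ext w
      simp only [pull, GExp.lang, cat, Set.mem_ofPred_eq]
      constructor
      · rintro ⟨us, h1, h2, x, hx, y, hy, hxy⟩
        obtain ⟨u1, u2, rfl, rfl, rfl⟩ := List.map_eq_append_iff.mp hxy
        refine ⟨_, ⟨u1, fun u hu => h1 u (by simp [hu]), rfl, hx⟩,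
          _, ⟨u2, fun u hu => h1 u (by simp [hu]), rfl, hy⟩, ?_⟩
        rw [h2]; simp
      · rintro ⟨x, ⟨u1, h1, rfl, h3⟩, y, ⟨u2, h4, rfl, h6⟩, rfl⟩
        refine ⟨u1 ++ u2, ?_, by simp, _, h3, _, h6, by simp⟩
        intro u hu
        rcases List.mem_append.mp hu with h | h
        · exact h1 u h
        · exact h4 u h
    rw [this]; exact gsh_cat (ihP hh.1.le) (ihR hh.2.le)
  | compl P ih =>
    intro hh
    have : pull c B f (GExp.compl P).lang = pull c B f Set.univ \ pull c B f P.lang := by
      ext w
      constructor
      · rintro ⟨us, h1, h2, h3⟩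
        refine ⟨⟨us, h1, h2, trivial⟩, ?_⟩
        rintro ⟨vs, h4, h5, h6⟩
        have := pull_unique c B hcB us vs h1 h4 (h2 ▸ h5)
        subst this
        exact h3 h6
      · rintro ⟨⟨us, h1, h2, -⟩, h3⟩
        refine ⟨us, h1, h2, ?_⟩
        intro h
        exact h3 ⟨us, h1, h2, h⟩
    rw [this, pull_univ c B f S hcS hB]
    refine gsh_diff ?_ (ih hh)
    exact gsh_union (gsh_eps 0) (gsh_inter (gsh_wordsIn 0 S) (gsh_cat (gsh_univ 0) (gsh_letter 0 c)))
  | star P ih =>
    intro hh
    simp [GExp.height] at hh

end pull

/-- splitting a word at the first occurrence of a letter, then at the last one -/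
lemma exists_split {A : Type} (c : A) (S B : Set A) (hB : B = S \ {c}) (w : List A)
    (hw : w ∈ wordsIn S) (hcw : c ∈ w) :
    ∃ x z v, w = x ++ [c] ++ z ++ v ∧ x ∈ wordsIn B ∧ v ∈ wordsIn B ∧
      z ∈ ({[]} : Set (List A)) ∪ (wordsIn S ∩ cat Set.univ {[c]}) := by
  obtain ⟨x, y, hxy, hx⟩ := List.eq_append_cons_of_mem hcw
  have hmem : ∀ t : List A, (∀ a ∈ t, a ∈ w) → c ∉ t → t ∈ wordsIn B := by
    intro t ht hct a ha
    rw [hB]
    refine ⟨hw a (ht a ha), ?_⟩
    intro hac
    rw [Set.mem_singleton_iff] at hac
    exact hct (hac ▸ ha)
  have hxB : x ∈ wordsIn B := hmem x (fun a ha => by rw [hxy]; simp [ha]) hx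
  by_cases hcy : c ∈ y
  · obtain ⟨z, v, hzv, hv⟩ : ∃ z v, y = z ++ c :: v ∧ c ∉ v := by
      have hr : c ∈ y.reverse := by simpa using hcy
      obtain ⟨s, t, h1, h2⟩ := List.eq_append_cons_of_mem hr
      refine ⟨t.reverse, s.reverse, ?_, by simpa using h2⟩
      have := congrArg List.reverse h1
      simpa using this
    refine ⟨x, z ++ [c], v, by rw [hxy, hzv]; simp, hxB,
      hmem v (fun a ha => by rw [hxy, hzv]; simp [ha]) hv, Or.inr ⟨?_, z, trivial, [c], rfl, rfl⟩⟩
    intro a ha
    apply hw
    rw [hxy, hzv]
    rcases List.mem_append.mp ha with h | h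
    · simp [h]
    · simp only [List.mem_singleton] at h
      simp [h]
  · exact ⟨x, [], y, by rw [hxy]; simp, hxB,
      hmem y (fun a ha => by rw [hxy]; simp [ha]) hcy, Or.inl rfl⟩

lemma LL_ident {A Q : Type} [Finite A] (δ : A → Q → Q) (S : Set A)
    (h : ∀ a ∈ S, ∀ q, δ a q = q) (p q : Q) : GSH 0 (LL δ S p q) := by
  have key : ∀ w ∈ wordsIn S, ∀ x, run δ w x = x := by
    intro w
    induction w with
    | nil => intro _ x; rfl
    | cons a w ih =>
      intro hw x
      rw [run_cons, h a (hw a (by simp)), ih (fun b hb => hw b (by simp [hb]))]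
  by_cases hpq : p = q
  · have : LL δ S p q = wordsIn S := by
      ext w
      constructor
      · exact fun hw => hw.1
      · exact fun hw => ⟨hw, by rw [key w hw, hpq]⟩
    rw [this]; exact gsh_wordsIn 0 S
  · have : LL δ S p q = ∅ := by
      ext w
      simp only [Set.mem_empty_iff_false, iff_false]
      rintro ⟨hw, h2⟩
      rw [key w hw] at h2
      exact hpq h2
    rw [this]; exact gsh_empty 0

/-- Schutzenberger's theorem for counter-free automata -/
theorem schutz_aux : ∀ (n m : ℕ) (A Q : Type) [Finite A] [Finite Q] (δ : A → Q → Q) (S : Set A),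
    Nat.card Q ≤ n → S.ncard ≤ m → CF δ S → ∀ p q, GSH 0 (LL δ S p q) := by
  intro n
  induction n with
  | zero =>
    intro m A Q _ _ δ S hQ _ _ p q
    have h0 : Nat.card Q = 0 := by omega
    have := Finite.card_eq_zero_iff.mp h0
    exact (this.false p).elim
  | succ n ihn =>
    intro m
    induction m with
    | zero =>
      intro A Q _ _ δ S _ hS hCF p q
      have hS0 : S.ncard = 0 := by omega
      have hSe : S = ∅ := (Set.ncard_eq_zero (Set.toFinite S)).mp hS0
      exact LL_ident δ S (by rw [hSe]; simp) p q
    | succ m ihm =>
      intro A Q _ _ δ S hQ hS hCF p q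
      by_cases hinj : ∀ a ∈ S, Function.Injective (δ a)
      · apply LL_ident
        intro a ha x
        have hbij : Function.Bijective (δ a) :=
          Finite.injective_iff_bijective.mp (hinj a ha)
        let e : Equiv.Perm Q := Equiv.ofBijective _ hbij
        have ho : 1 ≤ orderOf e := orderOf_pos e
        have hk : (run δ [a])^[orderOf e] x = x := by
          have h1 : (e ^ orderOf e) x = x := by rw [pow_orderOf_eq_one]; rfl
          have h2 : ∀ k, (run δ [a])^[k] x = (e ^ k) x := by
            intro k
            induction k with
            | zero => rfl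
            | succ k ih =>
              rw [Function.iterate_succ_apply', ih, pow_succ']
              rfl
          rw [h2, h1]
        exact hCF [a] (by intro b hb; simp only [List.mem_singleton] at hb; rw [hb]; exact ha)
          x _ ho hk
      · push Not at hinj
        obtain ⟨c, hcS, hcinj⟩ := hinj
        set B : Set A := S \ {c} with hB
        have hBS : B ⊆ S := Set.sdiff_subset
        have hBcard : B.ncard ≤ m := by
          have := Set.ncard_sdiff_singleton_add_one hcS (Set.toFinite S)
          rw [← hB] at this
          omega
        have hCFB : CF δ B := fun w hw => hCF w (wordsIn_mono hBS hw)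
        have hLB : ∀ p q, GSH 0 (LL δ B p q) := ihm A Q δ B hQ hBcard hCFB
        let Q' := {x : Q // x ∈ Set.range (δ c)}
        have hQ' : Nat.card Q' ≤ n := by
          have hns : Set.range (δ c) ≠ Set.univ := by
            intro h
            exact hcinj (Finite.injective_iff_surjective.mpr (Set.range_eq_univ.mp h))
          have h1 : (Set.range (δ c)).ncard < (Set.univ : Set Q).ncard :=
            Set.ncard_lt_ncard (Set.ssubset_univ_iff.mpr hns) (Set.toFinite _)
          rw [Set.ncard_univ] at h1
          have h2 : Nat.card Q' = (Set.range (δ c)).ncard := rfl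
          omega
        let δ' : (Q → Q) → Q' → Q' := fun t x => ⟨δ c (t x.1), Set.mem_range_self _⟩
        let S' : Set (Q → Q) := {t | ∃ u ∈ wordsIn B, run δ u = t}
        have hlift : ∀ us : List (List A), (∀ u ∈ us, u ∈ wordsIn B) → ∀ x : Q',
            (run δ' (us.map (run δ)) x).1 =
              run δ (us.map (fun u => u ++ [c])).flatten x.1 := by
          intro us
          induction us with
          | nil => intro _ x; rfl
          | cons u us ih =>
            intro hus x
            rw [List.map_cons, run_cons, ih (fun v hv => hus v (by simp [hv])), List.map_cons,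
              List.flatten_cons, run_append, run_append, run_singleton]
        have hS'w : ∀ us : List (List A), (∀ u ∈ us, u ∈ wordsIn B) →
            us.map (run δ) ∈ wordsIn S' := by
          intro us hus t ht
          obtain ⟨u, hu, rfl⟩ := List.mem_map.mp ht
          exact ⟨u, hus u hu, rfl⟩
        have hS'ex : ∀ w ∈ wordsIn S', ∃ us : List (List A), (∀ u ∈ us, u ∈ wordsIn B) ∧
            w = us.map (run δ) := by
          intro w
          induction w with
          | nil => intro _; exact ⟨[], by simp, rfl⟩
          | cons t w ih =>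
            intro hw
            obtain ⟨us, h1, h2⟩ := ih fun s hs => hw s (by simp [hs])
            obtain ⟨u, hu, hut⟩ := hw t (by simp)
            refine ⟨u :: us, ?_, by simp [hut, h2]⟩
            intro v hv
            rcases List.mem_cons.mp hv with h | h
            · rw [h]; exact hu
            · exact h1 v h
        have hflatS : ∀ us : List (List A), (∀ u ∈ us, u ∈ wordsIn B) →
            (us.map (fun u => u ++ [c])).flatten ∈ wordsIn S := by
          intro us hus a ha
          simp only [List.mem_flatten, List.mem_map] at ha
          obtain ⟨l, ⟨u, hu, rfl⟩, hal⟩ := ha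
          rcases List.mem_append.mp hal with h | h
          · exact hBS (hus u hu a h)
          · simp only [List.mem_singleton] at h
            rw [h]; exact hcS
        have hCF' : CF δ' S' := by
          intro w hw x k hk hx
          obtain ⟨us, h1, rfl⟩ := hS'ex w hw
          have h2 : ∀ j (y : Q'), ((run δ' (us.map (run δ)))^[j] y).1 =
              (run δ (us.map (fun u => u ++ [c])).flatten)^[j] y.1 := by
            intro j
            induction j with
            | zero => intro y; rfl
            | succ j ih =>
              intro y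
              rw [Function.iterate_succ_apply, ih, Function.iterate_succ_apply, hlift us h1]
          have h3 := h2 k x
          rw [hx] at h3
          have h4 := hCF _ (hflatS us h1) x.1 k hk h3.symm
          apply Subtype.ext
          rw [hlift us h1, h4]
        have hL' : ∀ s r : Q', GSH 0 (LL δ' S' s r) :=
          ihn S'.ncard (Q → Q) Q' δ' S' hQ' le_rfl hCF'
        have hletter : ∀ t : Q → Q, GSH 0 {u | u ∈ wordsIn B ∧ run δ u = t} := by
          intro t
          have : {u | u ∈ wordsIn B ∧ run δ u = t} = wordsIn B ∩ ⋂ x, LL δ B x (t x) := by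
            ext u
            simp only [Set.mem_ofPred_eq, Set.mem_inter_iff, Set.mem_iInter, LL]
            constructor
            · rintro ⟨h1, rfl⟩; exact ⟨h1, fun _ => ⟨h1, rfl⟩⟩
            · rintro ⟨h1, h2⟩; exact ⟨h1, funext fun x => (h2 x).2⟩
          rw [this]
          exact gsh_inter (gsh_wordsIn 0 B) (gsh_iInter _ fun x => hLB x (t x))
        have hpull : ∀ s r : Q', GSH 0 (pull c B (run δ) (LL δ' S' s r)) := by
          intro s r
          obtain ⟨E, hE1, hE2⟩ := hL' s r
          rw [← hE2]
          exact gsh_pull c B (run δ) S hcS hB hletter E hE1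
        have key : LL δ S p q = LL δ B p q ∪ ⋃ i : Q × Q' × Q',
            {w | δ c i.1 = i.2.1.1 ∧ w ∈ cat (cat (cat (LL δ B p i.1) {[c]})
              (pull c B (run δ) (LL δ' S' i.2.1 i.2.2))) (LL δ B i.2.2.1 q)} := by
          ext w
          constructor
          · rintro ⟨hw, hr⟩
            by_cases hcw : c ∈ w
            · right
              obtain ⟨x, z, v, rfl, hx, hv, hz⟩ := exists_split c S B hB w hw hcw
              rw [← pull_univ c B (run δ) S hcS hB] at hz
              obtain ⟨us, hus, hzus, -⟩ := hz
              let s : Q' := ⟨δ c (run δ x p), Set.mem_range_self _⟩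
              rw [Set.mem_iUnion]
              refine ⟨⟨run δ x p, s, run δ' (us.map (run δ)) s⟩, rfl, ?_⟩
              refine ⟨x ++ [c] ++ z, ⟨x ++ [c], ⟨x, ⟨hx, rfl⟩, [c], rfl, rfl⟩, z,
                ⟨us, hus, hzus, hS'w us hus, rfl⟩, rfl⟩, v, ⟨hv, ?_⟩, rfl⟩
              rw [hlift us hus, ← hzus]
              rw [run_append, run_append, run_append, run_singleton] at hr
              exact hr
            · left
              refine ⟨?_, hr⟩
              intro a ha
              refine ⟨hw a ha, ?_⟩
              intro hac
              rw [Set.mem_singleton_iff] at hac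
              exact hcw (hac ▸ ha)
          · rintro (⟨hw, hr⟩ | hw)
            · exact ⟨wordsIn_mono hBS hw, hr⟩
            · rw [Set.mem_iUnion] at hw
              obtain ⟨⟨p', s, r⟩, h1, x1, ⟨x2, ⟨x, ⟨hx, hxr⟩, c', hc', rfl⟩, z,
                ⟨us, hus, hzus, hS', hzr⟩, rfl⟩, v, ⟨hv, hvr⟩, rfl⟩ := hw
              rw [Set.mem_singleton_iff] at hc'
              subst hc'
              simp only at h1 hxr hzr hvr
              constructor
              · rw [wordsIn_append, wordsIn_append, wordsIn_append]
                refine ⟨⟨⟨wordsIn_mono hBS hx, ?_⟩, ?_⟩, wordsIn_mono hBS hv⟩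
                · intro a ha
                  simp only [List.mem_singleton] at ha
                  rw [ha]; exact hcS
                · rw [hzus]; exact hflatS us hus
              · rw [run_append, run_append, run_append, run_singleton, hxr, h1, hzus,
                  ← hlift us hus, hzr, hvr]
        rw [key]
        refine gsh_union (hLB p q) (gsh_iUnion _ fun i => gsh_prop_union ?_)
        exact gsh_cat (gsh_cat (gsh_cat (hLB _ _) (gsh_letter 0 c)) (hpull _ _)) (hLB _ _)

/-- Schutzenberger's theorem for counter-free automata -/
theorem schutz {A Q : Type} [Finite A] [Finite Q] (δ : A → Q → Q) (h : CF δ Set.univ) (p q : Q) :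
    GSH 0 {w | run δ w p = q} := by
  have := schutz_aux (Nat.card Q) (Set.univ : Set A).ncard A Q δ Set.univ le_rfl le_rfl h p q
  have e : LL δ Set.univ p q = {w | run δ w p = q} := by
    ext w
    simp [LL, wordsIn]
  rwa [e] at this

end Vale.Agent.P329
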